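import Vale.Agent.Lib.P171.Pressure

/-!
# Elementary bounds for the pure core potential and superstability
-/

open MeasureTheory Set Real Filter
open scoped ENNReal Topology

namespace Vale.Agent.Lib.P171

section pairs
variable {ι : Type} [Fintype ι] [DecidableEq ι]

lemma offSum_const_on (ψ : R3 → R3 → ℝ) (w : ℝ) (x : ι → R3) (h : ∀ i j, ψ (x i) (x j) = w) :
    offSum ψ x = w * ((Fintype.card ι : ℝ) ^ 2 - Fintype.card ι) := by
  have h1 := sum_pairs_eq ψ x
  simp only [h, Finset.sum_const, Finset.card_univ, nsmul_eq_mul] at h1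
  have : offSum ψ x = (Fintype.card ι : ℝ) * ((Fintype.card ι : ℝ) * w) - (Fintype.card ι : ℝ) * w := by
    linarith
  rw [this]; ring

omit [DecidableEq ι] in
/-- Counting pairs in a common cell by the cell occupation numbers. -/
lemma sum_same_eq_sq (C : ι → (Fin 3 → ℤ)) :
    ∑ i, ∑ j, (if C i = C j then (1 : ℝ) else 0)
      = ∑ c ∈ Finset.univ.image C, ((Finset.univ.filter fun i => C i = c).card : ℝ) ^ 2 := by
  classical
  set 𝒞 : Finset (Fin 3 → ℤ) := Finset.univ.image C with h𝒞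
  set n : (Fin 3 → ℤ) → ℝ := fun c => ((Finset.univ.filter fun i => C i = c).card : ℝ) with hn
  have hcomp : ∀ f : (Fin 3 → ℤ) → ℝ, ∑ i, f (C i) = ∑ c ∈ 𝒞, n c * f c := by
    intro f
    rw [Finset.sum_comp f C]
    simp only [nsmul_eq_mul]
    rfl
  have h1 : ∀ i, ∑ j, (if C i = C j then (1 : ℝ) else 0)
      = ∑ c' ∈ 𝒞, n c' * (if C i = c' then (1 : ℝ) else 0) := fun i =>
    hcomp (fun c' => if C i = c' then (1 : ℝ) else 0)
  simp_rw [h1]
  rw [hcomp (fun c => ∑ c' ∈ 𝒞, n c' * (if c = c' then (1 : ℝ) else 0))]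
  refine Finset.sum_congr rfl fun c hc => ?_
  have : ∑ c' ∈ 𝒞, n c' * (if c = c' then (1 : ℝ) else 0) = n c := by
    rw [Finset.sum_eq_single c]
    · simp
    · intro b _ hb
      simp [hb.symm]
    · intro h; exact absurd hc h
  rw [this]
  ring

omit [DecidableEq ι] in
/-- Cauchy-Schwarz: particles confined to few cells have many pairs in a common cell. -/
lemma card_sq_le_of_cells (C : ι → (Fin 3 → ℤ)) (F : Finset (Fin 3 → ℤ)) (hF : ∀ i, C i ∈ F) :
    (Fintype.card ι : ℝ) ^ 2 ≤ (F.card : ℝ) * ∑ i, ∑ j, (if C i = C j then (1 : ℝ) else 0) := by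
  classical
  rw [sum_same_eq_sq]
  set 𝒞 : Finset (Fin 3 → ℤ) := Finset.univ.image C with h𝒞
  set n : (Fin 3 → ℤ) → ℝ := fun c => ((Finset.univ.filter fun i => C i = c).card : ℝ) with hn
  have h1 : (Fintype.card ι : ℝ) = ∑ c ∈ 𝒞, n c := by
    have h2 : Fintype.card ι = ∑ c ∈ 𝒞, (Finset.univ.filter fun i => C i = c).card := by
      rw [← Finset.card_univ]
      exact Finset.card_eq_sum_card_image C Finset.univ
    rw [h2]
    push_cast
    rfl
  have hsub : 𝒞 ⊆ F := by
    intro c hc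
    obtain ⟨i, _, rfl⟩ := Finset.mem_image.1 hc
    exact hF i
  have hcard : (𝒞.card : ℝ) ≤ F.card := by exact_mod_cast Finset.card_le_card hsub
  have hcs : (∑ c ∈ 𝒞, n c) ^ 2 ≤ (𝒞.card : ℝ) * ∑ c ∈ 𝒞, n c ^ 2 := sq_sum_le_card_mul_sum_sq
  rw [h1]
  exact le_trans hcs (mul_le_mul_of_nonneg_right hcard (Finset.sum_nonneg fun _ _ => sq_nonneg _))

/-- Particles in `[0,n)^3` have many near pairs. -/
lemma nearCount_ge {n : ℕ} (hn : 0 < n) (x : ι → R3) (hx : ∀ i a, 0 ≤ x i a ∧ x i a < n) :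
    (Fintype.card ι : ℝ) ^ 2 / (n : ℝ) ^ 3 - Fintype.card ι ≤ nearCount x := by
  have hn' : (0 : ℝ) < n := by exact_mod_cast hn
  set F : Finset (Fin 3 → ℤ) := Fintype.piFinset fun _ => Finset.Ico (0 : ℤ) n with hF
  have hFc : (F.card : ℝ) = (n : ℝ) ^ 3 := by
    rw [hF, Fintype.card_piFinset]
    simp
  have hmem : ∀ i, cellIdx 1 0 (x i) ∈ F := by
    intro i
    rw [hF, Fintype.mem_piFinset]
    intro a
    simp only [cellIdx, Pi.zero_apply, Nat.cast_zero, add_zero, Nat.cast_one, div_one,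
      Finset.mem_Ico]
    constructor
    · exact Int.floor_nonneg.2 (hx i a).1
    · exact Int.floor_lt.2 (by exact_mod_cast (hx i a).2)
  have h1 := card_sq_le_of_cells (fun i => cellIdx 1 0 (x i)) F hmem
  rw [hFc] at h1
  have h2 := unitPairs_le x
  unfold unitPairs at h2
  have h3 : (Fintype.card ι : ℝ) ^ 2 / (n : ℝ) ^ 3 ≤ ∑ i, ∑ j,
      (if cellIdx 1 0 (x i) = cellIdx 1 0 (x j) then (1 : ℝ) else 0) := by
    rw [div_le_iff₀ (by positivity)]
    linarith
  linarith

/-- Superstability of the family on `[0,n)^3`. -/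
lemma half_offSum_ge_super {h : ℝ} {c : ℕ → ℝ} (hc : Summable fun k => |c k|)
    (hdom : 2 * (∑' k, |c k|) ≤ h) {n : ℕ} (hn : 0 < n) (x : ι → R3)
    (hx : ∀ i a, 0 ≤ x i a ∧ x i a < n) :
    ((h - 2 * ∑' k, |c k|) / 2) * ((Fintype.card ι : ℝ) ^ 2 / (n : ℝ) ^ 3 - Fintype.card ι)
      - (∑' k, |c k|) * (Fintype.card ι : ℝ) ≤ (1 / 2) * offSum (radK (pot h c)) x := by
  have h1 := half_offSum_ge (h := h) hc x
  have h2 := nearCount_ge hn x hx
  have h3 := mul_le_mul_of_nonneg_left h2 (show 0 ≤ (h - 2 * ∑' k, |c k|) / 2 by linarith)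
  linarith

end pairs

/-! ### The pure core potential -/

lemma pot_zero (h r : ℝ) : pot h (fun _ => 0) r = h * (if r ≤ 2 then 1 else 0) := by
  simp [pot]

lemma summable_zero_abs : Summable fun _ : ℕ => |(0 : ℝ)| := by
  simp only [abs_zero]; exact summable_zero

lemma InDom_zero {h : ℝ} (hh : 0 ≤ h) : InDom h (fun _ => 0) := by
  refine ⟨summable_zero_abs, ?_⟩
  simpa using hh

lemma offSum_pot_zero {ι : Type} [Fintype ι] [DecidableEq ι] (h : ℝ) (x : ι → R3) :
    offSum (radK (pot h (fun _ => 0))) x = h * nearCount x := by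
  have h1 : radK (pot h (fun _ => 0)) = fun u v => h * (if euclDist u v ≤ 2 then (1 : ℝ) else 0) := by
    funext u v
    exact pot_zero h _
  rw [h1, offSum_const_mul]
  rfl

/-- The low activity bound: the pressure of a repulsive potential is at most the activity. -/
lemma Pr_zero_le_exp {h : ℝ} (hh : 0 ≤ h) (ν : ℝ) : Pr h (fun _ => 0) ν ≤ exp ν := by
  refine Pr_le_of_eventually ν (eventually_pos_real.mono fun L hL => ?_)
  have hb := GP_le_exp (ψ := radK (pot h (fun _ => 0))) (μ := ν) (D := cube L) (V := L ^ 3) (C := 0)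
    (b := ν) (measurableSet_cube L) (by positivity) (volume_cube hL.le).le
    (fun N x _ => by
      unfold wt
      refine ENNReal.ofReal_le_ofReal (Real.exp_le_exp.2 ?_)
      rw [offSum_pot_zero, Fintype.card_fin]
      have := mul_nonneg hh (nearCount_nonneg x)
      nlinarith)
  unfold fp
  have h1 := log_toReal_le hb (one_le_GP _ _ _)
  have h2 : 0 < L ^ 3 := by positivity
  rw [inv_mul_le_iff₀ h2]
  linarith

/-- The quadratic bound on the pressure from superstability. -/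
lemma Pr_zero_le_quad {h : ℝ} (hh : 0 < h) (ν : ℝ) :
    Pr h (fun _ => 0) ν ≤ 1 + (ν + h / 2) ^ 2 / (2 * h) := by
  set Q := (ν + h / 2) ^ 2 / (2 * h) with hQ
  have hQ0 : 0 ≤ Q := by positivity
  refine le_of_forall_pos_le_add fun θ hθ => ?_
  have hlim : Tendsto (fun L : ℝ => ((L + 1) / L) ^ 3 * Q) atTop (𝓝 (1 ^ 3 * Q)) := by
    refine Tendsto.mul_const _ (Tendsto.pow ?_ 3)
    have h1 : Tendsto (fun L : ℝ => 1 + L⁻¹) atTop (𝓝 (1 + 0)) :=
      tendsto_const_nhds.add tendsto_inv_atTop_zero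
    rw [add_zero] at h1
    refine h1.congr' ?_
    filter_upwards [eventually_gt_atTop 0] with L hL
    field_simp
  have hev : ∀ᶠ L : ℝ in atTop, ((L + 1) / L) ^ 3 * Q < 1 ^ 3 * Q + θ :=
    hlim.eventually (gt_mem_nhds (by linarith))
  refine Pr_le_of_eventually ν ?_
  filter_upwards [hev, eventually_gt_atTop 1] with L hL1 hL
  have hL0 : 0 < L := by linarith
  set n : ℕ := ⌊L⌋₊ + 1 with hn
  have hnpos : 0 < n := Nat.succ_pos _
  have hnle : (n : ℝ) ≤ L + 1 := by
    rw [hn]; push_cast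
    linarith [Nat.floor_le hL0.le]
  have hnpos' : (0 : ℝ) < n := by exact_mod_cast hnpos
  have hb := GP_le_exp (ψ := radK (pot h (fun _ => 0))) (μ := ν) (D := cube L) (V := L ^ 3)
    (C := (n : ℝ) ^ 3 * Q) (b := 0) (measurableSet_cube L) (by positivity) (volume_cube hL0.le).le
    (fun N x hx => by
      unfold wt
      refine ENNReal.ofReal_le_ofReal (Real.exp_le_exp.2 ?_)
      rw [offSum_pot_zero, Fintype.card_fin]
      have hx' : ∀ i a, 0 ≤ x i a ∧ x i a < n := by
        intro i a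
        refine ⟨(hx i a).1, lt_of_le_of_lt (hx i a).2 ?_⟩
        rw [hn]; push_cast
        exact Nat.lt_floor_add_one L
      have h1 := nearCount_ge hnpos x hx'
      rw [Fintype.card_fin] at h1
      have h2 := mul_le_mul_of_nonneg_left h1 (show 0 ≤ h by linarith)
      -- complete the square
      set y : ℝ := (N : ℝ) / (n : ℝ) ^ 3 with hy
      have hn3 : 0 < (n : ℝ) ^ 3 := by positivity
      have hNy : (N : ℝ) = y * (n : ℝ) ^ 3 := by rw [hy]; field_simp
      have hsq : (ν + h / 2) * y - (h / 2) * y ^ 2 ≤ Q := by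
        rw [hQ, le_div_iff₀ (by positivity)]
        nlinarith [sq_nonneg ((ν + h / 2) - h * y)]
      have hNsq : (N : ℝ) ^ 2 / (n : ℝ) ^ 3 = y ^ 2 * (n : ℝ) ^ 3 := by
        rw [hNy]; field_simp
      rw [hNsq] at h2
      have h3 := mul_le_mul_of_nonneg_left hsq hn3.le
      rw [hNy] at h2 ⊢
      nlinarith)
  unfold fp
  have h1 := log_toReal_le hb (one_le_GP _ _ _)
  have h2 : 0 < L ^ 3 := by positivity
  rw [inv_mul_le_iff₀ h2]
  simp only [Real.exp_zero, mul_one] at h1
  have h3 : (n : ℝ) ^ 3 ≤ (L + 1) ^ 3 := pow_le_pow_left₀ hnpos'.le hnle 3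
  have h4 : (n : ℝ) ^ 3 * Q ≤ (L + 1) ^ 3 * Q := mul_le_mul_of_nonneg_right h3 hQ0
  have h5 : (L + 1) ^ 3 * Q = L ^ 3 * (((L + 1) / L) ^ 3 * Q) := by
    field_simp
  have h6 : L ^ 3 * (((L + 1) / L) ^ 3 * Q) ≤ L ^ 3 * (1 ^ 3 * Q + θ) :=
    mul_le_mul_of_nonneg_left hL1.le h2.le
  nlinarith

lemma abs_le_euclDist (u v : R3) (a : Fin 3) : |u a - v a| ≤ euclDist u v := by
  unfold euclDist
  apply Real.abs_le_sqrt
  exact Finset.single_le_sum (f := fun a => (u a - v a) ^ 2) (fun _ _ => sq_nonneg _)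
    (Finset.mem_univ a)

/-- Unit cubes well separated from each other. -/
def innerCube (m : Fin 3 → ℕ) : Set R3 := {x | ∀ a, 4 * (m a : ℝ) ≤ x a ∧ x a ≤ 4 * (m a : ℝ) + 1}

lemma innerCube_eq (m : Fin 3 → ℕ) :
    innerCube m = (fun x => x + fun a => -(4 * (m a : ℝ))) ⁻¹' cube 1 := by
  ext x
  simp only [innerCube, cube, Set.mem_ofPred_eq, Set.mem_preimage, Pi.add_apply]
  constructor
  · intro h a
    constructor <;> linarith [(h a).1, (h a).2]
  · intro h a
    constructor <;> linarith [(h a).1, (h a).2]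

lemma measurableSet_innerCube (m : Fin 3 → ℕ) : MeasurableSet (innerCube m) := by
  have : innerCube m = Set.pi Set.univ (fun a => Icc (4 * (m a : ℝ)) (4 * (m a : ℝ) + 1)) := by
    ext x
    simp only [innerCube, Set.mem_ofPred_eq, Set.mem_pi, Set.mem_univ, true_implies, Set.mem_Icc]
  rw [this]
  exact MeasurableSet.univ_pi fun _ => measurableSet_Icc

lemma innerCube_sep {m m' : Fin 3 → ℕ} (hm : m ≠ m') {u v : R3} (hu : u ∈ innerCube m)
    (hv : v ∈ innerCube m') : 3 ≤ euclDist u v := by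
  obtain ⟨a, ha⟩ := Function.ne_iff.1 hm
  refine le_trans ?_ (abs_le_euclDist u v a)
  have h1 := hu a
  have h2 := hv a
  rcases Nat.lt_or_gt_of_ne ha with h | h
  · have h3 : (m a : ℝ) + 1 ≤ m' a := by exact_mod_cast h
    have : u a - v a ≤ -3 := by linarith [h1.2, h2.1]
    rw [abs_of_nonpos (by linarith)]
    linarith
  · have h3 : (m' a : ℝ) + 1 ≤ m a := by exact_mod_cast h
    have : 3 ≤ u a - v a := by linarith [h1.1, h2.2]
    rw [abs_of_nonneg (by linarith)]
    linarith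

lemma GP_cube_pow_le (h ν : ℝ) (n : ℕ) :
    (GP (radK (pot h (fun _ => 0))) ν (cube 1)) ^ (n ^ 3)
      ≤ GP (radK (pot h (fun _ => 0))) ν (cube (4 * (n : ℝ))) := by
  classical
  set ψ := radK (pot h (fun _ => 0)) with hψ
  have hmeas : Measurable (Function.uncurry ψ) :=
    measurable_radK (measurable_pot _ summable_zero_abs)
  set F : Finset (Fin 3 → ℕ) := Fintype.piFinset fun _ => Finset.range n with hF
  have hFc : F.card = n ^ 3 := by
    rw [hF, Fintype.card_piFinset]
    simp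
  have hun := GP_biUnion hmeas F innerCube (fun m _ => measurableSet_innerCube m)
    (fun m _ m' _ hne => by
      rw [Set.disjoint_left]
      intro x hx hx'
      have := innerCube_sep hne hx hx'
      have h0 : euclDist x x = 0 := by unfold euclDist; simp
      linarith) ν
    (fun m _ m' _ hne u hu v hv => by
      have := innerCube_sep hne hu hv
      rw [hψ]
      unfold radK
      rw [pot_zero, if_neg (by linarith), mul_zero])
  have hcube : ∀ m, GP ψ ν (innerCube m) = GP ψ ν (cube 1) := by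
    intro m
    rw [innerCube_eq]
    exact GP_translate ν (cube 1) _ (fun u v => radK_add _ u v _)
  simp only [hcube, Finset.prod_const, hFc] at hun
  rw [← hun]
  refine GP_mono ψ ν ?_
  intro x hx
  simp only [Set.mem_iUnion] at hx
  obtain ⟨m, hm, hx⟩ := hx
  intro a
  have h1 := hx a
  have h2 : m a < n := by
    have := Fintype.mem_piFinset.1 hm a
    exact Finset.mem_range.1 this
  have h3 : (m a : ℝ) + 1 ≤ n := by exact_mod_cast h2
  have h4 : (0 : ℝ) ≤ m a := Nat.cast_nonneg _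
  exact ⟨by linarith [h1.1], by linarith [h1.2]⟩

/-- The lower bound for the pressure by well separated unit cubes. -/
lemma Pr_zero_ge_log {h : ℝ} (hh : 0 ≤ h) (ν : ℝ) :
    (1 / 64) * Real.log (GP (radK (pot h (fun _ => 0))) ν (cube 1)).toReal ≤ Pr h (fun _ => 0) ν := by
  refine le_limsup_of_frequently (eventually_fp_le (InDom_zero hh) ν) ?_
  rw [frequently_atTop]
  intro a
  obtain ⟨n, hn⟩ := exists_nat_gt (max a 1)
  have hn1 : (1 : ℝ) < n := lt_of_le_of_lt (le_max_right _ _) hn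
  have hna : a ≤ n := (le_trans (le_max_left _ _) hn.le)
  have hn0 : (0 : ℝ) < n := by linarith
  refine ⟨4 * (n : ℝ), by linarith, ?_⟩
  unfold fp
  set X := GP (radK (pot h (fun _ => 0))) ν (cube 1) with hX
  set Y := GP (radK (pot h (fun _ => 0))) ν (cube (4 * (n : ℝ))) with hY
  have hXf : X ≠ ⊤ := ne_top_of_le_ne_top ENNReal.ofReal_ne_top
    (GP_le_of_InDom (InDom_zero hh) ν (by norm_num))
  have hYf : Y ≠ ⊤ := ne_top_of_le_ne_top ENNReal.ofReal_ne_top
    (GP_le_of_InDom (InDom_zero hh) ν (by positivity))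
  have hX1 : 1 ≤ X.toReal := by
    have := ENNReal.toReal_mono hXf (one_le_GP (radK (pot h (fun _ => 0))) ν (cube 1))
    simpa using this
  have hle : X ^ (n ^ 3) ≤ Y := GP_cube_pow_le h ν n
  have hle2 : X.toReal ^ (n ^ 3) ≤ Y.toReal := by
    have := ENNReal.toReal_mono hYf hle
    rwa [ENNReal.toReal_pow] at this
  have hXpos : 0 < X.toReal := by linarith
  have hlog : ((n : ℝ) ^ 3) * Real.log X.toReal ≤ Real.log Y.toReal := by
    have := Real.log_le_log (by positivity) hle2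
    rw [Real.log_pow] at this
    push_cast at this
    exact this
  have hL : (4 * (n : ℝ)) ^ 3 = 64 * (n : ℝ) ^ 3 := by ring
  rw [hL]
  have hpos : 0 < 64 * (n : ℝ) ^ 3 := by positivity
  rw [le_inv_mul_iff₀ hpos]
  calc 64 * (n : ℝ) ^ 3 * (1 / 64 * Real.log X.toReal) = (n : ℝ) ^ 3 * Real.log X.toReal := by ring
    _ ≤ _ := hlog

/-- The term with `N` particles of the partition sum on the unit cube. -/
lemma term_cube_one (h ν : ℝ) (N : ℕ) :
    (N.factorial : ℝ≥0∞)⁻¹ * intD (radK (pot h (fun _ => 0))) ν (cube 1) (Fin N)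
      = ENNReal.ofReal (exp (ν * N - (1 / 2) * (h * ((N : ℝ) ^ 2 - N))) / N.factorial) := by
  have hw : ∀ x ∈ Set.pi Set.univ (fun _ : Fin N => cube 1), wt (radK (pot h (fun _ => 0))) ν x
      = ENNReal.ofReal (exp (ν * N - (1 / 2) * (h * ((N : ℝ) ^ 2 - N)))) := by
    intro x hx
    have hx' : ∀ i, x i ∈ cube 1 := fun i => hx i (Set.mem_univ i)
    have hnear : nearCount x = 1 * ((N : ℝ) ^ 2 - N) := by
      unfold nearCount
      rw [offSum_const_on _ 1 x, Fintype.card_fin]
      intro i j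
      rw [if_pos]
      unfold euclDist
      rw [show (2 : ℝ) = √4 by
        rw [show (4 : ℝ) = 2 ^ 2 by norm_num, Real.sqrt_sq (by norm_num)]]
      apply Real.sqrt_le_sqrt
      have h1 : ∀ a, (x i a - x j a) ^ 2 ≤ 1 := by
        intro a
        have h2 := hx' i a
        have h3 := hx' j a
        rw [sq_le_one_iff_abs_le_one, abs_le]
        constructor <;> linarith [h2.1, h2.2, h3.1, h3.2]
      rw [Fin.sum_univ_three]
      linarith [h1 0, h1 1, h1 2]
    unfold wt
    rw [offSum_pot_zero, hnear, Fintype.card_fin, one_mul]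
  unfold intD
  rw [setLIntegral_congr_fun (measurableSet_pi_const (measurableSet_cube 1)) hw, setLIntegral_const]
  have hvol : volume (Set.pi Set.univ (fun _ : Fin N => cube 1)) = 1 := by
    rw [volume_pi_pi]
    simp [volume_cube (show (0 : ℝ) ≤ 1 by norm_num)]
  rw [hvol, mul_one]
  have h2 : (N.factorial : ℝ≥0∞)⁻¹ = ENNReal.ofReal (1 / N.factorial) := by
    rw [one_div, ENNReal.ofReal_inv_of_pos (by positivity)]
    simp
  rw [h2, ← ENNReal.ofReal_mul (by positivity)]
  congr 1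
  ring

lemma log_GP_cube_one_ge_term {h : ℝ} (hh : 0 ≤ h) (ν : ℝ) (N : ℕ) :
    ν * N - (1 / 2) * (h * ((N : ℝ) ^ 2 - N)) - Real.log N.factorial
      ≤ Real.log (GP (radK (pot h (fun _ => 0))) ν (cube 1)).toReal := by
  set X := GP (radK (pot h (fun _ => 0))) ν (cube 1) with hX
  have hXf : X ≠ ⊤ := ne_top_of_le_ne_top ENNReal.ofReal_ne_top
    (GP_le_of_InDom (InDom_zero hh) ν (by norm_num))
  have h1 := term_le_GP (radK (pot h (fun _ => 0))) ν (cube 1) N
  rw [term_cube_one] at h1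
  have h2 := ENNReal.toReal_mono hXf h1
  have hf : (0 : ℝ) < N.factorial := by positivity
  rw [ENNReal.toReal_ofReal (by positivity)] at h2
  have h3 := Real.log_le_log (by positivity) h2
  rw [Real.log_div (exp_pos _).ne' hf.ne', Real.log_exp] at h3
  exact h3

lemma log_GP_cube_one_ge_one {h : ℝ} (hh : 0 ≤ h) (ν : ℝ) :
    Real.log (1 + exp ν) ≤ Real.log (GP (radK (pot h (fun _ => 0))) ν (cube 1)).toReal := by
  set X := GP (radK (pot h (fun _ => 0))) ν (cube 1) with hX
  have hXf : X ≠ ⊤ := ne_top_of_le_ne_top ENNReal.ofReal_ne_top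
    (GP_le_of_InDom (InDom_zero hh) ν (by norm_num))
  have h1 : ∑ N ∈ Finset.range 2, (N.factorial : ℝ≥0∞)⁻¹ *
      intD (radK (pot h (fun _ => 0))) ν (cube 1) (Fin N) ≤ X := ENNReal.sum_le_tsum _
  simp only [Finset.sum_range_succ, Finset.sum_range_zero, zero_add] at h1
  rw [term_cube_one, term_cube_one] at h1
  have h2 := ENNReal.toReal_mono hXf h1
  rw [ENNReal.toReal_add ENNReal.ofReal_ne_top ENNReal.ofReal_ne_top,
    ENNReal.toReal_ofReal (by positivity), ENNReal.toReal_ofReal (by positivity)] at h2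
  simp only [Nat.factorial_zero, Nat.factorial_one, Nat.cast_zero, Nat.cast_one, mul_zero, mul_one,
    zero_pow, ne_eq, OfNat.ofNat_ne_zero, not_false_eq_true, sub_self, sub_zero, one_pow, div_one,
    Real.exp_zero] at h2
  exact Real.log_le_log (by positivity) h2

lemma Pr_zero_ge_one {h : ℝ} (hh : 0 ≤ h) (ν : ℝ) :
    (1 / 64) * Real.log (1 + exp ν) ≤ Pr h (fun _ => 0) ν :=
  le_trans (mul_le_mul_of_nonneg_left (log_GP_cube_one_ge_one hh ν) (by norm_num))
    (Pr_zero_ge_log hh ν)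

lemma Pr_zero_ge_term {h : ℝ} (hh : 0 ≤ h) (ν : ℝ) (N : ℕ) :
    (1 / 64) * (ν * N - (1 / 2) * (h * ((N : ℝ) ^ 2 - N)) - Real.log N.factorial)
      ≤ Pr h (fun _ => 0) ν :=
  le_trans (mul_le_mul_of_nonneg_left (log_GP_cube_one_ge_term hh ν N) (by norm_num))
    (Pr_zero_ge_log hh ν)

end Vale.Agent.Lib.P171
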