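import Mathlib

/-!
# Convex analysis: Ekeland's variational principle, subgradients, double tangents
-/

open Set Filter Topology

namespace Vale.Agent.Lib.P171

/-! ### Ekeland's variational principle -/

section ekeland
variable {X : Type*} [MetricSpace X] [CompleteSpace X]

/-- **Ekeland's variational principle** for a continuous nonnegative function on a closed set. -/
theorem ekeland {Y : Set X} (hY : IsClosed Y) {f : X → ℝ} (hf : ContinuousOn f Y)
    (hb : ∀ y ∈ Y, 0 ≤ f y) {γ : ℝ} (hγ : 0 < γ) {x₀ : X} (hx₀ : x₀ ∈ Y) :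
    ∃ x ∈ Y, γ * dist x x₀ ≤ f x₀ - f x ∧ ∀ y ∈ Y, f x ≤ f y + γ * dist x y := by
  classical
  -- the order sets
  set S : X → Set X := fun x => {y | y ∈ Y ∧ f y + γ * dist x y ≤ f x} with hS
  have hSself : ∀ x ∈ Y, x ∈ S x := fun x hx => ⟨hx, by simp⟩
  have hStrans : ∀ {x y z : X}, y ∈ S x → z ∈ S y → z ∈ S x := by
    intro x y z hxy hyz
    refine ⟨hyz.1, ?_⟩
    have h1 := hxy.2
    have h2 := hyz.2
    have h3 := dist_triangle x y z
    have h4 := mul_le_mul_of_nonneg_left h3 hγ.le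
    linarith
  -- approximate minimisers in the order sets
  have hchoose : ∀ (x : Y) (n : ℕ), ∃ y : Y, (y : X) ∈ S x ∧
      ∀ z ∈ S x, f y ≤ f z + (1 / 2) ^ n := by
    intro x n
    have hne : (f '' S x).Nonempty := ⟨f x, x, hSself x x.2, rfl⟩
    have hbd : BddBelow (f '' S x) := ⟨0, by
      rintro _ ⟨z, hz, rfl⟩
      exact hb z hz.1⟩
    have hlt : sInf (f '' S x) < sInf (f '' S x) + (1 / 2) ^ n := by
      have : (0 : ℝ) < (1 / 2) ^ n := by positivity
      linarith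
    obtain ⟨_, ⟨y, hy, rfl⟩, hylt⟩ := exists_lt_of_csInf_lt hne hlt
    refine ⟨⟨y, hy.1⟩, hy, fun z hz => ?_⟩
    have h1 : sInf (f '' S x) ≤ f z := csInf_le hbd ⟨z, hz, rfl⟩
    show f y ≤ f z + (1 / 2) ^ n
    linarith
  choose next hnext1 hnext2 using hchoose
  -- the sequence
  set u : ℕ → Y := fun n => Nat.rec ⟨x₀, hx₀⟩ (fun n x => next x n) n with hu
  have hu0 : u 0 = ⟨x₀, hx₀⟩ := rfl
  have husucc : ∀ n, u (n + 1) = next (u n) n := fun n => rfl
  have hstep : ∀ n, ((u (n + 1) : Y) : X) ∈ S (u n) := fun n => by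
    rw [husucc]; exact hnext1 _ _
  have hfdec : ∀ n, f (u (n + 1)) + γ * dist ((u n : Y) : X) (u (n + 1)) ≤ f (u n) :=
    fun n => (hstep n).2
  have hfu0 : ∀ n, 0 ≤ f (u n) := fun n => hb _ (u n).2
  have hdist0 : ∀ n, 0 ≤ dist ((u n : Y) : X) (u (n + 1)) := fun n => dist_nonneg
  have hsum : ∀ n, ∑ i ∈ Finset.range n, γ * dist ((u i : Y) : X) (u (i + 1)) ≤ f (u 0) - f (u n) := by
    intro n
    induction n with
    | zero => simp
    | succ n ih =>
      rw [Finset.sum_range_succ]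
      have := hfdec n
      linarith
  have hsummable : Summable fun n => dist ((u n : Y) : X) (u (n + 1)) := by
    have h1 : Summable fun n => γ * dist ((u n : Y) : X) (u (n + 1)) := by
      refine summable_of_sum_range_le (c := f (u 0)) (fun n => mul_nonneg hγ.le (hdist0 n))
        fun n => ?_
      have := hsum n
      have := hfu0 n
      linarith
    exact (summable_mul_left_iff hγ.ne').1 h1
  have hcauchy : CauchySeq fun n => ((u n : Y) : X) := cauchySeq_of_summable_dist hsummable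
  obtain ⟨x, hx⟩ := cauchySeq_tendsto_of_complete hcauchy
  have hxY : x ∈ Y := hY.mem_of_tendsto hx (Eventually.of_forall fun n => (u n).2)
  have hfx : Tendsto (fun n => f (u n)) atTop (𝓝 (f x)) := by
    have h1 : Tendsto (fun n => ((u n : Y) : X)) atTop (𝓝[Y] x) :=
      tendsto_nhdsWithin_iff.2 ⟨hx, Eventually.of_forall fun n => (u n).2⟩
    exact (hf x hxY).tendsto.comp h1
  -- chain property along the sequence
  have hchain : ∀ n m, ((u (n + m) : Y) : X) ∈ S (u n) := by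
    intro n m
    induction m with
    | zero => exact hSself _ (u n).2
    | succ m ih => exact hStrans ih (hstep (n + m))
  have hxS : ∀ n, x ∈ S (u n) := by
    intro n
    refine ⟨hxY, ?_⟩
    have h1 : Tendsto (fun m => f (u (n + m)) + γ * dist ((u n : Y) : X) (u (n + m))) atTop
        (𝓝 (f x + γ * dist ((u n : Y) : X) x)) := by
      have h2 : Tendsto (fun m => n + m) atTop atTop :=
        tendsto_atTop_mono (fun m => Nat.le_add_left m n) tendsto_id
      refine Tendsto.add (hfx.comp h2) (Tendsto.const_mul _ ?_)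
      exact Tendsto.dist tendsto_const_nhds (hx.comp h2)
    exact le_of_tendsto h1 (Eventually.of_forall fun m => (hchain n m).2)
  have hfle : ∀ n, f x ≤ f (u n) := by
    intro n
    have h1 := (hxS n).2
    have h2 : 0 ≤ γ * dist ((u n : Y) : X) x := by positivity
    linarith
  refine ⟨x, hxY, ?_, ?_⟩
  · have h1 := (hxS 0).2
    rw [hu0] at h1
    simp only at h1
    rw [dist_comm]
    linarith
  · intro y hyY
    by_contra hcon
    push Not at hcon
    have hyS : y ∈ S x := ⟨hyY, hcon.le⟩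
    have hpos : 0 < f x - (f y + γ * dist x y) := by linarith
    have hdxy : ∀ n, f (u (n + 1)) ≤ f y + (1 / 2) ^ n := by
      intro n
      rw [husucc]
      exact hnext2 _ _ y (hStrans (hxS n) hyS)
    have hlim : Tendsto (fun n : ℕ => f y + ((1 : ℝ) / 2) ^ n) atTop (𝓝 (f y + 0)) :=
      tendsto_const_nhds.add (tendsto_pow_atTop_nhds_zero_of_lt_one (by norm_num) (by norm_num))
    have h2 : f x ≤ f y + 0 :=
      le_of_tendsto_of_tendsto' tendsto_const_nhds hlim fun n =>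
        (hfle (n + 1)).trans (hdxy n)
    have h3 : 0 ≤ γ * dist x y := by positivity
    linarith

end ekeland

/-! ### Existence of subgradients -/

/-- A convex function, continuous on an open convex set, has a continuous subgradient. -/
theorem exists_subgradient {E : Type*} [NormedAddCommGroup E] [NormedSpace ℝ E] {U : Set E}
    (hU : IsOpen U) {f : E → ℝ} (hf : ConvexOn ℝ U f) (hc : ContinuousOn f U) {y : E} (hy : y ∈ U) :
    ∃ g : StrongDual ℝ E, ∀ z ∈ U, g (z - y) ≤ f z - f y := by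
  set A : Set (E × ℝ) := {p | p.1 ∈ U ∧ f p.1 < p.2} with hA
  have hAconv : Convex ℝ A := hf.convex_strict_epigraph
  have hAopen : IsOpen A := by
    have h1 : A = (U ×ˢ univ) ∩ (fun p : E × ℝ => p.2 - f p.1) ⁻¹' Ioi 0 := by
      ext p
      simp only [hA, mem_setOf_eq, mem_inter_iff, mem_prod, mem_univ, and_true, mem_preimage,
        mem_Ioi, sub_pos]
    rw [h1]
    refine ContinuousOn.isOpen_inter_preimage ?_ (hU.prod isOpen_univ) isOpen_Ioi
    refine ContinuousOn.sub continuous_snd.continuousOn ?_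
    exact hc.comp continuous_fst.continuousOn fun p hp => hp.1
  have hnot : (y, f y) ∉ A := fun h => lt_irrefl _ h.2
  obtain ⟨φ, hφ⟩ := geometric_hahn_banach_open_point hAconv hAopen hnot
  set u : E →L[ℝ] ℝ := φ.comp (ContinuousLinearMap.inl ℝ E ℝ) with hu
  set κ : ℝ := φ (0, 1) with hκ
  have hsplit : ∀ (z : E) (t : ℝ), φ (z, t) = u z + t * κ := by
    intro z t
    have h1 : ((z, t) : E × ℝ) = (z, 0) + t • ((0 : E), (1 : ℝ)) := by
      ext <;> simp
    rw [h1, map_add, map_smul, smul_eq_mul]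
    rfl
  have hκneg : κ < 0 := by
    have h1 := hφ (y, f y + 1) ⟨hy, by simp⟩
    rw [hsplit, hsplit] at h1
    nlinarith
  have hle : ∀ z ∈ U, u z + f z * κ ≤ u y + f y * κ := by
    intro z hz
    refine le_of_forall_pos_le_add fun θ hθ => ?_
    have hpos : 0 < θ / (-κ) := div_pos hθ (by linarith)
    have h1 := hφ (z, f z + θ / (-κ)) ⟨hz, by simp only; linarith⟩
    rw [hsplit, hsplit] at h1
    have hκne : κ ≠ 0 := hκneg.ne
    have h2 : (f z + θ / (-κ)) * κ = f z * κ - θ := by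
      rw [add_mul, div_neg, neg_mul, div_mul_cancel₀ _ hκne]
      ring
    rw [h2] at h1
    linarith
  refine ⟨(-κ)⁻¹ • u, fun z hz => ?_⟩
  have h1 := hle z hz
  have hκ' : 0 < -κ := by linarith
  simp only [ContinuousLinearMap.smul_apply, map_sub, smul_eq_mul]
  rw [← mul_sub, inv_mul_le_iff₀ hκ']
  nlinarith

/-! ### Convex differentiable functions of one variable -/

section oneVar
variable {P r : ℝ → ℝ}

lemma tangent_le (hconv : ConvexOn ℝ univ P) (hd : ∀ ν, HasDerivAt P (r ν) ν) (ν ν' : ℝ) :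
    P ν + r ν * (ν' - ν) ≤ P ν' := by
  rcases lt_trichotomy ν ν' with h | h | h
  · have h1 := hconv.le_slope_of_hasDerivAt (mem_univ ν) (mem_univ ν') h (hd ν)
    rw [slope_def_field, le_div_iff₀ (by linarith)] at h1
    linarith
  · subst h; simp
  · have h1 := hconv.slope_le_of_hasDerivAt (mem_univ ν') (mem_univ ν) h (hd ν)
    rw [slope_def_field, div_le_iff₀ (by linarith)] at h1
    linarith

lemma deriv_mono (hconv : ConvexOn ℝ univ P) (hd : ∀ ν, HasDerivAt P (r ν) ν) {ν ν' : ℝ}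
    (h : ν ≤ ν') : r ν ≤ r ν' := by
  rcases eq_or_lt_of_le h with rfl | hlt
  · exact le_rfl
  · have h1 := tangent_le hconv hd ν ν'
    have h2 := tangent_le hconv hd ν' ν
    by_contra hcon
    push Not at hcon
    nlinarith

lemma deriv_continuous (hconv : ConvexOn ℝ univ P) (hd : ∀ ν, HasDerivAt P (r ν) ν) :
    Continuous r := by
  have hPc : Continuous P := continuous_iff_continuousAt.2 fun ν => (hd ν).continuousAt
  rw [continuous_iff_continuousAt]
  intro ν₀
  rw [Metric.continuousAt_iff']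
  intro θ hθ
  -- slopes near `ν₀`
  have hs := hasDerivAt_iff_tendsto_slope_zero.1 (hd ν₀)
  have hev : ∀ᶠ t in 𝓝[≠] (0 : ℝ), |t⁻¹ • (P (ν₀ + t) - P ν₀) - r ν₀| < θ / 2 := by
    have := hs.eventually (Metric.ball_mem_nhds (r ν₀) (half_pos hθ))
    exact this.mono fun t ht => by simpa [Real.dist_eq] using ht
  have hev1 : ∃ t : ℝ, 0 < t ∧ |t⁻¹ • (P (ν₀ + t) - P ν₀) - r ν₀| < θ / 2 ∧
      |(-t)⁻¹ • (P (ν₀ + -t) - P ν₀) - r ν₀| < θ / 2 := by
    have h2 : ∀ᶠ t in 𝓝[>] (0 : ℝ), |t⁻¹ • (P (ν₀ + t) - P ν₀) - r ν₀| < θ / 2 :=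
      hev.filter_mono (nhdsWithin_mono _ fun t ht => ne_of_gt ht)
    have h3 : ∀ᶠ t in 𝓝[>] (0 : ℝ), |(-t)⁻¹ • (P (ν₀ + -t) - P ν₀) - r ν₀| < θ / 2 := by
      have h4 : Tendsto (fun t : ℝ => -t) (𝓝[>] 0) (𝓝[≠] 0) := by
        refine tendsto_nhdsWithin_iff.2 ⟨?_, ?_⟩
        · have : Tendsto (fun t : ℝ => -t) (𝓝 0) (𝓝 (-0)) := tendsto_id.neg
          rw [neg_zero] at this
          exact this.mono_left nhdsWithin_le_nhds
        · filter_upwards [self_mem_nhdsWithin] with t ht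
          simp only [mem_compl_iff, mem_singleton_iff, neg_eq_zero]
          exact ne_of_gt ht
      exact h4.eventually hev
    obtain ⟨t, ⟨h5, h6⟩, h7⟩ := ((h2.and h3).and self_mem_nhdsWithin).exists
    exact ⟨t, h7, h5, h6⟩
  obtain ⟨t, ht, h1, h2⟩ := hev1
  have hup : ContinuousAt (fun ν => t⁻¹ * (P (ν + t) - P ν)) ν₀ :=
    (continuous_const.mul ((hPc.comp (continuous_id.add continuous_const)).sub hPc)).continuousAt
  have hlo : ContinuousAt (fun ν => t⁻¹ * (P ν - P (ν - t))) ν₀ :=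
    (continuous_const.mul (hPc.sub (hPc.comp (continuous_id.sub continuous_const)))).continuousAt
  have hup2 := hup.eventually (Metric.ball_mem_nhds _ (half_pos hθ))
  have hlo2 := hlo.eventually (Metric.ball_mem_nhds _ (half_pos hθ))
  filter_upwards [hup2, hlo2] with ν h3 h4
  rw [Real.dist_eq] at h3 h4 ⊢
  rw [abs_lt] at h1 h2 h3 h4 ⊢
  simp only [smul_eq_mul] at h1 h2
  have hineq1 : r ν ≤ t⁻¹ * (P (ν + t) - P ν) := by
    have h5 := tangent_le hconv hd ν (ν + t)
    rw [le_inv_mul_iff₀ ht]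
    nlinarith
  have hineq2 : t⁻¹ * (P ν - P (ν - t)) ≤ r ν := by
    have h5 := tangent_le hconv hd ν (ν - t)
    rw [inv_mul_le_iff₀ ht]
    nlinarith
  have h6 : (-t)⁻¹ * (P (ν₀ + -t) - P ν₀) = t⁻¹ * (P ν₀ - P (ν₀ - t)) := by
    rw [inv_neg, ← sub_eq_add_neg]
    ring
  rw [h6] at h2
  constructor <;> linarith [h1.1, h1.2, h2.1, h2.2, h3.1, h3.2, h4.1, h4.2]

/-- The function whose maximum over the tangent points gives the mean field pressure. -/
noncomputable def dtF (P r : ℝ → ℝ) (δ μ ν : ℝ) : ℝ := P ν + (μ - ν) * r ν + (δ / 2) * (r ν) ^ 2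

lemma dtF_sub_ge (hconv : ConvexOn ℝ univ P) (hd : ∀ ν, HasDerivAt P (r ν) ν) (δ μ ν ν' : ℝ) :
    (r ν' - r ν) * (μ - ν' + (δ / 2) * (r ν' + r ν)) ≤ dtF P r δ μ ν' - dtF P r δ μ ν := by
  unfold dtF
  have h1 := tangent_le hconv hd ν ν'
  nlinarith

lemma dtF_eq_of_deriv_eq (hconv : ConvexOn ℝ univ P) (hd : ∀ ν, HasDerivAt P (r ν) ν) (δ μ : ℝ)
    {ν ν' : ℝ} (h : r ν = r ν') : dtF P r δ μ ν = dtF P r δ μ ν' := by
  have h1 := tangent_le hconv hd ν ν'
  have h2 := tangent_le hconv hd ν' ν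
  rw [h] at h1
  unfold dtF
  rw [h]
  nlinarith

lemma dtF_le_quad (hconv : ConvexOn ℝ univ P) (hd : ∀ ν, HasDerivAt P (r ν) ν) {δ κ : ℝ} (hκ : 0 < κ)
    (hquad : ∀ ν, P ν ≤ 1 + (ν + κ) ^ 2 / (4 * κ)) (μ ν : ℝ) :
    dtF P r δ μ ν ≤ 1 + (μ + κ) * r ν - (κ - δ / 2) * (r ν) ^ 2 := by
  unfold dtF
  set ρ := r ν with hρ
  have h1 := tangent_le hconv hd ν (2 * κ * ρ - κ)
  rw [← hρ] at h1
  have h2 := hquad (2 * κ * ρ - κ)
  have h3 : (2 * κ * ρ - κ + κ) ^ 2 / (4 * κ) = κ * ρ ^ 2 := by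
    field_simp
    ring
  rw [h3] at h2
  nlinarith

/-- **Existence of a double tangent** for a convex function whose derivative grows too slowly. -/
theorem double_tangent (hconv : ConvexOn ℝ univ P) (hd : ∀ ν, HasDerivAt P (r ν) ν) {δ κ : ℝ}
    (hδ : 0 < δ) (hκ : δ / 2 < κ) (h0 : ∀ ν, 0 < P ν) (hexp : ∀ ν, P ν ≤ Real.exp ν)
    (hquad : ∀ ν, P ν ≤ 1 + (ν + κ) ^ 2 / (4 * κ)) (hunb : ∀ R, ∃ ν, R ≤ r ν) {ν₁ ν₂ : ℝ}
    (h12 : ν₁ < ν₂) (hgap : ν₂ - ν₁ < (δ / 2) * (r ν₂ - r ν₁)) :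
    ∃ μ νa νb V, 0 < V ∧ r νa < r νb ∧ dtF P r δ μ νa = V ∧ dtF P r δ μ νb = V ∧
      ∀ ν, dtF P r δ μ ν ≤ V := by
  have hκ0 : 0 < κ := by linarith
  have hrc := deriv_continuous hconv hd
  have hPc : Continuous P := continuous_iff_continuousAt.2 fun ν => (hd ν).continuousAt
  have hmono : ∀ {a b : ℝ}, a ≤ b → r a ≤ r b := fun h => deriv_mono hconv hd h
  -- the derivative is nonnegative
  have hr0 : ∀ ν, 0 ≤ r ν := by
    intro ν
    by_contra hcon
    push Not at hcon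
    have ht : 0 < (Real.exp ν + 1) / (-r ν) := div_pos (by positivity) (by linarith)
    have h1 := tangent_le hconv hd ν (ν - (Real.exp ν + 1) / (-r ν))
    have h2 := hexp (ν - (Real.exp ν + 1) / (-r ν))
    have h3 : Real.exp (ν - (Real.exp ν + 1) / (-r ν)) ≤ Real.exp ν :=
      Real.exp_le_exp.2 (by linarith)
    have h4 : r ν * (ν - (Real.exp ν + 1) / (-r ν) - ν) = Real.exp ν + 1 := by
      have hne : r ν ≠ 0 := hcon.ne
      have h5 : ν - (Real.exp ν + 1) / (-r ν) - ν = (Real.exp ν + 1) / r ν := by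
        rw [div_neg]; ring
      rw [h5, mul_div_cancel₀ _ hne]
    rw [h4] at h1
    linarith [h0 ν]
  have hgap2 : r ν₁ < r ν₂ := by
    by_contra hcon
    push Not at hcon
    have : (δ / 2) * (r ν₂ - r ν₁) ≤ 0 :=
      mul_nonpos_of_nonneg_of_nonpos (by positivity) (by linarith)
    linarith
  -- a point of intermediate slope
  set rm := (r ν₁ + r ν₂) / 2 with hrm
  have hrm1 : r ν₁ < rm := by rw [hrm]; linarith
  have hrm2 : rm < r ν₂ := by rw [hrm]; linarith
  have hrm0 : 0 < rm := lt_of_le_of_lt (hr0 ν₁) hrm1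
  obtain ⟨νm, hνm, hνmr⟩ : ∃ ν ∈ Icc ν₁ ν₂, r ν = rm :=
    intermediate_value_Icc h12.le hrc.continuousOn ⟨hrm1.le, hrm2.le⟩
  -- the middle point is not a maximiser
  have hmid : ∀ μ, dtF P r δ μ νm < max (dtF P r δ μ ν₁) (dtF P r δ μ ν₂) := by
    intro μ
    by_contra hcon
    push Not at hcon
    have h1 := (le_max_left _ _).trans hcon
    have h2 := (le_max_right _ _).trans hcon
    have h3 := dtF_sub_ge hconv hd δ μ νm ν₁
    have h4 := dtF_sub_ge hconv hd δ μ νm ν₂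
    rw [hνmr] at h3 h4
    have h5 : 0 ≤ μ - ν₁ + δ / 2 * (r ν₁ + rm) := by
      by_contra hn
      push Not at hn
      have : 0 < (r ν₁ - rm) * (μ - ν₁ + δ / 2 * (r ν₁ + rm)) :=
        mul_pos_of_neg_of_neg (by linarith) hn
      linarith
    have h6 : μ - ν₂ + δ / 2 * (r ν₂ + rm) ≤ 0 := by
      by_contra hn
      push Not at hn
      have : 0 < (r ν₂ - rm) * (μ - ν₂ + δ / 2 * (r ν₂ + rm)) :=
        mul_pos (by linarith) hn
      linarith
    nlinarith
  -- the range of activities and of tangent points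
  set μm : ℝ := -κ - 1 / rm - 1 with hμm
  set μp : ℝ := (1 + κ * rm + |ν₂| * r ν₂) / (r ν₂ - rm) + 1 with hμp
  have hrm3 : 0 < r ν₂ - rm := by linarith
  have hμm0 : μm < 0 := by
    rw [hμm]
    have : 0 < 1 / rm := by positivity
    linarith
  have hμp0 : 0 < μp := by
    rw [hμp]
    have : 0 ≤ (1 + κ * rm + |ν₂| * r ν₂) / (r ν₂ - rm) := by
      have := hr0 ν₂
      positivity
    linarith
  set νlo : ℝ := min μm ν₁ - 1 with hνlo
  have hνlo1 : νlo < μm := by rw [hνlo]; linarith [min_le_left μm ν₁]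
  have hνlo2 : νlo < ν₁ := by rw [hνlo]; linarith [min_le_right μm ν₁]
  set R : ℝ := max 1 ((1 + μp + κ) / (κ - δ / 2)) with hR
  have hκδ : 0 < κ - δ / 2 := by linarith
  obtain ⟨ν₃, hν₃⟩ := hunb R
  set νhi : ℝ := max ν₂ ν₃ with hνhi
  have hνhi1 : ν₂ ≤ νhi := le_max_left _ _
  have hνhi2 : R ≤ r νhi := hν₃.trans (hmono (le_max_right _ _))
  have hνmlo : νlo ≤ νm := by linarith [hνm.1]
  have hνmhi : νm ≤ νhi := by linarith [hνm.2]
  -- continuity of the two maxima
  set F : ℝ → ℝ → ℝ := fun μ ν => dtF P r δ μ ν with hF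
  have hFc : Continuous (fun p : ℝ × ℝ => F p.1 p.2) := by
    simp only [hF, dtF]
    fun_prop
  have hFc' : ∀ μ, Continuous (F μ) := fun μ => hFc.comp (by fun_prop : Continuous fun ν => (μ, ν))
  set A : ℝ → ℝ := fun μ => sSup (F μ '' Icc νlo νm) with hA
  set B : ℝ → ℝ := fun μ => sSup (F μ '' Icc νm νhi) with hB
  have hAc : Continuous A := isCompact_Icc.continuous_sSup hFc
  have hBc : Continuous B := isCompact_Icc.continuous_sSup hFc
  have hAbd : ∀ μ, BddAbove (F μ '' Icc νlo νm) := fun μ =>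
    (isCompact_Icc.image (hFc' μ)).bddAbove
  have hBbd : ∀ μ, BddAbove (F μ '' Icc νm νhi) := fun μ =>
    (isCompact_Icc.image (hFc' μ)).bddAbove
  have hleA : ∀ μ, ∀ ν ∈ Icc νlo νm, F μ ν ≤ A μ := fun μ ν hν =>
    le_csSup (hAbd μ) ⟨ν, hν, rfl⟩
  have hleB : ∀ μ, ∀ ν ∈ Icc νm νhi, F μ ν ≤ B μ := fun μ ν hν =>
    le_csSup (hBbd μ) ⟨ν, hν, rfl⟩
  have hFpos : ∀ μ ν, ν ≤ μ → 0 < F μ ν := by
    intro μ ν hν
    simp only [hF, dtF]
    have h1 := h0 ν
    have h2 : 0 ≤ (μ - ν) * r ν := mul_nonneg (by linarith) (hr0 ν)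
    have h3 : 0 ≤ δ / 2 * r ν ^ 2 := by positivity
    linarith
  -- at the low end
  have hlow : B μm ≤ A μm := by
    have h1 : B μm ≤ 0 := by
      refine csSup_le ⟨F μm νm, νm, ⟨le_rfl, hνmhi⟩, rfl⟩ ?_
      rintro _ ⟨ν, hν, rfl⟩
      have h2 := dtF_le_quad (r := r) hconv hd (δ := δ) hκ0 hquad μm ν
      have h3 : rm ≤ r ν := by rw [← hνmr]; exact hmono hν.1
      have h4 : (μm + κ) * r ν ≤ (μm + κ) * rm := by
        refine mul_le_mul_of_nonpos_left h3 ?_
        rw [hμm]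
        have : 0 < 1 / rm := by positivity
        linarith
      have h5 : (μm + κ) * rm = -1 - rm := by
        rw [hμm]
        field_simp
        ring
      have h6 : 0 ≤ (κ - δ / 2) * r ν ^ 2 := by positivity
      simp only [hF]
      linarith
    have h2 : 0 < A μm := lt_of_lt_of_le (hFpos μm νlo hνlo1.le) (hleA μm νlo ⟨le_rfl, hνmlo⟩)
    linarith
  -- at the high end
  have hhigh : A μp ≤ B μp := by
    have h1 : A μp ≤ F μp ν₂ := by
      refine csSup_le ⟨F μp νm, νm, ⟨hνmlo, le_rfl⟩, rfl⟩ ?_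
      rintro _ ⟨ν, hν, rfl⟩
      have h2 := dtF_le_quad (r := r) hconv hd (δ := δ) hκ0 hquad μp ν
      have h3 : r ν ≤ rm := by rw [← hνmr]; exact hmono hν.2
      have h4 : (μp + κ) * r ν ≤ (μp + κ) * rm := mul_le_mul_of_nonneg_left h3 (by linarith)
      have h5 : 0 ≤ (κ - δ / 2) * r ν ^ 2 := by positivity
      have h6 : 1 + (μp + κ) * rm ≤ (μp - ν₂) * r ν₂ := by
        have h7 : (μp - 1) * (r ν₂ - rm) = 1 + κ * rm + |ν₂| * r ν₂ := by
          rw [hμp]
          field_simp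
          ring
        have h8 : ν₂ * r ν₂ ≤ |ν₂| * r ν₂ := mul_le_mul_of_nonneg_right (le_abs_self _) (hr0 ν₂)
        nlinarith
      have h9 : F μp ν₂ = P ν₂ + (μp - ν₂) * r ν₂ + δ / 2 * r ν₂ ^ 2 := rfl
      have h10 := h0 ν₂
      have h11 : 0 ≤ δ / 2 * r ν₂ ^ 2 := by positivity
      simp only [hF] at h9 ⊢
      linarith
    exact h1.trans (hleB μp ν₂ ⟨by linarith [hνm.2], hνhi1⟩)
  -- the intermediate value theorem
  have hμμ : μm ≤ μp := by linarith
  have hD : Continuous fun μ => A μ - B μ := hAc.sub hBc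
  obtain ⟨μ, hμ, hμD⟩ : ∃ μ ∈ Icc μm μp, A μ - B μ = 0 :=
    intermediate_value_Icc' hμμ hD.continuousOn
      (⟨by show A μp - B μp ≤ 0; linarith, by show 0 ≤ A μm - B μm; linarith⟩ :
        (0 : ℝ) ∈ Icc (A μp - B μp) (A μm - B μm))
  have hAB : A μ = B μ := by linarith
  obtain ⟨νa, hνa, hνaA, -⟩ := isCompact_Icc.exists_sSup_image_eq_and_ge
    (nonempty_Icc.2 hνmlo) (hFc' μ).continuousOn
  obtain ⟨νb, hνb, hνbB, -⟩ := isCompact_Icc.exists_sSup_image_eq_and_ge
    (nonempty_Icc.2 hνmhi) (hFc' μ).continuousOn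
  have hVa : dtF P r δ μ νa = A μ := hνaA.symm
  have hVb : dtF P r δ μ νb = A μ := by rw [hAB]; exact hνbB.symm
  have hVpos : 0 < A μ := lt_of_lt_of_le (hFpos μ νlo (by linarith [hμ.1]))
    (hleA μ νlo ⟨le_rfl, hνmlo⟩)
  have hall : ∀ ν, dtF P r δ μ ν ≤ A μ := by
    intro ν
    by_cases h1 : ν < νlo
    · have h2 := dtF_sub_ge hconv hd δ μ ν νlo
      have h3 : 0 ≤ (r νlo - r ν) * (μ - νlo + δ / 2 * (r νlo + r ν)) := by
        refine mul_nonneg (by linarith [hmono h1.le]) ?_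
        have h4 : 0 ≤ δ / 2 * (r νlo + r ν) := by
          have := hr0 νlo
          have := hr0 ν
          positivity
        linarith [hμ.1]
      have h5 := hleA μ νlo ⟨le_rfl, hνmlo⟩
      simp only [hF] at h5
      linarith
    · push Not at h1
      by_cases h2 : ν ≤ νm
      · exact hleA μ ν ⟨h1, h2⟩
      · push Not at h2
        by_cases h3 : ν ≤ νhi
        · rw [hAB]; exact hleB μ ν ⟨h2.le, h3⟩
        · push Not at h3
          have h4 := dtF_le_quad (r := r) hconv hd (δ := δ) hκ0 hquad μ ν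
          have h5 : R ≤ r ν := hνhi2.trans (hmono h3.le)
          have h6 : 1 ≤ r ν := (le_max_left _ _).trans h5
          have h7 : (1 + μp + κ) / (κ - δ / 2) ≤ r ν := (le_max_right _ _).trans h5
          rw [div_le_iff₀ hκδ] at h7
          have h8 : (μ + κ) * r ν ≤ (μp + κ) * r ν :=
            mul_le_mul_of_nonneg_right (by linarith [hμ.2]) (by linarith)
          have h9 : dtF P r δ μ ν ≤ 0 := by nlinarith
          linarith
  have hmidV : dtF P r δ μ νm < A μ :=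
    lt_of_lt_of_le (hmid μ) (max_le (hall ν₁) (hall ν₂))
  have hra : r νa < rm := by
    have h1 : r νa ≤ rm := by rw [← hνmr]; exact hmono hνa.2
    refine lt_of_le_of_ne h1 fun h2 => ?_
    have h3 := dtF_eq_of_deriv_eq hconv hd δ μ (h2.trans hνmr.symm)
    rw [hVa] at h3
    linarith
  have hrb : rm < r νb := by
    have h1 : rm ≤ r νb := by rw [← hνmr]; exact hmono hνb.1
    refine lt_of_le_of_ne h1 fun h2 => ?_
    have h3 := dtF_eq_of_deriv_eq hconv hd δ μ (hνmr.trans h2)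
    rw [hVb] at h3
    linarith
  exact ⟨μ, νa, νb, A μ, hVpos, hra.trans hrb, hVa, hVb, hall⟩

end oneVar

/-- Two-sided difference quotients at a common small step. -/
lemma exists_slope_bounds {f : ℝ → ℝ} {x f' θ : ℝ} (hd : HasDerivAt f f' x) (hθ : 0 < θ) :
    ∃ t : ℝ, 0 < t ∧ t ≤ 1 ∧ |t⁻¹ * (f (x + t) - f x) - f'| < θ ∧
      |t⁻¹ * (f x - f (x - t)) - f'| < θ := by
  have hs := hasDerivAt_iff_tendsto_slope_zero.1 hd
  have hev : ∀ᶠ t in 𝓝[≠] (0 : ℝ), |t⁻¹ • (f (x + t) - f x) - f'| < θ := by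
    have := hs.eventually (Metric.ball_mem_nhds f' hθ)
    exact this.mono fun t ht => by simpa [Real.dist_eq] using ht
  have h2 : ∀ᶠ t in 𝓝[>] (0 : ℝ), |t⁻¹ • (f (x + t) - f x) - f'| < θ :=
    hev.filter_mono (nhdsWithin_mono _ fun t ht => ne_of_gt ht)
  have h3 : ∀ᶠ t in 𝓝[>] (0 : ℝ), |(-t)⁻¹ • (f (x + -t) - f x) - f'| < θ := by
    have h4 : Tendsto (fun t : ℝ => -t) (𝓝[>] 0) (𝓝[≠] 0) := by
      refine tendsto_nhdsWithin_iff.2 ⟨?_, ?_⟩
      · have : Tendsto (fun t : ℝ => -t) (𝓝 0) (𝓝 (-0)) := tendsto_id.neg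
        rw [neg_zero] at this
        exact this.mono_left nhdsWithin_le_nhds
      · filter_upwards [self_mem_nhdsWithin] with t ht
        simp only [mem_compl_iff, mem_singleton_iff, neg_eq_zero]
        exact ne_of_gt ht
    exact h4.eventually hev
  have h5 : ∀ᶠ t in 𝓝[>] (0 : ℝ), t < 1 :=
    (tendsto_id.mono_left nhdsWithin_le_nhds).eventually (gt_mem_nhds (by norm_num))
  obtain ⟨t, ⟨⟨h6, h7⟩, h8⟩, h9⟩ := (((h2.and h3).and h5).and self_mem_nhdsWithin).exists
  refine ⟨t, h9, h8.le, by simpa using h6, ?_⟩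
  have h10 : (-t)⁻¹ • (f (x + -t) - f x) = t⁻¹ * (f x - f (x - t)) := by
    rw [inv_neg, ← sub_eq_add_neg, smul_eq_mul]
    ring
  rwa [h10] at h7

end Vale.Agent.Lib.P171
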