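import Mathlib

/-!
# Continuum particle systems in three dimensions: definitions

Points of space are functions `Fin 3 → ℝ` with the product Lebesgue measure, `euclDist` is the
Euclidean distance, `energy φ x` is the pair energy of the configuration `x`, `cube L = [0,L]^3`,
`canonicalZ` is the canonical partition function, `grandXi` is the grand canonical partition
function and `pressure` is the finite volume pressure at the limit superior (by Ruelle's theorem
the limit exists for stable tempered potentials).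
-/

open MeasureTheory
open scoped ENNReal

namespace Vale.Agent.Lib.P171

/-- Points of three dimensional space. -/
abbrev R3 : Type := Fin 3 → ℝ

/-- The Euclidean distance `|x - y|` in `ℝ^3`. -/
noncomputable def euclDist (x y : R3) : ℝ := Real.sqrt (∑ a, (x a - y a) ^ 2)

/-- The pair energy `U_N(x_1,...,x_N) = ∑_{i<j} φ(|x_i - x_j|)`. -/
noncomputable def energy (φ : ℝ → ℝ) {N : ℕ} (x : Fin N → R3) : ℝ :=
  ∑ i, ∑ j ∈ Finset.Ioi i, φ (euclDist (x i) (x j))

/-- The cube `Λ_L = [0,L]^3`. -/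
def cube (L : ℝ) : Set R3 := {x | ∀ a, 0 ≤ x a ∧ x a ≤ L}

/-- `Z_{L,N}(β) = (1/N!) ∫_{Λ_L^N} exp(-β U_N)`, a number in `[0,∞]`. -/
noncomputable def canonicalZ (φ : ℝ → ℝ) (β L : ℝ) (N : ℕ) : ℝ≥0∞ :=
  (N.factorial : ℝ≥0∞)⁻¹ *
    ∫⁻ x in Set.pi Set.univ (fun _ : Fin N => cube L), ENNReal.ofReal (Real.exp (-β * energy φ x))

/-- `∑_{N ≥ 0} z^N Z_{L,N}(β)`, a number in `[0,∞]`. -/
noncomputable def grandXi (φ : ℝ → ℝ) (β z L : ℝ) : ℝ≥0∞ :=
  ∑' N : ℕ, ENNReal.ofReal (z ^ N) * canonicalZ φ β L N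

/-- The finite volume pressure `L^{-3} log ∑_{N ≥ 0} z^N Z_{L,N}(β)`. -/
noncomputable def finitePressure (φ : ℝ → ℝ) (β z L : ℝ) : ℝ :=
  (L ^ 3)⁻¹ * Real.log (grandXi φ β z L).toReal

/-- `Π(β,z)`: the limit superior of the finite volume pressure as `L → ∞`. -/
noncomputable def pressure (φ : ℝ → ℝ) (β z : ℝ) : ℝ :=
  Filter.limsup (fun L : ℝ => finitePressure φ β z L) Filter.atTop

end Vale.Agent.Lib.P171
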