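import Vale.Agent.Lib.P171.Linearize
import Vale.Agent.Lib.P171.Convex

/-!
# The pressure as a convex function on a Banach space of parameters
-/

open MeasureTheory Set Real Filter
open scoped ENNReal Topology

namespace Vale.Agent.Lib.P171

/-- Summable sequences. -/
abbrev V : Type := lp (fun _ : ℕ => ℝ) 1

lemma lp_summable (c : V) : Summable fun k => |c k| := by
  have h := (memℓp_gen_iff (p := 1) (by simp)).1 (lp.memℓp c)
  simpa using h

lemma lp_norm_eq (c : V) : ‖c‖ = ∑' k, |c k| := by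
  have h := lp.norm_eq_tsum_rpow (p := 1) (by simp) c
  simpa using h

lemma InDom_of_norm {h : ℝ} {c : V} (hc : 2 * ‖c‖ ≤ h) : InDom h c :=
  ⟨lp_summable c, by rwa [← lp_norm_eq]⟩

/-- The unit sequences. -/
noncomputable def eU (k : ℕ) : V := lp.single 1 k (1 : ℝ)

lemma eU_apply (k j : ℕ) : (eU k : ℕ → ℝ) j = if j = k then 1 else 0 := by
  unfold eU
  rw [lp.single_apply]
  by_cases h : j = k
  · subst h; simp
  · simp [h]

lemma norm_eU (k : ℕ) : ‖eU k‖ = 1 := by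
  unfold eU
  rw [lp.norm_single (by simp)]
  simp

lemma coord_add_smul (c : V) (ε : ℝ) (j : ℕ) :
    ((c + ε • eU j : V) : ℕ → ℝ) = fun i => c i + ε * (if i = j then 1 else 0) := by
  funext i
  rw [lp.coeFn_add, Pi.add_apply, lp.coeFn_smul, Pi.smul_apply, smul_eq_mul, eU_apply]

lemma coord_zero : ((0 : V) : ℕ → ℝ) = fun _ => 0 := by
  funext i; simp

lemma coord_smul (ε : ℝ) (j : ℕ) :
    ((ε • eU j : V) : ℕ → ℝ) = fun i => 0 + ε * (if i = j then 1 else 0) := by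
  funext i
  rw [lp.coeFn_smul, Pi.smul_apply, smul_eq_mul, eU_apply, zero_add]

lemma continuous_coord (k : ℕ) : Continuous fun c : V => (c k : ℝ) := by
  have h : LipschitzWith 1 fun c : V => (c k : ℝ) := by
    refine LipschitzWith.mk_one fun c c' => ?_
    rw [Real.dist_eq, dist_eq_norm]
    have h1 := lp.norm_apply_le_norm (p := 1) (by simp) (c - c') k
    rw [lp.coeFn_sub, Pi.sub_apply, Real.norm_eq_abs] at h1
    exact h1
  exact h.continuous

/-- The parameter domain in the Banach space. -/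
def Uh (h : ℝ) : Set (V × ℝ) := {y | 2 * ‖y.1‖ < h}

lemma isOpen_Uh (h : ℝ) : IsOpen (Uh h) := by
  have : Continuous fun y : V × ℝ => 2 * ‖y.1‖ := by fun_prop
  exact isOpen_lt this continuous_const

lemma convex_Uh {h : ℝ} : Convex ℝ (Uh h) := by
  intro x hx y hy a b ha hb hab
  simp only [Uh, Set.mem_ofPred_eq] at hx hy ⊢
  have h1 : ‖(a • x + b • y).1‖ ≤ a * ‖x.1‖ + b * ‖y.1‖ := by
    have h2 : (a • x + b • y).1 = a • x.1 + b • y.1 := rfl
    rw [h2]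
    refine le_trans (norm_add_le _ _) ?_
    rw [norm_smul, norm_smul, Real.norm_of_nonneg ha, Real.norm_of_nonneg hb]
  have h3 : a * (2 * ‖x.1‖) + b * (2 * ‖y.1‖) < (a + b) * h := by
    rcases ha.lt_or_eq with ha' | ha'
    · have h4 := mul_lt_mul_of_pos_left hx ha'
      have h5 := mul_le_mul_of_nonneg_left hy.le hb
      nlinarith
    · have hb' : b = 1 := by rw [← ha'] at hab; linarith
      rw [← ha', hb']
      simp only [zero_mul, one_mul, zero_add]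
      linarith
  rw [hab, one_mul] at h3
  nlinarith

/-- The pressure as a function on the Banach space. -/
noncomputable def PH (h : ℝ) (y : V × ℝ) : ℝ := Pr h y.1 y.2

/-- Convexity with explicit identification of the parameters. -/
lemma Pr_convex' {h h₁ h₂ s t μ μ₁ μ₂ : ℝ} {c c₁ c₂ : ℕ → ℝ} (hd₁ : InDom h₁ c₁) (hd₂ : InDom h₂ c₂)
    (hs : 0 ≤ s) (ht : 0 ≤ t) (hst : s + t = 1) (hh : h = s * h₁ + t * h₂)
    (hc : ∀ k, c k = s * c₁ k + t * c₂ k) (hμ : μ = s * μ₁ + t * μ₂) :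
    Pr h c μ ≤ s * Pr h₁ c₁ μ₁ + t * Pr h₂ c₂ μ₂ := by
  have h1 : c = fun k => s * c₁ k + t * c₂ k := funext hc
  rw [hh, h1, hμ]
  exact Pr_convex hd₁ hd₂ hs ht hst

lemma PH_convexOn (h : ℝ) : ConvexOn ℝ (Uh h) (PH h) := by
  refine ⟨convex_Uh, fun x hx y hy a b ha hb hab => ?_⟩
  simp only [smul_eq_mul]
  unfold PH
  refine Pr_convex' (InDom_of_norm (le_of_lt hx)) (InDom_of_norm (le_of_lt hy)) ha hb hab ?_ ?_ rfl
  · rw [← add_mul, hab, one_mul]
  · intro k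
    have : ((a • x + b • y).1 : ℕ → ℝ) = a • (x.1 : ℕ → ℝ) + b • (y.1 : ℕ → ℝ) := by
      have h2 : (a • x + b • y).1 = a • x.1 + b • y.1 := rfl
      rw [h2, lp.coeFn_add, lp.coeFn_smul, lp.coeFn_smul]
    rw [this]
    simp

lemma PH_le {h : ℝ} {y : V × ℝ} (hy : y ∈ Uh h) : PH h y ≤ exp (y.2 + h / 2) :=
  Pr_le (InDom_of_norm (le_of_lt hy)) _

lemma PH_nonneg {h : ℝ} {y : V × ℝ} (hy : y ∈ Uh h) : 0 ≤ PH h y :=
  Pr_nonneg (InDom_of_norm (le_of_lt hy)) _

lemma PH_continuousOn {h : ℝ} (hh : 0 < h) : ContinuousOn (PH h) (Uh h) := by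
  have h0 : ((0 : V), (0 : ℝ)) ∈ Uh h := by
    simp only [Uh, Set.mem_ofPred_eq, norm_zero, mul_zero]
    exact hh
  have htfae := (PH_convexOn h).continuousOn_tfae (isOpen_Uh h) ⟨_, h0⟩
  have hbd : IsBoundedUnder (· ≤ ·) (𝓝 ((0 : V), (0 : ℝ))) (PH h) := ?_
  · have key := htfae.out 3 1
    exact key.1 ⟨_, h0, hbd⟩
  refine isBoundedUnder_of_eventually_le (a := exp (1 + h / 2)) ?_
  have h1 : ∀ᶠ y : V × ℝ in 𝓝 ((0 : V), (0 : ℝ)), y ∈ Uh h := (isOpen_Uh h).mem_nhds h0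
  have h2 : ∀ᶠ y : V × ℝ in 𝓝 ((0 : V), (0 : ℝ)), y.2 < 1 := by
    have : Continuous fun y : V × ℝ => y.2 := continuous_snd
    exact this.tendsto ((0 : V), (0 : ℝ)) |>.eventually (gt_mem_nhds (by simp))
  filter_upwards [h1, h2] with y hy1 hy2
  refine (PH_le hy1).trans (Real.exp_le_exp.2 (by linarith))

/-- One-sided continuity of the pressure in the parameters `(h,c)`. -/
lemma Pr_perturb {h h₂ t μ : ℝ} {c c₂ : ℕ → ℝ} (hd : InDom h c) (hd₂ : InDom h₂ c₂) (ht0 : 0 ≤ t)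
    (ht1 : t ≤ 1) {h' : ℝ} {c' : ℕ → ℝ} (hh : h' = (1 - t) * h + t * h₂)
    (hc : ∀ k, c' k = (1 - t) * c k + t * c₂ k) :
    Pr h' c' μ ≤ Pr h c μ + t * exp (μ + h₂ / 2) := by
  have h1 := Pr_convex' (μ := μ) (μ₁ := μ) (μ₂ := μ) hd hd₂ (by linarith : 0 ≤ 1 - t) ht0
    (by ring) hh hc (by ring)
  have h2 := Pr_le hd₂ μ
  have h3 := Pr_nonneg hd μ
  have h4 := mul_le_mul_of_nonneg_left h2 ht0
  nlinarith

lemma InDom_of_abs_le {h : ℝ} {c d : ℕ → ℝ} (hd : Summable fun k => |d k|)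
    (hle : ∀ k, |c k| ≤ |d k|) (h2 : 2 * ∑' k, |d k| ≤ h) : InDom h c := by
  have hs : Summable fun k => |c k| := Summable.of_nonneg_of_le (fun _ => abs_nonneg _) hle hd
  refine ⟨hs, le_trans ?_ h2⟩
  have := hs.tsum_le_tsum hle hd
  linarith

end Vale.Agent.Lib.P171
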