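import Vale.Agent.Lib.P171.Bounds

/-!
# Averaging over shifted cell partitions: the pointwise energy inequality
-/

open MeasureTheory Set Real Filter
open scoped ENNReal Topology

namespace Vale.Agent.Lib.P171

/-! ### Hermite's identity and the probability that two points are separated -/

lemma sum_floor_shift {s : ℕ} (hs : 0 < s) (x : ℝ) :
    ∑ t ∈ Finset.range s, ⌊(x + (t : ℝ)) / (s : ℝ)⌋ = ⌊x⌋ := by
  have hs' : (0 : ℝ) < s := by exact_mod_cast hs
  set r : ℝ := x - ⌊x⌋ with hr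
  have hr0 : 0 ≤ r := by rw [hr]; linarith [Int.floor_le x]
  have hr1 : r < 1 := by rw [hr]; linarith [Int.lt_floor_add_one x]
  -- the sum at integer translates of r
  set g : ℤ → ℤ := fun n => ∑ t ∈ Finset.range s, ⌊((n : ℝ) + r + (t : ℝ)) / (s : ℝ)⌋ with hg
  have hg0 : g 0 = 0 := by
    rw [hg]
    refine Finset.sum_eq_zero fun t ht => ?_
    rw [Int.floor_eq_zero_iff]
    have ht' : (t : ℝ) + 1 ≤ s := by exact_mod_cast Finset.mem_range.1 ht
    have ht0 : (0 : ℝ) ≤ t := Nat.cast_nonneg t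
    simp only [Int.cast_zero, zero_add, Set.mem_Ico]
    constructor
    · positivity
    · rw [div_lt_one hs']; linarith
  have hstep : ∀ n : ℤ, g (n + 1) = g n + 1 := by
    intro n
    set a : ℕ → ℤ := fun m => ⌊((n : ℝ) + r + (m : ℝ)) / (s : ℝ)⌋ with ha
    have h1 : g n = ∑ t ∈ Finset.range s, a t := rfl
    have h2 : g (n + 1) = ∑ t ∈ Finset.range s, a (t + 1) := by
      rw [hg]
      refine Finset.sum_congr rfl fun t _ => ?_
      simp only [ha]
      congr 2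
      push_cast
      ring
    have h3 : a s = a 0 + 1 := by
      simp only [ha]
      have h4 : ((n : ℝ) + r + (s : ℝ)) / (s : ℝ) = ((n : ℝ) + r + ((0 : ℕ) : ℝ)) / (s : ℝ) + 1 := by
        push_cast
        field_simp
        ring
      rw [h4, Int.floor_add_one]
    have h5 := Finset.sum_range_succ a s
    have h6 := Finset.sum_range_succ' a s
    rw [h1, h2]
    omega
  have hall : ∀ n : ℤ, g n = n := by
    intro n
    induction n using Int.induction_on with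
    | zero => exact hg0
    | succ i ih =>
      rw [hstep, ih]
    | pred i ih =>
      have := hstep (-(i : ℤ) - 1)
      rw [show -(i : ℤ) - 1 + 1 = -(i : ℤ) by ring, ih] at this
      omega
  have hx : (⌊x⌋ : ℝ) + r = x := by rw [hr]; ring
  have := hall ⌊x⌋
  simp only [hg, hx] at this
  exact this

/-- The number of shifts separating two real numbers is at most `1 + |u - v|`. -/
lemma sum_floor_ne_le {s : ℕ} (hs : 0 < s) (u v : ℝ) :
    ∑ t ∈ Finset.range s,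
      (if ⌊(u + (t : ℝ)) / (s : ℝ)⌋ = ⌊(v + (t : ℝ)) / (s : ℝ)⌋ then (0 : ℝ) else 1)
      ≤ 1 + |u - v| := by
  have hs' : (0 : ℝ) < s := by exact_mod_cast hs
  wlog huv : u ≤ v generalizing u v
  · have h := this v u (le_of_not_ge huv)
    rw [abs_sub_comm] at h
    refine le_trans (le_of_eq ?_) h
    refine Finset.sum_congr rfl fun t _ => ?_
    simp only [eq_comm]
  have hmono : ∀ t : ℕ, ⌊(u + (t : ℝ)) / (s : ℝ)⌋ ≤ ⌊(v + (t : ℝ)) / (s : ℝ)⌋ := fun t =>
    Int.floor_le_floor (div_le_div_of_nonneg_right (by linarith) hs'.le)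
  have h1 : ∀ t ∈ Finset.range s,
      (if ⌊(u + (t : ℝ)) / (s : ℝ)⌋ = ⌊(v + (t : ℝ)) / (s : ℝ)⌋ then (0 : ℝ) else 1)
      ≤ ((⌊(v + (t : ℝ)) / (s : ℝ)⌋ : ℤ) : ℝ) - ((⌊(u + (t : ℝ)) / (s : ℝ)⌋ : ℤ) : ℝ) := by
    intro t _
    split_ifs with h
    · rw [h]; simp
    · have h2 : ⌊(u + (t : ℝ)) / (s : ℝ)⌋ + 1 ≤ ⌊(v + (t : ℝ)) / (s : ℝ)⌋ :=
        Int.add_one_le_iff.2 (lt_of_le_of_ne (hmono t) h)
      have h3 : ((⌊(u + (t : ℝ)) / (s : ℝ)⌋ + 1 : ℤ) : ℝ) ≤ (⌊(v + (t : ℝ)) / (s : ℝ)⌋ : ℤ) := by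
        exact_mod_cast h2
      push_cast at h3
      linarith
  refine le_trans (Finset.sum_le_sum h1) ?_
  rw [Finset.sum_sub_distrib]
  have h4 : ∑ t ∈ Finset.range s, ((⌊(v + (t : ℝ)) / (s : ℝ)⌋ : ℤ) : ℝ) = ((⌊v⌋ : ℤ) : ℝ) := by
    rw [← sum_floor_shift hs v]; push_cast; rfl
  have h5 : ∑ t ∈ Finset.range s, ((⌊(u + (t : ℝ)) / (s : ℝ)⌋ : ℤ) : ℝ) = ((⌊u⌋ : ℤ) : ℝ) := by
    rw [← sum_floor_shift hs u]; push_cast; rfl
  rw [h4, h5, abs_of_nonpos (by linarith)]
  have h6 := Int.floor_le v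
  have h7 := Int.lt_floor_add_one u
  linarith

/-- The shifts of a cell partition of mesh `s`. -/
def shifts (s : ℕ) : Finset (Fin 3 → ℕ) := Fintype.piFinset fun _ => Finset.range s

lemma card_shifts (s : ℕ) : (shifts s).card = s ^ 3 := by
  unfold shifts
  rw [Fintype.card_piFinset]
  simp

/-- Indicator of two points lying in a common cell. -/
noncomputable def sameInd (s : ℕ) (τ : Fin 3 → ℕ) (u v : R3) : ℝ :=
  if cellIdx s τ u = cellIdx s τ v then 1 else 0

lemma sameInd_nonneg (s : ℕ) (τ : Fin 3 → ℕ) (u v : R3) : 0 ≤ sameInd s τ u v := by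
  unfold sameInd; split_ifs <;> norm_num

lemma sameInd_eq_prod (s : ℕ) (τ : Fin 3 → ℕ) (u v : R3) :
    sameInd s τ u v = ∏ a, (if ⌊(u a + ((τ a : ℕ) : ℝ)) / (s : ℝ)⌋ = ⌊(v a + ((τ a : ℕ) : ℝ)) / (s : ℝ)⌋
      then (1 : ℝ) else 0) := by
  unfold sameInd
  rw [Finset.prod_ite_zero]
  simp only [Finset.prod_const_one, Finset.mem_univ, true_implies]
  congr 1
  simp only [funext_iff, cellIdx]

/-- The fraction of shifts for which two points lie in a common cell. -/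
noncomputable def avgSame (s : ℕ) (u v : R3) : ℝ :=
  ((s : ℝ) ^ 3)⁻¹ * ∑ τ ∈ shifts s, sameInd s τ u v

/-- The count of good shifts in a single coordinate. -/
noncomputable def goodCount (s : ℕ) (u v : ℝ) : ℝ :=
  ∑ t ∈ Finset.range s, (if ⌊(u + (t : ℝ)) / (s : ℝ)⌋ = ⌊(v + (t : ℝ)) / (s : ℝ)⌋ then (1 : ℝ) else 0)

lemma goodCount_nonneg (s : ℕ) (u v : ℝ) : 0 ≤ goodCount s u v :=
  Finset.sum_nonneg fun _ _ => by split_ifs <;> norm_num

lemma goodCount_le (s : ℕ) (u v : ℝ) : goodCount s u v ≤ s := by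
  have : ∑ _t ∈ Finset.range s, (1 : ℝ) = s := by simp
  rw [← this]
  refine Finset.sum_le_sum fun _ _ => ?_
  split_ifs <;> norm_num

lemma goodCount_ge {s : ℕ} (hs : 0 < s) (u v : ℝ) : (s : ℝ) - (1 + |u - v|) ≤ goodCount s u v := by
  have h1 := sum_floor_ne_le hs u v
  have h2 : (s : ℝ) = goodCount s u v + ∑ t ∈ Finset.range s,
      (if ⌊(u + (t : ℝ)) / (s : ℝ)⌋ = ⌊(v + (t : ℝ)) / (s : ℝ)⌋ then (0 : ℝ) else 1) := by
    unfold goodCount
    rw [← Finset.sum_add_distrib]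
    have : ∑ _t ∈ Finset.range s, (1 : ℝ) = s := by simp
    rw [← this]
    refine Finset.sum_congr rfl fun _ _ => ?_
    split_ifs <;> norm_num
  linarith

lemma avgSame_eq_prod {s : ℕ} (hs : 0 < s) (u v : R3) :
    avgSame s u v = ∏ a, (goodCount s (u a) (v a) / (s : ℝ)) := by
  have hs' : (s : ℝ) ≠ 0 := by exact_mod_cast hs.ne'
  unfold avgSame
  have h1 : ∑ τ ∈ shifts s, sameInd s τ u v = ∏ a, goodCount s (u a) (v a) := by
    unfold goodCount shifts
    rw [Finset.prod_univ_sum]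
    refine Finset.sum_congr rfl fun τ _ => ?_
    rw [sameInd_eq_prod]
  rw [h1, Fin.prod_univ_three, Fin.prod_univ_three]
  field_simp

lemma avgSame_nonneg {s : ℕ} (hs : 0 < s) (u v : R3) : 0 ≤ avgSame s u v := by
  have hs' : (0 : ℝ) < s := by exact_mod_cast hs
  rw [avgSame_eq_prod hs]
  exact Finset.prod_nonneg fun a _ => div_nonneg (goodCount_nonneg s _ _) hs'.le

lemma avgSame_le_one {s : ℕ} (hs : 0 < s) (u v : R3) : avgSame s u v ≤ 1 := by
  have hs' : (0 : ℝ) < s := by exact_mod_cast hs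
  rw [avgSame_eq_prod hs]
  exact Finset.prod_le_one (fun a _ => div_nonneg (goodCount_nonneg s _ _) hs'.le)
    fun a _ => (div_le_one hs').2 (goodCount_le s _ _)

lemma avgSame_self {s : ℕ} (hs : 0 < s) (u : R3) : avgSame s u u = 1 := by
  have hs' : (s : ℝ) ≠ 0 := by exact_mod_cast hs.ne'
  rw [avgSame_eq_prod hs]
  have : ∀ a, goodCount s (u a) (u a) / (s : ℝ) = 1 := by
    intro a
    unfold goodCount
    simp [hs']
  simp [this]

/-- The probability that a random shift separates two points. -/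
lemma one_sub_avgSame_le {s : ℕ} (hs : 0 < s) (u v : R3) :
    1 - avgSame s u v ≤ (3 + ∑ a, |u a - v a|) / (s : ℝ) := by
  have hs' : (0 : ℝ) < s := by exact_mod_cast hs
  rw [avgSame_eq_prod hs, Fin.prod_univ_three, Fin.sum_univ_three]
  set q : Fin 3 → ℝ := fun a => goodCount s (u a) (v a) / (s : ℝ) with hq
  have hq0 : ∀ a, 0 ≤ q a := fun a => div_nonneg (goodCount_nonneg s _ _) hs'.le
  have hq1 : ∀ a, q a ≤ 1 := fun a => (div_le_one hs').2 (goodCount_le s _ _)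
  have hq2 : ∀ a, 1 - q a ≤ (1 + |u a - v a|) / (s : ℝ) := by
    intro a
    rw [le_div_iff₀ hs']
    have h1 := goodCount_ge hs (u a) (v a)
    have h2 : q a * s = goodCount s (u a) (v a) := by
      simp only [hq]; field_simp
    have : (1 - q a) * s = s - q a * s := by ring
    rw [this, h2]
    linarith
  have h3 : 1 - q 0 * q 1 * q 2 ≤ (1 - q 0) + (1 - q 1) + (1 - q 2) := by
    have h01 : 0 ≤ (1 - q 0) * (1 - q 1) := mul_nonneg (by linarith [hq1 0]) (by linarith [hq1 1])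
    have h12 : 0 ≤ (1 - q 0 * q 1) * (1 - q 2) := by
      refine mul_nonneg ?_ (by linarith [hq1 2])
      have := mul_le_one₀ (hq1 0) (hq0 1) (hq1 1)
      linarith
    nlinarith
  refine le_trans h3 ?_
  have h4 := add_le_add (add_le_add (hq2 0) (hq2 1)) (hq2 2)
  refine le_trans h4 (le_of_eq ?_)
  field_simp
  ring

/-! ### Domination of the polynomially weighted kernels -/

/-- The constant in the domination of the weighted Gaussian. -/
noncomputable def Cg (σ : ℝ) : ℝ := 2 * exp (2 * σ ^ 2 / 3)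

lemma Cg_pos (σ : ℝ) : 0 < Cg σ := by unfold Cg; positivity

lemma one_add_abs_mul_gs_le {σ : ℝ} (hσ : 0 < σ) (t : ℝ) :
    (1 + |t|) * gs σ t ≤ Cg σ * gs (2 * σ) t := by
  unfold gs Cg
  have hsq := sqrt_two_pi_pos
  have h1 : 1 + |t| ≤ exp |t| := by linarith [Real.add_one_le_exp |t|]
  have h2 : |t| ≤ 3 * t ^ 2 / (8 * σ ^ 2) + 2 * σ ^ 2 / 3 := by
    have h3 : 0 ≤ (3 * |t| / (4 * σ) - σ) ^ 2 := sq_nonneg _
    have h4 : (3 * |t| / (4 * σ) - σ) ^ 2 = 9 * t ^ 2 / (16 * σ ^ 2) - 3 * |t| / 2 + σ ^ 2 := by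
      rw [sub_sq, div_pow, mul_pow, mul_pow, sq_abs]
      field_simp
      ring
    rw [h4] at h3
    have h5 : 3 * t ^ 2 / (8 * σ ^ 2) = (2 / 3) * (9 * t ^ 2 / (16 * σ ^ 2)) := by
      field_simp
      ring
    rw [h5]
    nlinarith
  have h6 : exp |t| ≤ exp (3 * t ^ 2 / (8 * σ ^ 2) + 2 * σ ^ 2 / 3) := Real.exp_le_exp.2 h2
  have h7 : exp (-(t ^ 2) / (2 * σ ^ 2))
      = exp (-(t ^ 2) / (2 * (2 * σ) ^ 2)) * exp (-(3 * t ^ 2 / (8 * σ ^ 2))) := by
    rw [← Real.exp_add]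
    congr 1
    field_simp
    ring
  have h8 : (1 + |t|) * exp (-(3 * t ^ 2 / (8 * σ ^ 2))) ≤ exp (2 * σ ^ 2 / 3) := by
    calc (1 + |t|) * exp (-(3 * t ^ 2 / (8 * σ ^ 2)))
        ≤ exp (3 * t ^ 2 / (8 * σ ^ 2) + 2 * σ ^ 2 / 3) * exp (-(3 * t ^ 2 / (8 * σ ^ 2))) :=
          mul_le_mul_of_nonneg_right (h1.trans h6) (exp_pos _).le
      _ = exp (2 * σ ^ 2 / 3) := by
          rw [← Real.exp_add]; congr 1; ring
  have h9 : (2 * σ * √(2 * π))⁻¹ = (σ * √(2 * π))⁻¹ / 2 := by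
    field_simp
  rw [h7, h9]
  have h10 : 0 < (σ * √(2 * π))⁻¹ * exp (-(t ^ 2) / (2 * (2 * σ) ^ 2)) := by positivity
  calc (1 + |t|) * ((σ * √(2 * π))⁻¹ *
        (exp (-(t ^ 2) / (2 * (2 * σ) ^ 2)) * exp (-(3 * t ^ 2 / (8 * σ ^ 2)))))
      = ((σ * √(2 * π))⁻¹ * exp (-(t ^ 2) / (2 * (2 * σ) ^ 2))) *
        ((1 + |t|) * exp (-(3 * t ^ 2 / (8 * σ ^ 2)))) := by ring
    _ ≤ ((σ * √(2 * π))⁻¹ * exp (-(t ^ 2) / (2 * (2 * σ) ^ 2))) * exp (2 * σ ^ 2 / 3) :=
        mul_le_mul_of_nonneg_left h8 h10.le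
    _ = _ := by ring

/-- The constant dominating the polynomial weight of the three dimensional Gaussian. -/
noncomputable def Dg (σ : ℝ) : ℝ := 3 * (Cg σ) ^ 3

lemma Dg_pos (σ : ℝ) : 0 < Dg σ := by
  unfold Dg
  have := Cg_pos σ
  positivity

lemma weighted_prod_gs_le {σ : ℝ} (hσ : 0 < σ) (u : Fin 3 → ℝ) :
    (3 + ∑ a, |u a|) * ∏ a, gs σ (u a) ≤ Dg σ * ∏ a, gs (2 * σ) (u a) := by
  unfold Dg
  rw [Fin.sum_univ_three, Fin.prod_univ_three, Fin.prod_univ_three]
  have h0 := abs_nonneg (u 0)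
  have h1 := abs_nonneg (u 1)
  have h2 := abs_nonneg (u 2)
  have hw : 3 + (|u 0| + |u 1| + |u 2|) ≤ 3 * ((1 + |u 0|) * (1 + |u 1|) * (1 + |u 2|)) := by
    have h3 := mul_nonneg h0 h1
    have h4 := mul_nonneg h0 h2
    have h5 := mul_nonneg h1 h2
    have h6 := mul_nonneg h3 h2
    nlinarith
  have g0 := gs_pos hσ (u 0)
  have g1 := gs_pos hσ (u 1)
  have g2 := gs_pos hσ (u 2)
  have e0 := one_add_abs_mul_gs_le hσ (u 0)
  have e1 := one_add_abs_mul_gs_le hσ (u 1)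
  have e2 := one_add_abs_mul_gs_le hσ (u 2)
  have hprod : ((1 + |u 0|) * gs σ (u 0)) * ((1 + |u 1|) * gs σ (u 1)) * ((1 + |u 2|) * gs σ (u 2))
      ≤ (Cg σ * gs (2 * σ) (u 0)) * (Cg σ * gs (2 * σ) (u 1)) * (Cg σ * gs (2 * σ) (u 2)) := by
    have p0 : 0 ≤ (1 + |u 0|) * gs σ (u 0) := by positivity
    have p1 : 0 ≤ (1 + |u 1|) * gs σ (u 1) := by positivity
    have p2 : 0 ≤ (1 + |u 2|) * gs σ (u 2) := by positivity
    exact mul_le_mul (mul_le_mul e0 e1 p1 (le_trans p0 e0)) e2 p2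
      (mul_nonneg (le_trans p0 e0) (le_trans p1 e1))
  have hg : 0 < gs σ (u 0) * gs σ (u 1) * gs σ (u 2) := by positivity
  calc (3 + (|u 0| + |u 1| + |u 2|)) * (gs σ (u 0) * gs σ (u 1) * gs σ (u 2))
      ≤ (3 * ((1 + |u 0|) * (1 + |u 1|) * (1 + |u 2|))) * (gs σ (u 0) * gs σ (u 1) * gs σ (u 2)) :=
        mul_le_mul_of_nonneg_right hw hg.le
    _ = 3 * (((1 + |u 0|) * gs σ (u 0)) * ((1 + |u 1|) * gs σ (u 1)) * ((1 + |u 2|) * gs σ (u 2))) := by
        ring
    _ ≤ 3 * ((Cg σ * gs (2 * σ) (u 0)) * (Cg σ * gs (2 * σ) (u 1)) * (Cg σ * gs (2 * σ) (u 2))) :=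
        mul_le_mul_of_nonneg_left hprod (by norm_num)
    _ = _ := by ring

lemma unit_schur_const' {σ : ℝ} (hσ : 10 ≤ σ) : (3 * gs σ 0 + 1 / ((1 : ℕ) : ℝ)) ^ 3 ≤ 2 := by
  rw [gs_zero]
  have h1 : (σ * √(2 * π)) ≥ 25 := by
    have := sqrt_two_pi_ge
    nlinarith
  have h2 : (σ * √(2 * π))⁻¹ ≤ 1 / 25 := by
    rw [one_div]
    exact inv_anti₀ (by norm_num) h1
  have h3 : 0 ≤ (σ * √(2 * π))⁻¹ := by
    have := sqrt_two_pi_pos
    have : 0 < σ := by linarith
    positivity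
  have h4 : 3 * (σ * √(2 * π))⁻¹ + 1 / ((1 : ℕ) : ℝ) ≤ 28 / 25 := by
    have h5 : 1 / ((1 : ℕ) : ℝ) = 1 := by simp
    rw [h5]
    linarith
  calc (3 * (σ * √(2 * π))⁻¹ + 1 / ((1 : ℕ) : ℝ)) ^ 3 ≤ (28 / 25 : ℝ) ^ 3 :=
        pow_le_pow_left₀ (by positivity) h4 3
    _ ≤ 2 := by norm_num

/-- The finite-range constant of the `j`-th kernel. -/
noncomputable def Mj (j : ℕ) : ℝ := 2 * Dg (sig j)

lemma Mj_pos (j : ℕ) : 0 < Mj j := by
  unfold Mj
  have := Dg_pos (sig j)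
  positivity

section pairs
variable {ι : Type} [Fintype ι] [DecidableEq ι]

/-- The kernel weighted by the separation probability, summed over pairs. -/
lemma offSum_sep_Kr_le {s : ℕ} (hs : 0 < s) (j : ℕ) (x : ι → R3) :
    offSum (fun u v => (1 - avgSame s u v) * Kr j (euclDist u v)) x
      ≤ Mj j / (s : ℝ) * ((Fintype.card ι : ℝ) + nearCount x) := by
  have hs' : (0 : ℝ) < s := by exact_mod_cast hs
  have hσ := sig_pos j
  have h2σ : (0 : ℝ) < 2 * sig j := by linarith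
  have h1 : offSum (fun u v => (1 - avgSame s u v) * Kr j (euclDist u v)) x
      ≤ ∑ i, ∑ i', (1 - avgSame s (x i) (x i')) * Kr j (euclDist (x i) (x i')) := by
    rw [sum_pairs_eq (fun u v => (1 - avgSame s u v) * Kr j (euclDist u v)) x]
    have : 0 ≤ ∑ i, (1 - avgSame s (x i) (x i)) * Kr j (euclDist (x i) (x i)) :=
      Finset.sum_nonneg fun i _ => mul_nonneg
        (by linarith [avgSame_le_one hs (x i) (x i)]) (Kr_pos j _).le
    linarith
  refine le_trans h1 ?_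
  have h2 : ∀ i i', (1 - avgSame s (x i) (x i')) * Kr j (euclDist (x i) (x i'))
      ≤ (Dg (sig j) / (s : ℝ)) * ∏ a, gs (2 * sig j) (x i a - x i' a) := by
    intro i i'
    rw [Kr_euclDist]
    have h3 := one_sub_avgSame_le hs (x i) (x i')
    have h4 := weighted_prod_gs_le hσ (fun a => x i a - x i' a)
    have h5 : 0 ≤ ∏ a, gs (sig j) (x i a - x i' a) :=
      Finset.prod_nonneg fun a _ => (gs_pos hσ _).le
    calc (1 - avgSame s (x i) (x i')) * ∏ a, gs (sig j) (x i a - x i' a)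
        ≤ ((3 + ∑ a, |x i a - x i' a|) / (s : ℝ)) * ∏ a, gs (sig j) (x i a - x i' a) :=
          mul_le_mul_of_nonneg_right h3 h5
      _ = ((3 + ∑ a, |x i a - x i' a|) * ∏ a, gs (sig j) (x i a - x i' a)) / (s : ℝ) := by ring
      _ ≤ (Dg (sig j) * ∏ a, gs (2 * sig j) (x i a - x i' a)) / (s : ℝ) :=
          div_le_div_of_nonneg_right h4 hs'.le
      _ = _ := by ring
  have h6 : ∑ i, ∑ i', (1 - avgSame s (x i) (x i')) * Kr j (euclDist (x i) (x i'))
      ≤ (Dg (sig j) / (s : ℝ)) * ∑ i, ∑ i', ∏ a, gs (2 * sig j) (x i a - x i' a) := by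
    rw [Finset.mul_sum]
    refine Finset.sum_le_sum fun i _ => ?_
    rw [Finset.mul_sum]
    exact Finset.sum_le_sum fun i' _ => h2 i i'
  refine le_trans h6 ?_
  have h7 := schur_gauss h2σ Nat.one_pos 0 x
  have h8 : ∑ i, ∑ i', ∏ a, gs (2 * sig j) (x i a - x i' a) ≤ 2 * unitPairs x := by
    refine le_trans h7 ?_
    refine mul_le_mul_of_nonneg_right (unit_schur_const' (by linarith [sig_ge j])) ?_
    exact Finset.sum_nonneg fun i _ => Finset.sum_nonneg fun j _ => by split_ifs <;> norm_num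
  have h9 := unitPairs_le x
  have hD : 0 ≤ Dg (sig j) / (s : ℝ) := div_nonneg (Dg_pos _).le hs'.le
  calc Dg (sig j) / (s : ℝ) * ∑ i, ∑ i', ∏ a, gs (2 * sig j) (x i a - x i' a)
      ≤ Dg (sig j) / (s : ℝ) * (2 * ((Fintype.card ι : ℝ) + nearCount x)) :=
        mul_le_mul_of_nonneg_left (by linarith) hD
    _ = _ := by unfold Mj; ring

/-- Scale `s` Schur bound for the sum of the `k`-th kernel, averaged over the shifts. -/
lemma kerSum_le_avg {s : ℕ} (hs : 0 < s) (k : ℕ) (x : ι → R3) :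
    kerSum k x ≤ (3 * gs (sig k) 0 + 1 / (s : ℝ)) ^ 3 *
      (offSum (avgSame s) x + (Fintype.card ι : ℝ)) := by
  have hs' : (0 : ℝ) < s := by exact_mod_cast hs
  set A := (3 * gs (sig k) 0 + 1 / (s : ℝ)) ^ 3 with hA
  have h1 : ∀ τ, ∑ i, ∑ j, Kr k (euclDist (x i) (x j)) ≤ A * ∑ i, ∑ j, sameInd s τ (x i) (x j) := by
    intro τ
    simp_rw [Kr_euclDist]
    exact schur_gauss (sig_pos k) hs τ x
  have hcard : (0 : ℝ) < ((shifts s).card : ℝ) := by
    rw [card_shifts]; positivity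
  have h2 : ∑ i, ∑ j, Kr k (euclDist (x i) (x j)) ≤ A * ∑ i, ∑ j, avgSame s (x i) (x j) := by
    have h3 : ∑ τ ∈ shifts s, ∑ i, ∑ j, Kr k (euclDist (x i) (x j))
        ≤ ∑ τ ∈ shifts s, (A * ∑ i, ∑ j, sameInd s τ (x i) (x j)) :=
      Finset.sum_le_sum fun τ _ => h1 τ
    rw [Finset.sum_const, nsmul_eq_mul, ← Finset.mul_sum] at h3
    have h4 : ∑ τ ∈ shifts s, ∑ i, ∑ j, sameInd s τ (x i) (x j)
        = ((s : ℝ) ^ 3) * ∑ i, ∑ j, avgSame s (x i) (x j) := by
      unfold avgSame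
      rw [Finset.sum_comm, Finset.mul_sum]
      refine Finset.sum_congr rfl fun i _ => ?_
      rw [Finset.sum_comm, Finset.mul_sum]
      refine Finset.sum_congr rfl fun j _ => ?_
      field_simp
    rw [h4, card_shifts] at h3
    push_cast at h3
    have hs3 : (0 : ℝ) < (s : ℝ) ^ 3 := by positivity
    have h5 : (s : ℝ) ^ 3 * ∑ i, ∑ j, Kr k (euclDist (x i) (x j))
        ≤ (s : ℝ) ^ 3 * (A * ∑ i, ∑ j, avgSame s (x i) (x j)) := by
      calc _ ≤ _ := h3
        _ = _ := by ring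
    exact le_of_mul_le_mul_left h5 hs3
  have h6 : ∑ i, ∑ j, Kr k (euclDist (x i) (x j)) = kerSum k x + ∑ i, Kr k (euclDist (x i) (x i)) :=
    sum_pairs_eq (fun u v => Kr k (euclDist u v)) x
  have h7 : 0 ≤ ∑ i, Kr k (euclDist (x i) (x i)) := Finset.sum_nonneg fun _ _ => (Kr_pos k _).le
  have h8 : ∑ i, ∑ j, avgSame s (x i) (x j) = offSum (avgSame s) x + (Fintype.card ι : ℝ) := by
    rw [sum_pairs_eq (avgSame s) x]
    simp [avgSame_self hs]
  rw [h8] at h2
  linarith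

lemma offSum_finset_sum {α : Type} (F : Finset α) (f : α → R3 → R3 → ℝ) (x : ι → R3) :
    offSum (fun u v => ∑ j ∈ F, f j u v) x = ∑ j ∈ F, offSum (f j) x := by
  unfold offSum
  have h1 : ∀ i i', (if i = i' then (0 : ℝ) else ∑ j ∈ F, f j (x i) (x i'))
      = ∑ j ∈ F, (if i = i' then (0 : ℝ) else f j (x i) (x i')) := by
    intro i i'
    split_ifs <;> simp
  simp_rw [h1]
  calc ∑ i, ∑ i', ∑ j ∈ F, (if i = i' then (0 : ℝ) else f j (x i) (x i'))
      = ∑ i, ∑ j ∈ F, ∑ i', (if i = i' then (0 : ℝ) else f j (x i) (x i')) :=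
        Finset.sum_congr rfl fun i _ => Finset.sum_comm
    _ = _ := Finset.sum_comm

end pairs

/-- Adding a multiple of the `k`-th kernel to the attractive part. -/
lemma pot_add_single {h : ℝ} {c : ℕ → ℝ} (hc : Summable fun j => |c j|) (ε : ℝ) (k : ℕ) (r : ℝ) :
    pot h (fun j => c j + ε * (if j = k then 1 else 0)) r = pot h c r - ε * Kr k r := by
  unfold pot
  have h1 : ∀ j, (c j + ε * (if j = k then 1 else 0)) * Kr j r
      = c j * Kr j r + (if j = k then ε * Kr k r else 0) := by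
    intro j
    by_cases hj : j = k
    · simp [hj]; ring
    · simp [hj]
  simp_rw [h1]
  have hs2 : Summable fun j => (if j = k then ε * Kr k r else 0) :=
    summable_of_finite_support ((Set.finite_singleton k).subset fun j hj => by
      by_contra hne
      simp only [Set.mem_singleton_iff] at hne
      simp [hne] at hj)
  rw [Summable.tsum_add (summable_mul_Kr hc r) hs2, tsum_ite_eq]
  ring

lemma summable_add_single {c : ℕ → ℝ} (hc : Summable fun j => |c j|) (ε : ℝ) (k : ℕ) :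
    Summable fun j => |c j + ε * (if j = k then 1 else 0)| := by
  have hs2 : Summable fun j => |ε * (if j = k then (1 : ℝ) else 0)| :=
    summable_of_finite_support ((Set.finite_singleton k).subset fun j hj => by
      by_contra hne
      simp only [Set.mem_singleton_iff] at hne
      simp [hne] at hj)
  exact Summable.of_nonneg_of_le (fun _ => abs_nonneg _) (fun j => abs_add_le _ _) (hc.add hs2)

/-- The pointwise energy inequality behind the upper bound for long range attraction. -/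
theorem energy_ineq {ι : Type} [Fintype ι] [DecidableEq ι] {h ζ₀ ε e : ℝ} {c : ℕ → ℝ} {k₀ : ℕ}
    (hc0 : ∀ j, 0 ≤ c j) (hsupp : ∀ j, k₀ ≤ j → c j = 0) (hζh : ζ₀ ≤ h) {s : ℕ}
    (hs : 0 < s) {k : ℕ} (hA2 : (∑ j ∈ Finset.range k₀, c j * Mj j) / (s : ℝ) ≤ ζ₀)
    (hA3 : ε * (3 * gs (sig k) 0 + 1 / (s : ℝ)) ^ 3 ≤ e / (s : ℝ) ^ 3) (hε : 0 ≤ ε) (x : ι → R3) :
    offSum (fun u v => avgSame s u v * (pot (h - ζ₀) c (euclDist u v) - e / (s : ℝ) ^ 3)) x
        - (ζ₀ + e / (s : ℝ) ^ 3) * (Fintype.card ι : ℝ)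
      ≤ offSum (radK (pot h (fun j => c j + ε * (if j = k then 1 else 0)))) x := by
  have hs' : (0 : ℝ) < s := by exact_mod_cast hs
  have hcs : Summable fun j => |c j| :=
    summable_of_finite_support ((Finset.finite_toSet (Finset.range k₀)).subset fun j hj => by
      by_contra hne
      have : k₀ ≤ j := by simpa using hne
      simp [hsupp j this] at hj)
  set A : ℝ → ℝ := fun r => ∑ j ∈ Finset.range k₀, c j * Kr j r with hAdef
  have hAeq : ∀ r, ∑' j, c j * Kr j r = A r := by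
    intro r
    refine tsum_eq_sum fun j hj => ?_
    have : k₀ ≤ j := by simpa using hj
    rw [hsupp j this, zero_mul]
  -- the pointwise lower bound
  have hpt : ∀ u v : R3, avgSame s u v * (pot (h - ζ₀) c (euclDist u v) - e / (s : ℝ) ^ 3)
        + ζ₀ * (if euclDist u v ≤ 2 then (1 : ℝ) else 0)
        - (1 - avgSame s u v) * A (euclDist u v) - ε * Kr k (euclDist u v)
        + e / (s : ℝ) ^ 3 * avgSame s u v
      ≤ radK (pot h (fun j => c j + ε * (if j = k then 1 else 0))) u v := by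
    intro u v
    unfold radK
    rw [pot_add_single hcs]
    unfold pot
    rw [hAeq]
    have h1 := avgSame_le_one hs u v
    have h3 : 0 ≤ (h - ζ₀) * (1 - avgSame s u v) *
        (if euclDist u v ≤ 2 then (1 : ℝ) else 0) := by
      refine mul_nonneg (mul_nonneg (by linarith) (by linarith)) ?_
      split_ifs <;> norm_num
    nlinarith
  have hsum := offSum_mono (ψ₁ := fun u v =>
      avgSame s u v * (pot (h - ζ₀) c (euclDist u v) - e / (s : ℝ) ^ 3)
        + ζ₀ * (if euclDist u v ≤ 2 then (1 : ℝ) else 0)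
        - (1 - avgSame s u v) * A (euclDist u v) - ε * Kr k (euclDist u v)
        + e / (s : ℝ) ^ 3 * avgSame s u v)
    (ψ₂ := radK (pot h (fun j => c j + ε * (if j = k then 1 else 0)))) x
    (fun i j _ => hpt (x i) (x j))
  set E₀ := offSum (fun u v => avgSame s u v * (pot (h - ζ₀) c (euclDist u v) - e / (s : ℝ) ^ 3)) x
    with hE₀
  set S := nearCount x with hS
  set T₁ := offSum (fun u v => (1 - avgSame s u v) * A (euclDist u v)) x with hT₁
  set T₂ := kerSum k x with hT₂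
  set T₃ := offSum (avgSame s) x with hT₃
  set N : ℝ := (Fintype.card ι : ℝ) with hN
  have hdecomp : offSum (fun u v =>
      avgSame s u v * (pot (h - ζ₀) c (euclDist u v) - e / (s : ℝ) ^ 3)
        + ζ₀ * (if euclDist u v ≤ 2 then (1 : ℝ) else 0)
        - (1 - avgSame s u v) * A (euclDist u v) - ε * Kr k (euclDist u v)
        + e / (s : ℝ) ^ 3 * avgSame s u v) x = E₀ + ζ₀ * S - T₁ - ε * T₂ + e / (s : ℝ) ^ 3 * T₃ := by
    rw [offSum_add (fun u v => avgSame s u v * (pot (h - ζ₀) c (euclDist u v) - e / (s : ℝ) ^ 3)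
        + ζ₀ * (if euclDist u v ≤ 2 then (1 : ℝ) else 0)
        - (1 - avgSame s u v) * A (euclDist u v) - ε * Kr k (euclDist u v))
        (fun u v => e / (s : ℝ) ^ 3 * avgSame s u v),
      offSum_sub (fun u v => avgSame s u v * (pot (h - ζ₀) c (euclDist u v) - e / (s : ℝ) ^ 3)
        + ζ₀ * (if euclDist u v ≤ 2 then (1 : ℝ) else 0)
        - (1 - avgSame s u v) * A (euclDist u v)) (fun u v => ε * Kr k (euclDist u v)),
      offSum_sub (fun u v => avgSame s u v * (pot (h - ζ₀) c (euclDist u v) - e / (s : ℝ) ^ 3)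
        + ζ₀ * (if euclDist u v ≤ 2 then (1 : ℝ) else 0))
        (fun u v => (1 - avgSame s u v) * A (euclDist u v)),
      offSum_add (fun u v => avgSame s u v * (pot (h - ζ₀) c (euclDist u v) - e / (s : ℝ) ^ 3))
        (fun u v => ζ₀ * (if euclDist u v ≤ 2 then (1 : ℝ) else 0)),
      offSum_const_mul ζ₀ (fun u v => if euclDist u v ≤ 2 then (1 : ℝ) else 0),
      offSum_const_mul ε (fun u v => Kr k (euclDist u v)),
      offSum_const_mul (e / (s : ℝ) ^ 3) (avgSame s)]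
    rfl
  rw [hdecomp] at hsum
  -- the bound on the boundary term
  have hT₁le : T₁ ≤ ζ₀ * (N + S) := by
    have h1 : T₁ = ∑ j ∈ Finset.range k₀, c j *
        offSum (fun u v => (1 - avgSame s u v) * Kr j (euclDist u v)) x := by
      rw [hT₁]
      have h2 : (fun u v => (1 - avgSame s u v) * A (euclDist u v)) = fun u v =>
          ∑ j ∈ Finset.range k₀, c j * ((1 - avgSame s u v) * Kr j (euclDist u v)) := by
        funext u v
        rw [hAdef, Finset.mul_sum]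
        refine Finset.sum_congr rfl fun j _ => ?_
        ring
      rw [h2, offSum_finset_sum]
      refine Finset.sum_congr rfl fun j _ => ?_
      exact offSum_const_mul (c j) _ x
    rw [h1]
    have hNS : 0 ≤ N + S := by
      have := nearCount_nonneg x
      have : (0 : ℝ) ≤ N := Nat.cast_nonneg _
      positivity
    calc ∑ j ∈ Finset.range k₀, c j * offSum (fun u v => (1 - avgSame s u v) * Kr j (euclDist u v)) x
        ≤ ∑ j ∈ Finset.range k₀, c j * (Mj j / (s : ℝ) * (N + S)) :=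
          Finset.sum_le_sum fun j _ => mul_le_mul_of_nonneg_left (offSum_sep_Kr_le hs j x) (hc0 j)
      _ = (∑ j ∈ Finset.range k₀, c j * Mj j) / (s : ℝ) * (N + S) := by
          rw [Finset.sum_div, Finset.sum_mul]
          refine Finset.sum_congr rfl fun j _ => ?_
          ring
      _ ≤ ζ₀ * (N + S) := mul_le_mul_of_nonneg_right hA2 hNS
  -- the bound on the long range term
  have hT₃N : 0 ≤ T₃ + N := by
    have h1 : 0 ≤ T₃ := offSum_nonneg x fun i j _ => avgSame_nonneg hs _ _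
    have : (0 : ℝ) ≤ N := Nat.cast_nonneg _
    linarith
  have hT₂le : ε * T₂ ≤ e / (s : ℝ) ^ 3 * (T₃ + N) := by
    have h1 := kerSum_le_avg hs k x
    calc ε * T₂ ≤ ε * ((3 * gs (sig k) 0 + 1 / (s : ℝ)) ^ 3 * (T₃ + N)) :=
          mul_le_mul_of_nonneg_left h1 hε
      _ = (ε * (3 * gs (sig k) 0 + 1 / (s : ℝ)) ^ 3) * (T₃ + N) := by ring
      _ ≤ _ := mul_le_mul_of_nonneg_right hA3 hT₃N
  have h5 : E₀ + ζ₀ * S - ζ₀ * (N + S) - e / (s : ℝ) ^ 3 * (T₃ + N) + e / (s : ℝ) ^ 3 * T₃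
      = E₀ - (ζ₀ + e / (s : ℝ) ^ 3) * N := by ring
  linarith

end Vale.Agent.Lib.P171
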