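import Vale.Agent.Lib.P171.Bounds

/-!
# Existence of the thermodynamic limit for a soft core with nonpositive tail

Well separated blocks only interact through a nonpositive tail, so the partition sum of a large
cube dominates a product over translated small cubes.
-/

open MeasureTheory Set Real Filter
open scoped ENNReal Topology

namespace Vale.Agent.Lib.P171

/-- Comparison of partition sums when the pair sums compare. -/
lemma GP_anti_of_offSum {ψ₁ ψ₂ : R3 → R3 → ℝ} (μ : ℝ) {D : Set R3} (hD : MeasurableSet D)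
    (h : ∀ (N : ℕ) (x : Fin N → R3), (∀ i, x i ∈ D) → offSum ψ₁ x ≤ offSum ψ₂ x) :
    GP ψ₂ μ D ≤ GP ψ₁ μ D := by
  refine ENNReal.tsum_le_tsum fun N => mul_le_mul_right ?_ _
  unfold intD
  refine setLIntegral_mono' (measurableSet_pi_const hD) fun x hx => ?_
  have hx' : ∀ i, x i ∈ D := fun i => hx i (Set.mem_univ i)
  unfold wt
  refine ENNReal.ofReal_le_ofReal (Real.exp_le_exp.2 ?_)
  have := h N x hx'
  linarith

/-- The integer cell of mesh `t` of a point. -/
noncomputable def cellR (t : ℝ) (u : R3) : Fin 3 → ℤ := fun a => ⌊u a / t⌋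

/-- A small block inside the cell with label `C`. -/
def blockSet (t l : ℝ) (C : Fin 3 → ℤ) : Set R3 :=
  {x | ∀ a, (C a : ℝ) * t ≤ x a ∧ x a ≤ (C a : ℝ) * t + l}

/-- The kernel cut to pairs in a common cell. -/
noncomputable def cutK (t : ℝ) (φ : ℝ → ℝ) (u v : R3) : ℝ :=
  (if cellR t u = cellR t v then 1 else 0) * radK φ u v

lemma measurable_cellR (t : ℝ) : Measurable (cellR t) := by
  refine measurable_pi_lambda _ fun a => ?_
  unfold cellR
  exact Int.measurable_floor.comp ((measurable_pi_apply a).div_const _)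

lemma measurable_cutK (t : ℝ) {φ : ℝ → ℝ} (hφ : Measurable φ) :
    Measurable (Function.uncurry (cutK t φ)) := by
  have h1 : MeasurableSet {p : R3 × R3 | cellR t p.1 = cellR t p.2} :=
    measurableSet_eq_fun ((measurable_cellR t).comp measurable_fst)
      ((measurable_cellR t).comp measurable_snd)
  have h2 : Measurable fun p : R3 × R3 => if cellR t p.1 = cellR t p.2 then (1 : ℝ) else 0 :=
    Measurable.ite h1 measurable_const measurable_const
  exact h2.mul (measurable_radK hφ)

lemma measurableSet_blockSet (t l : ℝ) (C : Fin 3 → ℤ) : MeasurableSet (blockSet t l C) := by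
  have : blockSet t l C = Set.pi Set.univ (fun a => Icc ((C a : ℝ) * t) ((C a : ℝ) * t + l)) := by
    ext x
    simp only [blockSet, Set.mem_ofPred_eq, Set.mem_pi, Set.mem_univ, true_implies, Set.mem_Icc]
  rw [this]
  exact MeasurableSet.univ_pi fun _ => measurableSet_Icc

lemma cellR_of_mem {t l : ℝ} (ht : 0 < t) (hl : l < t) {C : Fin 3 → ℤ} {x : R3}
    (hx : x ∈ blockSet t l C) : cellR t x = C := by
  funext a
  unfold cellR
  rw [Int.floor_eq_iff]
  have h1 := (hx a).1
  have h2 := (hx a).2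
  constructor
  · rw [le_div_iff₀ ht]; exact h1
  · rw [div_lt_iff₀ ht]; nlinarith

lemma blockSet_eq_translate (t l : ℝ) (C : Fin 3 → ℤ) :
    blockSet t l C = (fun x => x + fun a => -((C a : ℝ) * t)) ⁻¹' cube l := by
  ext x
  simp only [blockSet, cube, Set.mem_ofPred_eq, Set.mem_preimage, Pi.add_apply]
  constructor
  · intro h a
    constructor <;> linarith [(h a).1, (h a).2]
  · intro h a
    constructor <;> linarith [(h a).1, (h a).2]

lemma pot_nonpos_of_gt {h : ℝ} {c : ℕ → ℝ} (hc0 : ∀ k, 0 ≤ c k) {r : ℝ} (hr : 2 < r) :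
    pot h c r ≤ 0 := by
  unfold pot
  rw [if_neg (not_le.2 hr), mul_zero, zero_sub, neg_nonpos]
  exact tsum_nonneg fun k => mul_nonneg (hc0 k) (Kr_pos k r).le

/-- Blocks with different labels are at distance more than two. -/
lemma dist_of_ne {l : ℝ} {C C' : Fin 3 → ℤ} (hne : C ≠ C') {u v : R3}
    (hu : u ∈ blockSet (l + 3) l C) (hv : v ∈ blockSet (l + 3) l C') (hl : 0 < l) :
    2 < euclDist u v := by
  obtain ⟨a, ha⟩ := Function.ne_iff.1 hne
  have h1 := abs_le_euclDist u v a
  have h2 := hu a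
  have h3 := hv a
  have ht : (0 : ℝ) < l + 3 := by linarith
  refine lt_of_lt_of_le ?_ h1
  rcases lt_or_gt_of_ne ha with h | h
  · have h4 : (C a : ℝ) + 1 ≤ C' a := by exact_mod_cast h
    have h5 : ((C a : ℝ) + 1) * (l + 3) ≤ (C' a : ℝ) * (l + 3) :=
      mul_le_mul_of_nonneg_right h4 ht.le
    have h6 : 3 ≤ v a - u a := by nlinarith [h2.2, h3.1]
    rw [abs_sub_comm]
    exact lt_of_lt_of_le (by norm_num) (h6.trans (le_abs_self _))
  · have h4 : (C' a : ℝ) + 1 ≤ C a := by exact_mod_cast h
    have h5 : ((C' a : ℝ) + 1) * (l + 3) ≤ (C a : ℝ) * (l + 3) :=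
      mul_le_mul_of_nonneg_right h4 ht.le
    have h6 : 3 ≤ u a - v a := by nlinarith [h3.2, h2.1]
    exact lt_of_lt_of_le (by norm_num) (h6.trans (le_abs_self _))

/-- The partition sum in a large cube dominates a product over small well separated cubes. -/
theorem GP_block_ge {h : ℝ} {c : ℕ → ℝ} (hcs : Summable fun k => |c k|) (hc0 : ∀ k, 0 ≤ c k)
    (μ : ℝ) {l L : ℝ} (hl : 0 < l) (n : ℕ) (hL : (n : ℝ) * (l + 3) ≤ L) :
    GP (radK (pot h c)) μ (cube l) ^ (n ^ 3) ≤ GP (radK (pot h c)) μ (cube L) := by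
  classical
  set t : ℝ := l + 3 with ht
  have ht0 : 0 < t := by positivity
  have hlt : l < t := by rw [ht]; linarith
  set ψ := radK (pot h c) with hψ
  have hψm : Measurable (pot h c) := measurable_pot h hcs
  set F : Finset (Fin 3 → ℤ) := Fintype.piFinset fun _ => Finset.Ico (0 : ℤ) n with hF
  have hFc : F.card = n ^ 3 := by
    rw [hF, Fintype.card_piFinset]
    simp
  set U : Set R3 := ⋃ C ∈ F, blockSet t l C with hU
  have hUm : MeasurableSet U :=
    Finset.measurableSet_biUnion _ fun C _ => measurableSet_blockSet t l C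
  have hUsub : U ⊆ cube L := by
    intro x hx
    simp only [hU, Set.mem_iUnion] at hx
    obtain ⟨C, hC, hxC⟩ := hx
    intro a
    have h1 := Finset.mem_Ico.1 (Fintype.mem_piFinset.1 hC a)
    have h2 : (0 : ℝ) ≤ C a := by exact_mod_cast h1.1
    have h3 : (C a : ℝ) + 1 ≤ n := by
      have : C a + 1 ≤ (n : ℤ) := h1.2
      exact_mod_cast this
    have h4 := hxC a
    have h5 : ((C a : ℝ) + 1) * t ≤ (n : ℝ) * t := mul_le_mul_of_nonneg_right h3 ht0.le
    constructor
    · exact le_trans (mul_nonneg h2 ht0.le) h4.1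
    · nlinarith [h4.2]
  have hcomp : GP (cutK t (pot h c)) μ U ≤ GP ψ μ U := by
    refine GP_anti_of_offSum μ hUm fun N x hx => ?_
    unfold offSum
    refine Finset.sum_le_sum fun i _ => Finset.sum_le_sum fun j _ => ?_
    split_ifs with hij
    · exact le_rfl
    · unfold cutK
      split_ifs with hsame
      · rw [one_mul]
      · rw [zero_mul]
        have h1 := hx i
        have h2 := hx j
        simp only [hU, Set.mem_iUnion] at h1 h2
        obtain ⟨C, _, hC⟩ := h1
        obtain ⟨C', _, hC'⟩ := h2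
        have hne : C ≠ C' := by
          intro heq
          apply hsame
          rw [cellR_of_mem ht0 hlt hC, cellR_of_mem ht0 hlt hC', heq]
        exact pot_nonpos_of_gt hc0 (dist_of_ne hne hC hC' hl)
  have hun := GP_biUnion (measurable_cutK t hψm) F (blockSet t l)
    (fun C _ => measurableSet_blockSet t l C)
    (fun C _ C' _ hne => by
      rw [Set.disjoint_left]
      intro x hx hx'
      exact hne ((cellR_of_mem ht0 hlt hx).symm.trans (cellR_of_mem ht0 hlt hx'))) μ
    (fun C _ C' _ hne u hu v hv => by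
      unfold cutK
      rw [if_neg, zero_mul]
      intro heq
      apply hne
      rw [← cellR_of_mem ht0 hlt hu, ← cellR_of_mem ht0 hlt hv, heq])
  have hcell : ∀ C ∈ F, GP (cutK t (pot h c)) μ (blockSet t l C) = GP ψ μ (cube l) := by
    intro C _
    have h1 : GP (cutK t (pot h c)) μ (blockSet t l C) = GP ψ μ (blockSet t l C) := by
      refine GP_congr μ (measurableSet_blockSet t l C) fun u hu v hv => ?_
      unfold cutK
      rw [if_pos ((cellR_of_mem ht0 hlt hu).trans (cellR_of_mem ht0 hlt hv).symm), one_mul]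
    rw [h1, blockSet_eq_translate]
    exact GP_translate μ _ _ fun u v => radK_add _ u v _
  calc GP ψ μ (cube l) ^ (n ^ 3) = ∏ C ∈ F, GP ψ μ (cube l) := by
        rw [Finset.prod_const, hFc]
    _ = ∏ C ∈ F, GP (cutK t (pot h c)) μ (blockSet t l C) :=
        Finset.prod_congr rfl fun C hC => (hcell C hC).symm
    _ = GP (cutK t (pot h c)) μ U := hun.symm
    _ ≤ GP ψ μ U := hcomp
    _ ≤ GP ψ μ (cube L) := GP_mono ψ μ hUsub

/-- The basic lower bound for the finite volume pressure. -/
theorem fp_lower {h : ℝ} {c : ℕ → ℝ} (hd : InDom h c) (hc0 : ∀ k, 0 ≤ c k) (μ : ℝ) {l L : ℝ}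
    (hl : 0 < l) (hL : l + 3 ≤ L) :
    (l / (l + 3) - l / L) ^ 3 * fp h c μ l ≤ fp h c μ L := by
  have ht : 0 < l + 3 := by linarith
  have hL0 : 0 < L := by linarith
  set n : ℕ := ⌊L / (l + 3)⌋₊ with hn
  have hn1 : (n : ℝ) * (l + 3) ≤ L := by
    have := Nat.floor_le (a := L / (l + 3)) (by positivity)
    rw [le_div_iff₀ ht] at this
    exact this
  have hn2 : L / (l + 3) - 1 ≤ n := by
    have := Nat.lt_floor_add_one (L / (l + 3))
    linarith
  have h1 := GP_block_ge (h := h) hd.1 hc0 μ hl n hn1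
  set X := GP (radK (pot h c)) μ (cube l) with hX
  set Y := GP (radK (pot h c)) μ (cube L) with hY
  have hXf : X ≠ ⊤ := ne_top_of_le_ne_top ENNReal.ofReal_ne_top (GP_le_of_InDom hd μ hl.le)
  have hYf : Y ≠ ⊤ := ne_top_of_le_ne_top ENNReal.ofReal_ne_top (GP_le_of_InDom hd μ hL0.le)
  have hX1 : 1 ≤ X.toReal := by
    have := ENNReal.toReal_mono hXf (one_le_GP (radK (pot h c)) μ (cube l))
    simpa using this
  have h2 : X.toReal ^ (n ^ 3) ≤ Y.toReal := by
    have := ENNReal.toReal_mono hYf h1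
    rwa [ENNReal.toReal_pow] at this
  have h3 : ((n : ℝ) ^ 3) * Real.log X.toReal ≤ Real.log Y.toReal := by
    have h4 := Real.log_le_log (by positivity) h2
    rw [Real.log_pow] at h4
    push_cast at h4
    exact h4
  have h5 : Real.log X.toReal = l ^ 3 * fp h c μ l := by
    unfold fp
    rw [mul_inv_cancel_left₀ (by positivity)]
  have h6 : Real.log Y.toReal = L ^ 3 * fp h c μ L := by
    unfold fp
    rw [mul_inv_cancel_left₀ (by positivity)]
  rw [h5, h6] at h3
  have hf0 := fp_nonneg h c μ hl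
  -- the comparison of the prefactor
  have h7 : l / (l + 3) - l / L = l * (L / (l + 3) - 1) / L := by
    field_simp
  have h8 : 0 ≤ L / (l + 3) - 1 := by
    rw [sub_nonneg, one_le_div ht]
    exact hL
  have h9 : l * (L / (l + 3) - 1) / L ≤ l * n / L := by
    refine div_le_div_of_nonneg_right ?_ hL0.le
    exact mul_le_mul_of_nonneg_left hn2 hl.le
  have h10 : (l / (l + 3) - l / L) ^ 3 ≤ (l * n / L) ^ 3 := by
    rw [h7]
    exact pow_le_pow_left₀ (by positivity) h9 3
  have h11 : (l * n / L) ^ 3 * fp h c μ l ≤ fp h c μ L := by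
    have h12 : (l * n / L) ^ 3 = (n : ℝ) ^ 3 * l ^ 3 / L ^ 3 := by
      rw [div_pow, mul_pow]; ring
    rw [h12, div_mul_eq_mul_div, div_le_iff₀ (by positivity)]
    calc (n : ℝ) ^ 3 * l ^ 3 * fp h c μ l = (n : ℝ) ^ 3 * (l ^ 3 * fp h c μ l) := by ring
      _ ≤ L ^ 3 * fp h c μ L := h3
      _ = fp h c μ L * L ^ 3 := by ring
  exact le_trans (mul_le_mul_of_nonneg_right h10 hf0) h11

lemma tendsto_ratio_cube :
    Tendsto (fun l : ℝ => (l / (l + 3)) ^ 3) atTop (𝓝 1) := by
  have h1 : Tendsto (fun l : ℝ => 3 / (l + 3)) atTop (𝓝 0) :=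
    tendsto_const_nhds.div_atTop (tendsto_atTop_add_const_right _ _ tendsto_id)
  have h2 : Tendsto (fun l : ℝ => (1 - 3 / (l + 3)) ^ 3) atTop (𝓝 ((1 - 0) ^ 3)) :=
    (h1.const_sub 1).pow 3
  norm_num at h2
  refine h2.congr' ?_
  filter_upwards [eventually_gt_atTop 0] with l hl
  have : l + 3 ≠ 0 := by linarith
  congr 1
  field_simp
  ring

/-- **The thermodynamic limit exists** for the soft core potentials with nonpositive tail. -/
theorem fp_tendsto {h : ℝ} {c : ℕ → ℝ} (hd : InDom h c) (hc0 : ∀ k, 0 ≤ c k) (μ : ℝ) :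
    Tendsto (fun L => fp h c μ L) atTop (𝓝 (Pr h c μ)) := by
  refine tendsto_order.2 ⟨fun b hb => ?_, fun b hb => ?_⟩
  · set A := Pr h c μ with hA
    set θ := (A - b) / 4 with hθ
    have hθ0 : 0 < θ := by rw [hθ]; linarith
    set B := exp (μ + h / 2) with hB
    have hB0 : 0 < B := exp_pos _
    have hfreq : ∃ᶠ l in atTop, A - θ < fp h c μ l := by
      by_contra hcon
      have h1 : ∀ᶠ l in atTop, fp h c μ l ≤ A - θ := by
        rw [Filter.not_frequently] at hcon
        exact hcon.mono fun l hl => not_lt.1 hl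
      have h2 := Pr_le_of_eventually (h := h) (c := c) μ h1
      linarith
    have hev : ∀ᶠ l in atTop, 1 - θ / B < (l / (l + 3)) ^ 3 :=
      tendsto_ratio_cube.eventually (lt_mem_nhds (by
        have : 0 < θ / B := by positivity
        linarith))
    obtain ⟨l, hl1, hl2, hl3⟩ := (hfreq.and_eventually (hev.and (eventually_gt_atTop 0))).exists
    have hfl0 := fp_nonneg h c μ hl3
    have hflB : fp h c μ l ≤ B := fp_le hd μ hl3
    set κ := l / (l + 3) with hκ
    have h1 : A - 2 * θ ≤ κ ^ 3 * fp h c μ l := by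
      have h2 : (1 - θ / B) * fp h c μ l ≤ κ ^ 3 * fp h c μ l :=
        mul_le_mul_of_nonneg_right hl2.le hfl0
      have h3 : θ / B * fp h c μ l ≤ θ := by
        rw [div_mul_eq_mul_div, div_le_iff₀ hB0]
        exact mul_le_mul_of_nonneg_left hflB hθ0.le
      nlinarith
    have hlim : Tendsto (fun L : ℝ => (κ - l / L) ^ 3 * fp h c μ l) atTop
        (𝓝 ((κ - 0) ^ 3 * fp h c μ l)) := by
      have h2 : Tendsto (fun L : ℝ => l / L) atTop (𝓝 0) := tendsto_const_nhds.div_atTop tendsto_id
      exact ((h2.const_sub κ).pow 3).mul_const _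
    rw [sub_zero] at hlim
    have hgt : b < κ ^ 3 * fp h c μ l := by
      have : A - 2 * θ > b := by rw [hθ]; linarith
      linarith
    filter_upwards [hlim.eventually (lt_mem_nhds hgt), eventually_ge_atTop (l + 3)] with L hL1 hL2
    exact lt_of_lt_of_le hL1 (fp_lower hd hc0 μ hl3 hL2)
  · have hθ : 0 < (b - Pr h c μ) / 2 := by linarith
    filter_upwards [eventually_fp_le_Pr hd μ hθ] with L hL
    linarith

end Vale.Agent.Lib.P171
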