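import Vale.Agent.Lib.P171.Main
import Vale.Agent.Lib.P171.Limit

/-!
# A stable tempered radial pair potential with a phase transition
-/

open MeasureTheory Set Real Filter
open scoped ENNReal Topology

namespace Vale.Agent.Lib.P171

lemma pot_abs_le {h : ℝ} (hh : 0 ≤ h) {c : ℕ → ℝ} (hcs : Summable fun k => |c k|) (r : ℝ) :
    |pot h c r| ≤ h + ∑' k, |c k| := by
  unfold pot
  have h1 : |h * (if r ≤ 2 then (1 : ℝ) else 0)| ≤ h := by
    split_ifs
    · rw [mul_one, abs_of_nonneg hh]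
    · rw [mul_zero, abs_zero]; exact hh
  have h2 : |∑' k, c k * Kr k r| ≤ ∑' k, |c k| := by
    have hs : Summable fun k => ‖c k * Kr k r‖ := by
      refine Summable.of_nonneg_of_le (fun _ => norm_nonneg _) (fun k => ?_) hcs
      rw [Real.norm_eq_abs, abs_mul, abs_of_pos (Kr_pos k r)]
      exact mul_le_of_le_one_right (abs_nonneg _) (Kr_le_one k r)
    have h3 := norm_tsum_le_tsum_norm hs
    rw [Real.norm_eq_abs] at h3
    refine h3.trans (hs.tsum_le_tsum (fun k => ?_) hcs)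
    rw [Real.norm_eq_abs, abs_mul, abs_of_pos (Kr_pos k r)]
    exact mul_le_of_le_one_right (abs_nonneg _) (Kr_le_one k r)
  have h3 := abs_sub (h * (if r ≤ 2 then (1 : ℝ) else 0)) (∑' k, c k * Kr k r)
  linarith

lemma energy_ge {h : ℝ} {c : ℕ → ℝ} (hd : InDom h c) {N : ℕ} (x : Fin N → R3) :
    -(∑' k, |c k|) * (N : ℝ) ≤ energy (pot h c) x := by
  have h1 := half_offSum_ge (h := h) hd.1 x
  rw [offSum_eq_two_energy, Fintype.card_fin] at h1
  have h2 := hd.2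
  have h3 := nearCount_nonneg x
  have h4 : 0 ≤ (h - 2 * ∑' k, |c k|) / 2 * nearCount x := mul_nonneg (by linarith) h3
  linarith

lemma finitePressure_pot_exp (h : ℝ) (c : ℕ → ℝ) (μ L : ℝ) :
    finitePressure (pot h c) 1 (exp μ) L = fp h c μ L := by
  unfold finitePressure fp
  rw [grandXi_eq_GP]

/-- The main theorem in the terms of the definitions of the setting. -/
theorem exists_potential :
    ∃ φ : ℝ → ℝ, Measurable φ ∧ (∃ M : ℝ, ∀ r, |φ r| ≤ M) ∧
      (∃ B : ℝ, ∀ (N : ℕ) (x : Fin N → R3), -B * (N : ℝ) ≤ energy φ x) ∧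
      (∃ C ε R₀ : ℝ, 0 < C ∧ 0 < ε ∧ 0 < R₀ ∧ ∀ r, R₀ ≤ r → φ r ≤ C * r ^ (-3 - ε)) ∧
      (∀ z L : ℝ, 0 < z → 0 < L → grandXi φ 1 z L ≠ ⊤) ∧
      (∀ z : ℝ, 0 < z → Tendsto (fun L => finitePressure φ 1 z L) atTop (𝓝 (pressure φ 1 z))) ∧
      ∃ z₀ : ℝ, 0 < z₀ ∧ ¬ DifferentiableAt ℝ (fun z => pressure φ 1 z) z₀ := by
  obtain ⟨c, hc0, hcn, μ₀, hμ₀⟩ := exists_nondiff (h := 1000000) le_rfl
  have hd : InDom 1000000 c := InDom_of_norm (by linarith)
  refine ⟨pot 1000000 c, measurable_pot _ hd.1, ⟨1000000 + ∑' k, |c k|, pot_abs_le (by norm_num) hd.1⟩,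
    ⟨∑' k, |c k|, fun N x => energy_ge hd x⟩, ⟨1, 1, 3, one_pos, one_pos, by norm_num, fun r hr => ?_⟩,
    fun z L hz hL => ?_, fun z hz => ?_, ⟨exp μ₀, exp_pos _, fun hD => hμ₀ ?_⟩⟩
  · have h1 := pot_nonpos_of_gt (h := 1000000) hc0 (r := r) (by linarith)
    have h2 : 0 ≤ (1 : ℝ) * r ^ ((-3 : ℝ) - 1) := by
      have : 0 ≤ r := by linarith
      positivity
    linarith
  · rw [← Real.exp_log hz, grandXi_eq_GP]
    exact ne_top_of_le_ne_top ENNReal.ofReal_ne_top (GP_le_of_InDom hd _ hL.le)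
  · rw [← Real.exp_log hz, pressure_pot_exp]
    simp only [finitePressure_pot_exp]
    exact fp_tendsto hd hc0 _
  · have h1 := DifferentiableAt.comp μ₀ hD Real.differentiableAt_exp
    have h2 : ((fun z => pressure (pot 1000000 c) 1 z) ∘ Real.exp) = fun ν => Pr 1000000 c ν := by
      funext ν
      exact pressure_pot_exp _ _ _
    rwa [h2] at h1

end Vale.Agent.Lib.P171
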