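import Vale.Agent.Lib.P171.Defs

/-!
# Grand partition sums for general pair kernels: factorisation over non-interacting regions
-/

open MeasureTheory Set
open scoped ENNReal

namespace Vale.Agent.Lib.P171

section general
variable {ι κ : Type} [Fintype ι] [DecidableEq ι] [Fintype κ] [DecidableEq κ]

/-- Sum of a pair kernel over ordered pairs of distinct indices. -/
noncomputable def offSum (ψ : R3 → R3 → ℝ) (x : ι → R3) : ℝ :=
  ∑ i, ∑ j, if i = j then 0 else ψ (x i) (x j)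

/-- Boltzmann weight with chemical potential `μ` and pair kernel `ψ`. -/
noncomputable def wt (ψ : R3 → R3 → ℝ) (μ : ℝ) (x : ι → R3) : ℝ≥0∞ :=
  ENNReal.ofReal (Real.exp (μ * Fintype.card ι - (1 / 2) * offSum ψ x))

/-- The integral of the weight over `D^ι`. -/
noncomputable def intD (ψ : R3 → R3 → ℝ) (μ : ℝ) (D : Set R3) (ι : Type) [Fintype ι]
    [DecidableEq ι] : ℝ≥0∞ :=
  ∫⁻ x in Set.pi Set.univ (fun _ : ι => D), wt ψ μ x

/-- The grand partition sum on the region `D`. -/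
noncomputable def GP (ψ : R3 → R3 → ℝ) (μ : ℝ) (D : Set R3) : ℝ≥0∞ :=
  ∑' N : ℕ, (N.factorial : ℝ≥0∞)⁻¹ * intD ψ μ D (Fin N)

lemma offSum_comp_equiv (ψ : R3 → R3 → ℝ) (e : ι ≃ κ) (x : κ → R3) :
    offSum ψ (fun i => x (e i)) = offSum ψ x := by
  unfold offSum
  rw [← Equiv.sum_comp e]
  refine Finset.sum_congr rfl fun i _ => ?_
  rw [← Equiv.sum_comp e]
  refine Finset.sum_congr rfl fun j _ => ?_
  simp [e.injective.eq_iff]

lemma wt_comp_equiv (ψ : R3 → R3 → ℝ) (μ : ℝ) (e : ι ≃ κ) (x : κ → R3) :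
    wt ψ μ (fun i => x (e i)) = wt ψ μ x := by
  unfold wt
  rw [offSum_comp_equiv, Fintype.card_congr e]

omit [Fintype ι] [DecidableEq ι] in
lemma meas_eval (i : ι) : Measurable (fun x : ι → R3 => x i) := measurable_pi_apply i

lemma measurable_offSum {ψ : R3 → R3 → ℝ} (hψ : Measurable (Function.uncurry ψ)) :
    Measurable (offSum ψ : (ι → R3) → ℝ) := by
  unfold offSum
  refine Finset.measurable_sum _ fun i _ => Finset.measurable_sum _ fun j _ => ?_
  by_cases h : i = j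
  · simp [h]
  · simp only [h, if_false]
    have h2 : Measurable (fun a : ι → R3 => (a i, a j)) := (meas_eval i).prodMk (meas_eval j)
    exact hψ.comp h2

lemma measurable_wt {ψ : R3 → R3 → ℝ} (hψ : Measurable (Function.uncurry ψ)) (μ : ℝ) :
    Measurable (wt ψ μ : (ι → R3) → ℝ≥0∞) := by
  unfold wt
  exact ENNReal.measurable_ofReal.comp
    (Real.measurable_exp.comp (measurable_const.sub (measurable_const.mul (measurable_offSum hψ))))

omit [DecidableEq ι] in
lemma measurableSet_pi_const {D : Set R3} (hD : MeasurableSet D) :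
    MeasurableSet (Set.pi Set.univ (fun _ : ι => D)) :=
  MeasurableSet.univ_pi fun _ => hD

/-- The reindexing map on configurations preserves volume. -/
lemma intD_congr_equiv (ψ : R3 → R3 → ℝ) (μ : ℝ) (D : Set R3) (e : ι ≃ κ) :
    intD ψ μ D ι = intD ψ μ D κ := by
  classical
  have hmp := volume_measurePreserving_piCongrLeft (fun _ : κ => R3) e
  unfold intD
  have hset : (MeasurableEquiv.piCongrLeft (fun _ : κ => R3) e) ⁻¹'
      (Set.pi Set.univ (fun _ : κ => D)) = Set.pi Set.univ (fun _ : ι => D) := by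
    ext x
    simp only [Set.mem_preimage, Set.mem_pi, Set.mem_univ, true_implies]
    constructor
    · intro h i
      have := h (e i)
      rwa [MeasurableEquiv.piCongrLeft_apply_apply] at this
    · intro h k
      obtain ⟨i, rfl⟩ := e.surjective k
      rw [MeasurableEquiv.piCongrLeft_apply_apply]
      exact h i
  have hfun : ∀ x : ι → R3, wt ψ μ ((MeasurableEquiv.piCongrLeft (fun _ : κ => R3) e) x)
      = wt ψ μ x := by
    intro x
    rw [← wt_comp_equiv ψ μ e]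
    congr 1
    funext i
    rw [MeasurableEquiv.piCongrLeft_apply_apply]
  rw [← hmp.setLIntegral_comp_preimage_emb (MeasurableEquiv.measurableEmbedding _), hset]
  simp only [hfun]

lemma offSum_sum_type (ψ : R3 → R3 → ℝ) (x : ι ⊕ κ → R3) :
    offSum ψ x = offSum ψ (fun i => x (Sum.inl i)) + offSum ψ (fun j => x (Sum.inr j))
      + ∑ i, ∑ j, ψ (x (Sum.inl i)) (x (Sum.inr j))
      + ∑ j, ∑ i, ψ (x (Sum.inr j)) (x (Sum.inl i)) := by
  unfold offSum
  simp only [Fintype.sum_sum_type, Sum.inl.injEq, Sum.inr.injEq, reduceCtorEq, if_false,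
    Finset.sum_add_distrib]
  ring

lemma wt_sum_split {ψ : R3 → R3 → ℝ} {A B : Set R3} (μ : ℝ)
    (hAB : ∀ u ∈ A, ∀ v ∈ B, ψ u v = 0 ∧ ψ v u = 0) (x : ι ⊕ κ → R3)
    (hA : ∀ i, x (Sum.inl i) ∈ A) (hB : ∀ j, x (Sum.inr j) ∈ B) :
    wt ψ μ x = wt ψ μ (fun i => x (Sum.inl i)) * wt ψ μ (fun j => x (Sum.inr j)) := by
  unfold wt
  rw [← ENNReal.ofReal_mul (Real.exp_pos _).le, ← Real.exp_add, offSum_sum_type]
  have h1 : ∑ i, ∑ j, ψ (x (Sum.inl i)) (x (Sum.inr j)) = 0 :=
    Finset.sum_eq_zero fun i _ => Finset.sum_eq_zero fun j _ => (hAB _ (hA i) _ (hB j)).1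
  have h2 : ∑ j, ∑ i, ψ (x (Sum.inr j)) (x (Sum.inl i)) = 0 :=
    Finset.sum_eq_zero fun j _ => Finset.sum_eq_zero fun i _ => (hAB _ (hA i) _ (hB j)).2
  rw [h1, h2, Fintype.card_sum]
  congr 2
  push_cast
  ring

lemma lintegral_sum_split {ψ : R3 → R3 → ℝ} (hψ : Measurable (Function.uncurry ψ))
    {A B : Set R3} (hAm : MeasurableSet A) (hBm : MeasurableSet B) (μ : ℝ)
    (hAB : ∀ u ∈ A, ∀ v ∈ B, ψ u v = 0 ∧ ψ v u = 0) :
    ∫⁻ x in {x : ι ⊕ κ → R3 | (∀ i, x (Sum.inl i) ∈ A) ∧ ∀ j, x (Sum.inr j) ∈ B}, wt ψ μ x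
      = intD ψ μ A ι * intD ψ μ B κ := by
  classical
  have hmp := measurePreserving_sumPiEquivProdPi (ι := ι) (ι' := κ) (X := fun _ => R3)
    (fun _ => (volume : Measure R3))
  have hSm : MeasurableSet {x : ι ⊕ κ → R3 | (∀ i, x (Sum.inl i) ∈ A) ∧ ∀ j, x (Sum.inr j) ∈ B} := by
    have h1 : {x : ι ⊕ κ → R3 | (∀ i, x (Sum.inl i) ∈ A) ∧ ∀ j, x (Sum.inr j) ∈ B}
        = (⋂ i, (fun x : ι ⊕ κ → R3 => x (Sum.inl i)) ⁻¹' A) ∩
          (⋂ j, (fun x : ι ⊕ κ → R3 => x (Sum.inr j)) ⁻¹' B) := by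
      ext x; simp
    rw [h1]
    exact (MeasurableSet.iInter fun i => meas_eval (Sum.inl i) hAm).inter
      (MeasurableSet.iInter fun j => meas_eval (Sum.inr j) hBm)
  set F : (ι → R3) → ℝ≥0∞ := (Set.pi Set.univ (fun _ : ι => A)).indicator (wt ψ μ) with hF
  set G : (κ → R3) → ℝ≥0∞ := (Set.pi Set.univ (fun _ : κ => B)).indicator (wt ψ μ) with hG
  have hFm : Measurable F := (measurable_wt hψ μ).indicator (measurableSet_pi_const hAm)
  have hGm : Measurable G := (measurable_wt hψ μ).indicator (measurableSet_pi_const hBm)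
  have hprod : ∫⁻ z : (ι → R3) × (κ → R3), F z.1 * G z.2 ∂(volume.prod volume)
      = (∫⁻ y, F y) * ∫⁻ y, G y :=
    lintegral_prod_mul hFm.aemeasurable hGm.aemeasurable
  have hFi : ∫⁻ y, F y = intD ψ μ A ι := by
    rw [hF, lintegral_indicator (measurableSet_pi_const hAm)]; rfl
  have hGi : ∫⁻ y, G y = intD ψ μ B κ := by
    rw [hG, lintegral_indicator (measurableSet_pi_const hBm)]; rfl
  rw [← hFi, ← hGi, ← hprod, ← lintegral_indicator hSm]
  have hcomp := (hmp.lintegral_comp_emb (MeasurableEquiv.measurableEmbedding _)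
    (fun z : (ι → R3) × (κ → R3) => F z.1 * G z.2))
  refine Eq.trans ?_ hcomp
  refine lintegral_congr fun x => ?_
  simp only [MeasurableEquiv.coe_sumPiEquivProdPi, Equiv.sumPiEquivProdPi_apply, hF, hG,
    Set.indicator_apply, Set.mem_ofPred_eq, Set.mem_pi, Set.mem_univ, true_implies]
  by_cases h1 : ∀ i, x (Sum.inl i) ∈ A
  · by_cases h2 : ∀ j, x (Sum.inr j) ∈ B
    · simp only [h1, h2, and_self, implies_true, if_true]
      exact wt_sum_split μ hAB x h1 h2
    · simp [h2]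
  · simp [h1]

end general

/-- Configurations with the indices of `S` in `A` and the others in `B`. -/
def orthant (A B : Set R3) {N : ℕ} (S : Finset (Fin N)) : Set (Fin N → R3) :=
  {x | ∀ i, (i ∈ S → x i ∈ A) ∧ (i ∉ S → x i ∈ B)}

lemma setLIntegral_orthant {ψ : R3 → R3 → ℝ} (hψ : Measurable (Function.uncurry ψ))
    {A B : Set R3} (hAm : MeasurableSet A) (hBm : MeasurableSet B) (μ : ℝ)
    (hAB : ∀ u ∈ A, ∀ v ∈ B, ψ u v = 0 ∧ ψ v u = 0) {N : ℕ} (S : Finset (Fin N)) {m n : ℕ}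
    (hm : S.card = m) (hn : Sᶜ.card = n) :
    ∫⁻ x in orthant A B S, wt ψ μ x = intD ψ μ A (Fin m) * intD ψ μ B (Fin n) := by
  classical
  let e : Fin m ⊕ Fin n ≃ Fin N := finSumEquivOfFinset hm hn
  have hmp := volume_measurePreserving_piCongrLeft (fun _ : Fin N => R3) e
  rw [← lintegral_sum_split hψ hAm hBm μ hAB]
  have hinl : ∀ i, e (Sum.inl i) ∈ S := fun i => by
    simp only [e, finSumEquivOfFinset_inl]
    exact Finset.orderEmbOfFin_mem _ _ _
  have hinr : ∀ j, e (Sum.inr j) ∉ S := fun j => by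
    simp only [e, finSumEquivOfFinset_inr]
    exact Finset.mem_compl.1 (Finset.orderEmbOfFin_mem Sᶜ hn j)
  have hset : (MeasurableEquiv.piCongrLeft (fun _ : Fin N => R3) e) ⁻¹' (orthant A B S)
      = {x : Fin m ⊕ Fin n → R3 | (∀ i, x (Sum.inl i) ∈ A) ∧ ∀ j, x (Sum.inr j) ∈ B} := by
    ext x
    simp only [Set.mem_preimage, orthant, Set.mem_ofPred_eq]
    constructor
    · intro h
      constructor
      · intro i
        have := (h (e (Sum.inl i))).1 (hinl i)
        rwa [MeasurableEquiv.piCongrLeft_apply_apply] at this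
      · intro j
        have := (h (e (Sum.inr j))).2 (hinr j)
        rwa [MeasurableEquiv.piCongrLeft_apply_apply] at this
    · rintro ⟨h1, h2⟩ k
      obtain ⟨k', rfl⟩ := e.surjective k
      rcases k' with i | j
      · constructor
        · intro _
          rw [MeasurableEquiv.piCongrLeft_apply_apply]
          exact h1 i
        · intro h
          exact absurd (hinl i) h
      · constructor
        · intro h
          exact absurd h (hinr j)
        · intro _
          rw [MeasurableEquiv.piCongrLeft_apply_apply]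
          exact h2 j
  have hfun : ∀ x : Fin m ⊕ Fin n → R3,
      wt ψ μ ((MeasurableEquiv.piCongrLeft (fun _ : Fin N => R3) e) x) = wt ψ μ x := by
    intro x
    rw [← wt_comp_equiv ψ μ e]
    congr 1
    funext i
    rw [MeasurableEquiv.piCongrLeft_apply_apply]
  rw [← hmp.setLIntegral_comp_preimage_emb (MeasurableEquiv.measurableEmbedding _), hset]
  simp only [hfun]

lemma measurableSet_orthant {A B : Set R3} (hAm : MeasurableSet A) (hBm : MeasurableSet B) {N : ℕ}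
    (S : Finset (Fin N)) : MeasurableSet (orthant A B S) := by
  have h2 : orthant A B S = ⋂ i, {x : Fin N → R3 | (i ∈ S → x i ∈ A) ∧ (i ∉ S → x i ∈ B)} := by
    ext x; simp [orthant]
  rw [h2]
  refine MeasurableSet.iInter fun i => ?_
  by_cases hi : i ∈ S
  · have : {x : Fin N → R3 | (i ∈ S → x i ∈ A) ∧ (i ∉ S → x i ∈ B)} = (fun x => x i) ⁻¹' A := by
      ext x; simp [hi]
    rw [this]; exact meas_eval i hAm
  · have : {x : Fin N → R3 | (i ∈ S → x i ∈ A) ∧ (i ∉ S → x i ∈ B)} = (fun x => x i) ⁻¹' B := by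
      ext x; simp [hi]
    rw [this]; exact meas_eval i hBm

lemma intD_union {ψ : R3 → R3 → ℝ} (hψ : Measurable (Function.uncurry ψ))
    {A B : Set R3} (hAm : MeasurableSet A) (hBm : MeasurableSet B) (hdisj : Disjoint A B) (μ : ℝ)
    (hAB : ∀ u ∈ A, ∀ v ∈ B, ψ u v = 0 ∧ ψ v u = 0) (N : ℕ) :
    intD ψ μ (A ∪ B) (Fin N) = ∑ m ∈ Finset.range (N + 1),
      (N.choose m) • (intD ψ μ A (Fin m) * intD ψ μ B (Fin (N - m))) := by
  classical
  have hcover : Set.pi Set.univ (fun _ : Fin N => A ∪ B)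
      = ⋃ S ∈ (Finset.univ : Finset (Finset (Fin N))), orthant A B S := by
    ext x
    simp only [Set.mem_pi, Set.mem_univ, true_implies, Set.mem_union, Finset.mem_univ,
      Set.iUnion_true, Set.mem_iUnion, orthant, Set.mem_ofPred_eq]
    constructor
    · intro h
      refine ⟨Finset.univ.filter fun i => x i ∈ A, fun i => ?_⟩
      simp only [Finset.mem_filter, Finset.mem_univ, true_and]
      refine ⟨id, fun hi => (h i).resolve_left hi⟩
    · rintro ⟨S, hS⟩ i
      by_cases hi : i ∈ S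
      · exact Or.inl ((hS i).1 hi)
      · exact Or.inr ((hS i).2 hi)
  have hpd : Set.PairwiseDisjoint (↑(Finset.univ : Finset (Finset (Fin N))))
      (fun S : Finset (Fin N) => orthant A B S) := by
    intro S _ S' _ hne
    rw [Function.onFun, Set.disjoint_left]
    intro x hx hx'
    apply hne
    ext i
    constructor
    · intro hi
      by_contra hi'
      exact Set.disjoint_left.1 hdisj ((hx i).1 hi) ((hx' i).2 hi')
    · intro hi
      by_contra hi'
      exact Set.disjoint_left.1 hdisj ((hx' i).1 hi) ((hx i).2 hi')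
  unfold intD
  rw [hcover, lintegral_biUnion_finset hpd (fun S _ => measurableSet_orthant hAm hBm S)]
  have hcard : ∀ S : Finset (Fin N), ∫⁻ x in orthant A B S, wt ψ μ x
      = (fun m => intD ψ μ A (Fin m) * intD ψ μ B (Fin (N - m))) S.card := by
    intro S
    exact setLIntegral_orthant hψ hAm hBm μ hAB S rfl (by simp [Finset.card_compl])
  simp only [hcard]
  have := Finset.sum_powerset_apply_card
    (fun m => intD ψ μ A (Fin m) * intD ψ μ B (Fin (N - m))) (x := (Finset.univ : Finset (Fin N)))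
  simp only [Finset.powerset_univ, Finset.card_univ, Fintype.card_fin] at this
  exact this

lemma ennreal_cauchy (u v : ℕ → ℝ≥0∞) :
    ∑' N, ∑ m ∈ Finset.range (N + 1), u m * v (N - m) = (∑' m, u m) * ∑' n, v n := by
  simp_rw [← Finset.Nat.sum_antidiagonal_eq_sum_range_succ (fun k l => u k * v l)]
  rw [← ENNReal.tsum_mul_right]
  simp_rw [← ENNReal.tsum_mul_left]
  rw [← ENNReal.tsum_prod (f := fun m n => u m * v n),
    ← (Finset.HasAntidiagonal.sigmaAntidiagonalEquivProd).tsum_eq, ENNReal.tsum_sigma']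
  refine tsum_congr fun N => ?_
  exact (Finset.tsum_subtype _ (fun kl : ℕ × ℕ => u kl.1 * v kl.2)).symm

lemma choose_factorial_ennreal {N m : ℕ} (hm : m ≤ N) :
    (N.factorial : ℝ≥0∞)⁻¹ * (N.choose m : ℝ≥0∞) =
      (m.factorial : ℝ≥0∞)⁻¹ * ((N - m).factorial : ℝ≥0∞)⁻¹ := by
  have h := Nat.choose_mul_factorial_mul_factorial hm
  have hN : (N.factorial : ℝ≥0∞) = (N.choose m : ℝ≥0∞) * m.factorial * (N - m).factorial := by
    rw [← h]; push_cast; ring
  have hm0 : (m.factorial : ℝ≥0∞) ≠ 0 := by exact_mod_cast Nat.factorial_ne_zero m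
  have hn0 : ((N - m).factorial : ℝ≥0∞) ≠ 0 := by exact_mod_cast Nat.factorial_ne_zero _
  have hc0 : (N.choose m : ℝ≥0∞) ≠ 0 := by exact_mod_cast (Nat.choose_pos hm).ne'
  have hcT : (N.choose m : ℝ≥0∞) ≠ ⊤ := ENNReal.natCast_ne_top _
  have hmT : (m.factorial : ℝ≥0∞) ≠ ⊤ := ENNReal.natCast_ne_top _
  have hnT : ((N - m).factorial : ℝ≥0∞) ≠ ⊤ := ENNReal.natCast_ne_top _
  rw [hN, ENNReal.mul_inv (Or.inl (mul_ne_zero hc0 hm0)) (Or.inl (ENNReal.mul_ne_top hcT hmT)),
    ENNReal.mul_inv (Or.inl hc0) (Or.inl hcT)]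
  calc (N.choose m : ℝ≥0∞)⁻¹ * (m.factorial : ℝ≥0∞)⁻¹ * ((N - m).factorial : ℝ≥0∞)⁻¹ *
        (N.choose m : ℝ≥0∞)
      = ((N.choose m : ℝ≥0∞)⁻¹ * (N.choose m : ℝ≥0∞)) * ((m.factorial : ℝ≥0∞)⁻¹ *
          ((N - m).factorial : ℝ≥0∞)⁻¹) := by ring
    _ = _ := by rw [ENNReal.inv_mul_cancel hc0 hcT, one_mul]

/-- Two disjoint regions without interaction factorise the grand partition sum. -/
theorem GP_union {ψ : R3 → R3 → ℝ} (hψ : Measurable (Function.uncurry ψ))
    {A B : Set R3} (hAm : MeasurableSet A) (hBm : MeasurableSet B) (hdisj : Disjoint A B) (μ : ℝ)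
    (hAB : ∀ u ∈ A, ∀ v ∈ B, ψ u v = 0 ∧ ψ v u = 0) :
    GP ψ μ (A ∪ B) = GP ψ μ A * GP ψ μ B := by
  unfold GP
  rw [← ennreal_cauchy]
  refine tsum_congr fun N => ?_
  rw [intD_union hψ hAm hBm hdisj μ hAB N, Finset.mul_sum]
  refine Finset.sum_congr rfl fun m hm => ?_
  have hmN : m ≤ N := Nat.lt_succ_iff.1 (Finset.mem_range.1 hm)
  rw [nsmul_eq_mul, ← mul_assoc, choose_factorial_ennreal hmN]
  ring

/-- Finite families of regions without mutual interaction factorise the grand partition sum. -/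
theorem GP_biUnion {ψ : R3 → R3 → ℝ} (hψ : Measurable (Function.uncurry ψ)) {α : Type}
    [DecidableEq α] (F : Finset α) (D : α → Set R3) (hDm : ∀ c ∈ F, MeasurableSet (D c))
    (hdisj : ∀ c ∈ F, ∀ c' ∈ F, c ≠ c' → Disjoint (D c) (D c')) (μ : ℝ)
    (hint : ∀ c ∈ F, ∀ c' ∈ F, c ≠ c' → ∀ u ∈ D c, ∀ v ∈ D c', ψ u v = 0) :
    GP ψ μ (⋃ c ∈ F, D c) = ∏ c ∈ F, GP ψ μ (D c) := by
  induction F using Finset.induction_on with
  | empty =>
    simp only [Finset.notMem_empty, Set.iUnion_of_empty, Set.iUnion_empty, Finset.prod_empty]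
    -- the empty region has only the empty configuration
    unfold GP
    rw [tsum_eq_single 0]
    · simp only [Nat.factorial_zero, Nat.cast_one, inv_one, one_mul]
      unfold intD
      have : Set.pi Set.univ (fun _ : Fin 0 => (∅ : Set R3)) = Set.univ := by
        ext x; simp
      rw [this, Measure.restrict_univ]
      simp [wt, offSum, volume_pi]
    · intro N hN
      have : intD ψ μ ∅ (Fin N) = 0 := by
        unfold intD
        have h0 : Set.pi Set.univ (fun _ : Fin N => (∅ : Set R3)) = ∅ := by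
          obtain ⟨n, rfl⟩ := Nat.exists_eq_succ_of_ne_zero hN
          ext x
          simp only [Set.mem_pi, Set.mem_univ, true_implies, Set.mem_empty_iff_false, iff_false,
            not_forall]
          exact ⟨0, id⟩
        rw [h0]; simp
      rw [this, mul_zero]
  | insert c F hc ih =>
    have hih := ih (fun c' hc' => hDm c' (Finset.mem_insert_of_mem hc'))
      (fun a ha b hb => hdisj a (Finset.mem_insert_of_mem ha) b (Finset.mem_insert_of_mem hb))
      (fun a ha b hb => hint a (Finset.mem_insert_of_mem ha) b (Finset.mem_insert_of_mem hb))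
    rw [Finset.prod_insert hc, ← hih]
    have hset : (⋃ c' ∈ insert c F, D c') = D c ∪ ⋃ c' ∈ F, D c' := by
      ext x; simp [Finset.mem_insert]
    rw [hset]
    have hne : ∀ c' ∈ F, c ≠ c' := fun c' hc' h => hc (h ▸ hc')
    refine GP_union hψ (hDm c (Finset.mem_insert_self _ _))
      (Finset.measurableSet_biUnion _ fun c' hc' => hDm c' (Finset.mem_insert_of_mem hc')) ?_ μ ?_
    · rw [Set.disjoint_iUnion₂_right]
      intro c' hc'
      exact hdisj c (Finset.mem_insert_self _ _) c' (Finset.mem_insert_of_mem hc') (hne c' hc')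
    · intro u hu v hv
      simp only [Set.mem_iUnion] at hv
      obtain ⟨c', hc', hv⟩ := hv
      exact ⟨hint c (Finset.mem_insert_self _ _) c' (Finset.mem_insert_of_mem hc') (hne c' hc') u hu
        v hv, hint c' (Finset.mem_insert_of_mem hc') c (Finset.mem_insert_self _ _)
        (hne c' hc').symm v hv u hu⟩

lemma intD_mono (ψ : R3 → R3 → ℝ) (μ : ℝ) {D D' : Set R3} (h : D ⊆ D') (ι : Type) [Fintype ι]
    [DecidableEq ι] : intD ψ μ D ι ≤ intD ψ μ D' ι := by
  unfold intD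
  exact lintegral_mono' (Measure.restrict_mono (Set.pi_mono fun _ _ => h) le_rfl) le_rfl

lemma GP_mono (ψ : R3 → R3 → ℝ) (μ : ℝ) {D D' : Set R3} (h : D ⊆ D') :
    GP ψ μ D ≤ GP ψ μ D' :=
  ENNReal.tsum_le_tsum fun _ => mul_le_mul_right (intD_mono ψ μ h _) _

lemma term_le_GP (ψ : R3 → R3 → ℝ) (μ : ℝ) (D : Set R3) (N : ℕ) :
    (N.factorial : ℝ≥0∞)⁻¹ * intD ψ μ D (Fin N) ≤ GP ψ μ D :=
  ENNReal.le_tsum N

lemma one_le_GP (ψ : R3 → R3 → ℝ) (μ : ℝ) (D : Set R3) : 1 ≤ GP ψ μ D := by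
  refine le_trans ?_ (term_le_GP ψ μ D 0)
  simp only [Nat.factorial_zero, Nat.cast_one, inv_one, one_mul]
  unfold intD
  have : Set.pi Set.univ (fun _ : Fin 0 => D) = Set.univ := by
    ext x; simp
  rw [this, Measure.restrict_univ]
  simp [wt, offSum, volume_pi]

lemma intD_congr {ψ₁ ψ₂ : R3 → R3 → ℝ} (μ : ℝ) {D : Set R3} (hD : MeasurableSet D)
    (h : ∀ u ∈ D, ∀ v ∈ D, ψ₁ u v = ψ₂ u v) (ι : Type) [Fintype ι] [DecidableEq ι] :
    intD ψ₁ μ D ι = intD ψ₂ μ D ι := by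
  unfold intD
  refine setLIntegral_congr_fun (measurableSet_pi_const hD) fun x hx => ?_
  have hx' : ∀ i, x i ∈ D := fun i => hx i (Set.mem_univ i)
  unfold wt offSum
  have : ∀ i j, ψ₁ (x i) (x j) = ψ₂ (x i) (x j) := fun i j => h _ (hx' i) _ (hx' j)
  simp only [this]

lemma GP_congr {ψ₁ ψ₂ : R3 → R3 → ℝ} (μ : ℝ) {D : Set R3} (hD : MeasurableSet D)
    (h : ∀ u ∈ D, ∀ v ∈ D, ψ₁ u v = ψ₂ u v) : GP ψ₁ μ D = GP ψ₂ μ D :=
  tsum_congr fun _ => by rw [intD_congr μ hD h]

/-- Translation invariance of the grand partition sum. -/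
lemma intD_translate {ψ : R3 → R3 → ℝ} (μ : ℝ) (D : Set R3) (t : R3)
    (h : ∀ u v, ψ (u + t) (v + t) = ψ u v) (ι : Type) [Fintype ι] [DecidableEq ι] :
    intD ψ μ ((fun x => x + t) ⁻¹' D) ι = intD ψ μ D ι := by
  unfold intD
  have hmp := measurePreserving_add_right (volume : Measure (ι → R3)) (fun _ => t)
  have hemb : MeasurableEmbedding (fun x : ι → R3 => x + fun _ => t) :=
    (MeasurableEquiv.addRight (fun _ : ι => t)).measurableEmbedding
  have hset : (fun x : ι → R3 => x + fun _ => t) ⁻¹' Set.pi Set.univ (fun _ : ι => D)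
      = Set.pi Set.univ (fun _ : ι => (fun x => x + t) ⁻¹' D) := by
    ext x; simp
  have key := hmp.setLIntegral_comp_preimage_emb hemb (wt ψ μ) (Set.pi Set.univ fun _ => D)
  rw [← key, hset]
  refine lintegral_congr fun x => ?_
  unfold wt offSum
  simp [h]

lemma GP_translate {ψ : R3 → R3 → ℝ} (μ : ℝ) (D : Set R3) (t : R3)
    (h : ∀ u v, ψ (u + t) (v + t) = ψ u v) : GP ψ μ ((fun x => x + t) ⁻¹' D) = GP ψ μ D :=
  tsum_congr fun _ => by rw [intD_translate μ D t h]

/-- Hoelder's inequality for grand partition sums. -/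
theorem GP_le_prod_rpow {T : Type} (s : Finset T) {p : T → ℝ} (hp : ∑ τ ∈ s, p τ = 1)
    (h2 : ∀ τ ∈ s, 0 ≤ p τ) {ψ₀ : R3 → R3 → ℝ} {μ₀ : ℝ} (ψ : T → R3 → R3 → ℝ)
    (hψ : ∀ τ ∈ s, Measurable (Function.uncurry (ψ τ))) (μ : T → ℝ) {D : Set R3}
    (hD : MeasurableSet D)
    (hpt : ∀ (N : ℕ) (x : Fin N → R3), (∀ i, x i ∈ D) →
      wt ψ₀ μ₀ x ≤ ∏ τ ∈ s, (wt (ψ τ) (μ τ) x) ^ p τ) :
    GP ψ₀ μ₀ D ≤ ∏ τ ∈ s, (GP (ψ τ) (μ τ) D) ^ p τ := by
  have hN : ∀ N : ℕ, (N.factorial : ℝ≥0∞)⁻¹ * intD ψ₀ μ₀ D (Fin N)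
      ≤ ∏ τ ∈ s, ((N.factorial : ℝ≥0∞)⁻¹ * intD (ψ τ) (μ τ) D (Fin N)) ^ p τ := by
    intro N
    set ν : Measure (Fin N → R3) :=
      (N.factorial : ℝ≥0∞)⁻¹ • volume.restrict (Set.pi Set.univ (fun _ : Fin N => D)) with hν
    have h1 : ∀ (f : (Fin N → R3) → ℝ≥0∞), ∫⁻ x, f x ∂ν = (N.factorial : ℝ≥0∞)⁻¹ *
        ∫⁻ x in Set.pi Set.univ (fun _ : Fin N => D), f x := by
      intro f
      rw [hν, lintegral_smul_measure]
      rfl
    have h3 := ENNReal.lintegral_prod_norm_pow_le (μ := ν) s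
      (f := fun τ x => wt (ψ τ) (μ τ) x)
      (fun τ hτ => (measurable_wt (hψ τ hτ) (μ τ)).aemeasurable) hp h2
    simp only [h1] at h3
    unfold intD
    refine le_trans ?_ h3
    refine mul_le_mul_right (setLIntegral_mono' (measurableSet_pi_const (ι := Fin N) hD)
      fun x hx => ?_) _
    exact hpt N x fun i => hx i (Set.mem_univ i)
  calc GP ψ₀ μ₀ D ≤ ∑' N : ℕ, ∏ τ ∈ s, ((N.factorial : ℝ≥0∞)⁻¹ * intD (ψ τ) (μ τ) D (Fin N)) ^ p τ :=
        ENNReal.tsum_le_tsum hN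
    _ = ∫⁻ N : ℕ, ∏ τ ∈ s, ((N.factorial : ℝ≥0∞)⁻¹ * intD (ψ τ) (μ τ) D (Fin N)) ^ p τ
          ∂Measure.count := (lintegral_count _).symm
    _ ≤ ∏ τ ∈ s, (∫⁻ N : ℕ, (N.factorial : ℝ≥0∞)⁻¹ * intD (ψ τ) (μ τ) D (Fin N)
          ∂Measure.count) ^ p τ :=
        ENNReal.lintegral_prod_norm_pow_le s (fun _ _ => (Measurable.of_discrete).aemeasurable) hp h2
    _ = ∏ τ ∈ s, (GP (ψ τ) (μ τ) D) ^ p τ := by
        simp only [lintegral_count]
        rfl

/-- A product of powers of weights is the weight of the convex combination of the exponents. -/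
lemma prod_ofReal_exp_rpow {T : Type} (s : Finset T) (p : T → ℝ) (E : T → ℝ) :
    ∏ τ ∈ s, (ENNReal.ofReal (Real.exp (E τ))) ^ p τ
      = ENNReal.ofReal (Real.exp (∑ τ ∈ s, p τ * E τ)) := by
  classical
  rw [Real.exp_sum, ENNReal.ofReal_prod_of_nonneg fun _ _ => (Real.exp_pos _).le]
  refine Finset.prod_congr rfl fun τ hτ => ?_
  rw [ENNReal.ofReal_rpow_of_pos (Real.exp_pos _), ← Real.exp_mul, mul_comm]

end Vale.Agent.Lib.P171
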