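import Vale.Agent.Lib.P171.Energy

/-!
# The upper bound for the pressure with a long range attraction
-/

open MeasureTheory Set Real Filter
open scoped ENNReal Topology

namespace Vale.Agent.Lib.P171

/-- The half open cube `[0,s)^3`. -/
def halfCube (s : ℕ) : Set R3 := {x | ∀ a, 0 ≤ x a ∧ x a < s}

/-- A cell of the shifted partition of mesh `s`. -/
def cellSet (s : ℕ) (τ : Fin 3 → ℕ) (C : Fin 3 → ℤ) : Set R3 := {x | cellIdx s τ x = C}

lemma measurable_cellIdx (s : ℕ) (τ : Fin 3 → ℕ) : Measurable (cellIdx s τ) := by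
  refine measurable_pi_lambda _ fun a => ?_
  unfold cellIdx
  exact Int.measurable_floor.comp
    (((measurable_pi_apply a).add_const _).div_const _)

lemma measurableSet_cellSet (s : ℕ) (τ : Fin 3 → ℕ) (C : Fin 3 → ℤ) :
    MeasurableSet (cellSet s τ C) :=
  measurable_cellIdx s τ (measurableSet_singleton C)

lemma cellSet_eq_translate {s : ℕ} (hs : 0 < s) (τ : Fin 3 → ℕ) (C : Fin 3 → ℤ) :
    cellSet s τ C = (fun x => x + fun a => ((τ a : ℕ) : ℝ) - (s : ℝ) * (C a : ℝ)) ⁻¹' halfCube s := by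
  have hs' : (0 : ℝ) < s := by exact_mod_cast hs
  ext x
  simp only [cellSet, halfCube, Set.mem_ofPred_eq, Set.mem_preimage, Pi.add_apply]
  constructor
  · intro h a
    have h1 := congrFun h a
    simp only [cellIdx] at h1
    rw [Int.floor_eq_iff] at h1
    have h2 := h1.1
    have h3 := h1.2
    rw [le_div_iff₀ hs'] at h2
    rw [div_lt_iff₀ hs'] at h3
    constructor <;> nlinarith
  · intro h
    funext a
    simp only [cellIdx]
    rw [Int.floor_eq_iff]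
    have h2 := (h a).1
    have h3 := (h a).2
    constructor
    · rw [le_div_iff₀ hs']; nlinarith
    · rw [div_lt_iff₀ hs']; nlinarith

lemma measurableSet_halfCube (s : ℕ) : MeasurableSet (halfCube s) := by
  have : halfCube s = Set.pi Set.univ (fun _ => Ico (0 : ℝ) s) := by
    ext x
    simp only [halfCube, Set.mem_ofPred_eq, Set.mem_pi, Set.mem_univ, true_implies, Set.mem_Ico]
  rw [this]
  exact MeasurableSet.univ_pi fun _ => measurableSet_Ico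

lemma volume_halfCube (s : ℕ) : volume (halfCube s) = ENNReal.ofReal ((s : ℝ) ^ 3) := by
  have : halfCube s = Set.pi Set.univ (fun _ => Ico (0 : ℝ) s) := by
    ext x
    simp only [halfCube, Set.mem_ofPred_eq, Set.mem_pi, Set.mem_univ, true_implies, Set.mem_Ico]
  rw [this, volume_pi_pi]
  simp only [Real.volume_Ico, sub_zero, Finset.prod_const, Finset.card_univ, Fintype.card_fin]
  rw [ENNReal.ofReal_pow (by positivity)]

lemma halfCube_subset_cube (s : ℕ) : halfCube s ⊆ cube s := fun _ hx a =>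
  ⟨(hx a).1, (hx a).2.le⟩

/-- The kernel restricted to cells of the partition with shift `τ`. -/
noncomputable def psiT (s : ℕ) (e : ℝ) (Φ : ℝ → ℝ) (τ : Fin 3 → ℕ) (u v : R3) : ℝ :=
  sameInd s τ u v * (Φ (euclDist u v) - e / (s : ℝ) ^ 3)

/-- The kernel inside a cell. -/
noncomputable def psiH (s : ℕ) (e : ℝ) (Φ : ℝ → ℝ) (u v : R3) : ℝ :=
  Φ (euclDist u v) - e / (s : ℝ) ^ 3

lemma measurable_psiH (s : ℕ) (e : ℝ) {Φ : ℝ → ℝ} (hΦ : Measurable Φ) :
    Measurable (Function.uncurry (psiH s e Φ)) :=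
  (hΦ.comp continuous_euclDist.measurable).sub_const _

lemma measurable_sameInd (s : ℕ) (τ : Fin 3 → ℕ) :
    Measurable (Function.uncurry (sameInd s τ)) := by
  have h1 : MeasurableSet {p : R3 × R3 | cellIdx s τ p.1 = cellIdx s τ p.2} :=
    measurableSet_eq_fun ((measurable_cellIdx s τ).comp measurable_fst)
      ((measurable_cellIdx s τ).comp measurable_snd)
  exact Measurable.ite h1 measurable_const measurable_const

lemma measurable_psiT (s : ℕ) (e : ℝ) {Φ : ℝ → ℝ} (hΦ : Measurable Φ) (τ : Fin 3 → ℕ) :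
    Measurable (Function.uncurry (psiT s e Φ τ)) :=
  (measurable_sameInd s τ).mul (measurable_psiH s e hΦ)

lemma psiH_add (s : ℕ) (e : ℝ) (Φ : ℝ → ℝ) (u v t : R3) :
    psiH s e Φ (u + t) (v + t) = psiH s e Φ u v := by
  unfold psiH; rw [euclDist_add]

/-- The partition sum for the shift `τ` factorises over the cells. -/
theorem GP_psiT_le {s : ℕ} (hs : 0 < s) (e : ℝ) {Φ : ℝ → ℝ} (hΦ : Measurable Φ) {τ : Fin 3 → ℕ}
    (hτ : τ ∈ shifts s) (μ : ℝ) (L : ℝ) :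
    GP (psiT s e Φ τ) μ (cube L)
      ≤ (GP (psiH s e Φ) μ (halfCube s)) ^ ((⌊L / (s : ℝ)⌋₊ + 2) ^ 3) := by
  classical
  have hs' : (0 : ℝ) < s := by exact_mod_cast hs
  set n : ℕ := ⌊L / (s : ℝ)⌋₊ + 2 with hn
  set F : Finset (Fin 3 → ℤ) := Fintype.piFinset fun _ => Finset.Ico (0 : ℤ) n with hF
  have hFc : F.card = n ^ 3 := by
    rw [hF, Fintype.card_piFinset]
    simp
  have hcover : cube L ⊆ ⋃ C ∈ F, cellSet s τ C := by
    intro x hx
    simp only [Set.mem_iUnion]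
    refine ⟨cellIdx s τ x, ?_, rfl⟩
    rw [hF, Fintype.mem_piFinset]
    intro a
    simp only [Finset.mem_Ico, cellIdx]
    have hτa : ((τ a : ℕ) : ℝ) + 1 ≤ s := by
      have := Finset.mem_range.1 (Fintype.mem_piFinset.1 hτ a)
      exact_mod_cast this
    have hτ0 : (0 : ℝ) ≤ ((τ a : ℕ) : ℝ) := Nat.cast_nonneg _
    have h1 := hx a
    constructor
    · exact Int.floor_nonneg.2 (div_nonneg (by linarith [h1.1]) hs'.le)
    · rw [Int.floor_lt, div_lt_iff₀ hs']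
      have h2 := Nat.lt_floor_add_one (L / (s : ℝ))
      rw [div_lt_iff₀ hs'] at h2
      have h3 : ((n : ℤ) : ℝ) = (⌊L / (s : ℝ)⌋₊ : ℝ) + 2 := by
        rw [hn]; push_cast; ring
      rw [h3]
      nlinarith [h1.2]
  have hun := GP_biUnion (measurable_psiT s e hΦ τ) F (cellSet s τ)
    (fun C _ => measurableSet_cellSet s τ C)
    (fun C _ C' _ hne => by
      rw [Set.disjoint_left]
      intro x hx hx'
      exact hne (hx.symm.trans hx')) μ
    (fun C _ C' _ hne u hu v hv => by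
      unfold psiT sameInd
      rw [if_neg, zero_mul]
      intro h
      exact hne (hu.symm.trans (h.trans hv)))
  have hcell : ∀ C, GP (psiT s e Φ τ) μ (cellSet s τ C) = GP (psiH s e Φ) μ (halfCube s) := by
    intro C
    have h1 : GP (psiT s e Φ τ) μ (cellSet s τ C) = GP (psiH s e Φ) μ (cellSet s τ C) := by
      refine GP_congr μ (measurableSet_cellSet s τ C) fun u hu v hv => ?_
      unfold psiT psiH sameInd
      rw [if_pos (hu.trans hv.symm), one_mul]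
    rw [h1, cellSet_eq_translate hs]
    exact GP_translate μ _ _ fun u v => psiH_add s e Φ u v _
  simp only [hcell, Finset.prod_const, hFc] at hun
  rw [← hun]
  exact GP_mono _ _ hcover

/-- Hoelder over the shifts and factorisation over the cells. -/
theorem GP_le_cell_pow {Φ₀ Φ : ℝ → ℝ} (hΦ : Measurable Φ) {s : ℕ} (hs : 0 < s) {μ μ' e : ℝ}
    (hineq : ∀ (N : ℕ) (x : Fin N → R3),
      μ * N - (1 / 2) * offSum (radK Φ₀) x
        ≤ μ' * N - (1 / 2) * offSum (fun u v => avgSame s u v * (Φ (euclDist u v) - e / (s : ℝ) ^ 3)) x)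
    (L : ℝ) :
    GP (radK Φ₀) μ (cube L) ≤ (GP (psiH s e Φ) μ' (halfCube s)) ^ ((⌊L / (s : ℝ)⌋₊ + 2) ^ 3) := by
  classical
  have hs' : (0 : ℝ) < s := by exact_mod_cast hs
  have hs3 : (0 : ℝ) < (s : ℝ) ^ 3 := by positivity
  set p : (Fin 3 → ℕ) → ℝ := fun _ => ((s : ℝ) ^ 3)⁻¹ with hp
  have hcard : ((shifts s).card : ℝ) = (s : ℝ) ^ 3 := by
    rw [card_shifts]; push_cast; rfl
  have hpsum : ∑ τ ∈ shifts s, p τ = 1 := by
    simp only [hp, Finset.sum_const, nsmul_eq_mul]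
    rw [hcard]
    field_simp
  have hH := GP_le_prod_rpow (shifts s) hpsum (fun _ _ => by simp only [hp]; positivity)
    (ψ₀ := radK Φ₀) (μ₀ := μ) (psiT s e Φ) (fun τ _ => measurable_psiT s e hΦ τ) (fun _ => μ')
    (measurableSet_cube L)
    (fun N x _ => by
      unfold wt
      rw [prod_ofReal_exp_rpow]
      refine ENNReal.ofReal_le_ofReal (Real.exp_le_exp.2 ?_)
      have h1 := hineq N x
      rw [Fintype.card_fin]
      refine le_trans h1 (le_of_eq ?_)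
      have h2 : offSum (fun u v => avgSame s u v * (Φ (euclDist u v) - e / (s : ℝ) ^ 3)) x
          = ((s : ℝ) ^ 3)⁻¹ * ∑ τ ∈ shifts s, offSum (psiT s e Φ τ) x := by
        rw [← offSum_finset_sum, ← offSum_const_mul]
        congr 1
        funext u v
        unfold avgSame psiT
        rw [← Finset.sum_mul]
        ring
      rw [h2]
      simp only [hp]
      rw [← Finset.mul_sum, Finset.sum_sub_distrib, Finset.sum_const, nsmul_eq_mul, hcard,
        ← Finset.mul_sum]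
      field_simp)
  refine le_trans hH ?_
  set X := GP (psiH s e Φ) μ' (halfCube s) with hX
  set n := (⌊L / (s : ℝ)⌋₊ + 2) ^ 3 with hn
  calc ∏ τ ∈ shifts s, (GP (psiT s e Φ τ) μ' (cube L)) ^ p τ
      ≤ ∏ τ ∈ shifts s, (X ^ n) ^ p τ := by
        refine Finset.prod_le_prod' fun τ hτ => ?_
        exact ENNReal.rpow_le_rpow (GP_psiT_le hs e hΦ hτ μ' L) (by simp only [hp]; positivity)
    _ = X ^ n := by
        simp only [hp, Finset.prod_const]
        rw [← ENNReal.rpow_natCast, ← ENNReal.rpow_mul, hcard]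
        have : ((s : ℝ) ^ 3)⁻¹ * (s : ℝ) ^ 3 = 1 := by field_simp
        rw [this, ENNReal.rpow_one]

/-- The weight inside a cell in terms of the weight of the potential at another activity. -/
lemma wt_psiH_eq (s : ℕ) (e : ℝ) (Φ : ℝ → ℝ) (μ' μ'' : ℝ) {N : ℕ} (x : Fin N → R3) :
    wt (psiH s e Φ) μ' x = ENNReal.ofReal (exp ((μ' - μ'') * N
        + e / (2 * (s : ℝ) ^ 3) * ((N : ℝ) ^ 2 - N))) * wt (radK Φ) μ'' x := by
  unfold wt
  rw [← ENNReal.ofReal_mul (exp_pos _).le, ← Real.exp_add]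
  have h1 : offSum (psiH s e Φ) x = offSum (radK Φ) x - e / (s : ℝ) ^ 3 * ((N : ℝ) ^ 2 - N) := by
    have h2 : psiH s e Φ = fun u v => radK Φ u v - e / (s : ℝ) ^ 3 := rfl
    rw [h2, offSum_sub, offSum_const_on (fun _ _ => e / (s : ℝ) ^ 3) (e / (s : ℝ) ^ 3) x
      (fun _ _ => rfl), Fintype.card_fin]
  rw [h1, Fintype.card_fin]
  congr 2
  by_cases hs : (s : ℝ) = 0
  · simp [hs]; ring
  · field_simp
    ring

/-- The Chernoff bound for the term with `N` particles. -/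
lemma term_psiH_le (s : ℕ) (e : ℝ) (Φ : ℝ → ℝ) (μ' μ'' : ℝ) (N : ℕ) :
    (N.factorial : ℝ≥0∞)⁻¹ * intD (psiH s e Φ) μ' (halfCube s) (Fin N)
      ≤ ENNReal.ofReal (exp ((μ' - μ'') * N + e / (2 * (s : ℝ) ^ 3) * ((N : ℝ) ^ 2 - N)))
        * GP (radK Φ) μ'' (cube s) := by
  have h1 : intD (psiH s e Φ) μ' (halfCube s) (Fin N)
      = ENNReal.ofReal (exp ((μ' - μ'') * N + e / (2 * (s : ℝ) ^ 3) * ((N : ℝ) ^ 2 - N)))
        * intD (radK Φ) μ'' (halfCube s) (Fin N) := by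
    unfold intD
    simp_rw [wt_psiH_eq s e Φ μ' μ'']
    rw [lintegral_const_mul' _ _ ENNReal.ofReal_ne_top]
  rw [h1, mul_left_comm]
  refine mul_le_mul_right ?_ _
  exact le_trans (mul_le_mul_right (intD_mono _ _ (halfCube_subset_cube s) _) _)
    (term_le_GP _ _ _ N)

/-- Superstability bound for the tail of the partition sum in a cell. -/
lemma term_psiH_tail {h ζ₀ e μ' ρmax : ℝ} {c : ℕ → ℝ} (hdom : InDom (h - ζ₀) c) (he : 0 ≤ e)
    {s : ℕ} (hs : 0 < s) {N : ℕ} (hρ1 : 1 ≤ ρmax) (hN : ρmax * (s : ℝ) ^ 3 ≤ N)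
    (hκ : 0 < (h - ζ₀ - 2 * ∑' j, |c j|) / 2 - e / 2)
    (hρ2 : μ' + (h - ζ₀ - 2 * ∑' j, |c j|) / 2 + ∑' j, |c j| + 2
      ≤ ((h - ζ₀ - 2 * ∑' j, |c j|) / 2 - e / 2) * ρmax) :
    (N.factorial : ℝ≥0∞)⁻¹ * intD (psiH s e (pot (h - ζ₀) c)) μ' (halfCube s) (Fin N)
      ≤ ENNReal.ofReal (exp (-(N : ℝ))) := by
  have hs' : (0 : ℝ) < s := by exact_mod_cast hs
  have hs3 : (0 : ℝ) < (s : ℝ) ^ 3 := by positivity
  set a := ∑' j, |c j| with ha
  set κ := (h - ζ₀ - 2 * a) / 2 with hκdef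
  have hN0 : (0 : ℝ) ≤ N := Nat.cast_nonneg N
  have hpt : ∀ x ∈ Set.pi Set.univ (fun _ : Fin N => halfCube s),
      wt (psiH s e (pot (h - ζ₀) c)) μ' x ≤ ENNReal.ofReal (exp (-2 * (N : ℝ))) := by
    intro x hx
    have hx' : ∀ i a, 0 ≤ x i a ∧ x i a < s := fun i a => hx i (Set.mem_univ i) a
    rw [wt_psiH_eq s e _ μ' 0]
    unfold wt
    rw [← ENNReal.ofReal_mul (exp_pos _).le, ← Real.exp_add]
    refine ENNReal.ofReal_le_ofReal (Real.exp_le_exp.2 ?_)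
    have h1 := half_offSum_ge_super (h := h - ζ₀) hdom.1 hdom.2 hs x hx'
    rw [Fintype.card_fin, ← ha, ← hκdef] at h1
    rw [Fintype.card_fin]
    set Y := (N : ℝ) ^ 2 / (s : ℝ) ^ 3 with hY
    have hY2 : ρmax * (N : ℝ) ≤ Y := by
      rw [hY, le_div_iff₀ hs3]
      have := mul_le_mul_of_nonneg_right hN hN0
      nlinarith
    have hesplit : e / (2 * (s : ℝ) ^ 3) * ((N : ℝ) ^ 2 - N) ≤ e / 2 * Y := by
      have h2 : e / (2 * (s : ℝ) ^ 3) * (N : ℝ) ^ 2 = e / 2 * Y := by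
        rw [hY]; field_simp
      have h3 : 0 ≤ e / (2 * (s : ℝ) ^ 3) * (N : ℝ) := by positivity
      nlinarith
    have h4 : (κ - e / 2) * (ρmax * N) ≤ (κ - e / 2) * Y :=
      mul_le_mul_of_nonneg_left hY2 hκ.le
    have h5 : (μ' + κ + a + 2) * (N : ℝ) ≤ ((κ - e / 2) * ρmax) * N :=
      mul_le_mul_of_nonneg_right hρ2 hN0
    simp only [sub_zero, zero_mul, zero_sub] at *
    nlinarith
  have hint : intD (psiH s e (pot (h - ζ₀) c)) μ' (halfCube s) (Fin N)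
      ≤ ENNReal.ofReal (exp (-2 * (N : ℝ))) * (ENNReal.ofReal ((s : ℝ) ^ 3)) ^ N := by
    unfold intD
    calc ∫⁻ x in Set.pi Set.univ (fun _ : Fin N => halfCube s), wt (psiH s e (pot (h - ζ₀) c)) μ' x
        ≤ ∫⁻ _ in Set.pi Set.univ (fun _ : Fin N => halfCube s),
            ENNReal.ofReal (exp (-2 * (N : ℝ))) :=
          setLIntegral_mono' (measurableSet_pi_const (measurableSet_halfCube s)) hpt
      _ = _ := by
          rw [setLIntegral_const, volume_pi_pi]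
          simp [volume_halfCube]
  have hfac : (N.factorial : ℝ≥0∞)⁻¹ * (ENNReal.ofReal ((s : ℝ) ^ 3)) ^ N
      ≤ ENNReal.ofReal (exp (N : ℝ)) := by
    have h2 : (N.factorial : ℝ≥0∞)⁻¹ = ENNReal.ofReal (1 / N.factorial) := by
      rw [one_div, ENNReal.ofReal_inv_of_pos (by positivity)]
      simp
    rw [h2, ← ENNReal.ofReal_pow hs3.le, ← ENNReal.ofReal_mul (by positivity)]
    refine ENNReal.ofReal_le_ofReal ?_
    have h3 := Real.pow_div_factorial_le_exp ((s : ℝ) ^ 3) hs3.le N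
    have h4 : (s : ℝ) ^ 3 ≤ N := by nlinarith
    calc 1 / (N.factorial : ℝ) * ((s : ℝ) ^ 3) ^ N = ((s : ℝ) ^ 3) ^ N / (N.factorial : ℝ) := by ring
      _ ≤ exp ((s : ℝ) ^ 3) := h3
      _ ≤ exp (N : ℝ) := Real.exp_le_exp.2 h4
  calc (N.factorial : ℝ≥0∞)⁻¹ * intD (psiH s e (pot (h - ζ₀) c)) μ' (halfCube s) (Fin N)
      ≤ (N.factorial : ℝ≥0∞)⁻¹ *
        (ENNReal.ofReal (exp (-2 * (N : ℝ))) * (ENNReal.ofReal ((s : ℝ) ^ 3)) ^ N) :=
        mul_le_mul_right hint _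
    _ = ENNReal.ofReal (exp (-2 * (N : ℝ))) *
        ((N.factorial : ℝ≥0∞)⁻¹ * (ENNReal.ofReal ((s : ℝ) ^ 3)) ^ N) := by ring
    _ ≤ ENNReal.ofReal (exp (-2 * (N : ℝ))) * ENNReal.ofReal (exp (N : ℝ)) :=
        mul_le_mul_right hfac _
    _ = _ := by
        rw [← ENNReal.ofReal_mul (exp_pos _).le, ← Real.exp_add]
        congr 2
        ring

/-- The exponentially small tail sums to at most two. -/
lemma tsum_ofReal_exp_neg_le : ∑' N : ℕ, ENNReal.ofReal (exp (-(N : ℝ))) ≤ 2 := by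
  have h0 : exp (-1) < 1 := by
    rw [Real.exp_lt_one_iff]; norm_num
  have hsum : Summable fun N : ℕ => (exp (-1)) ^ N :=
    summable_geometric_of_lt_one (exp_pos _).le h0
  have h1 : ∀ N : ℕ, exp (-(N : ℝ)) = (exp (-1)) ^ N := by
    intro N
    rw [← Real.exp_nat_mul]
    congr 1
    ring
  simp_rw [h1]
  rw [← ENNReal.ofReal_tsum_of_nonneg (fun N => by positivity) hsum, tsum_geometric_of_lt_one
    (exp_pos _).le h0]
  have h2 : exp (-1) ≤ 1 / 2 := by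
    rw [Real.exp_neg, one_div]
    refine inv_anti₀ (by norm_num) ?_
    have := Real.exp_one_gt_d9
    linarith
  have h3 : (1 - exp (-1))⁻¹ ≤ 2 := by
    rw [inv_le_comm₀ (by linarith) (by norm_num)]
    linarith
  calc ENNReal.ofReal (1 - exp (-1))⁻¹ ≤ ENNReal.ofReal 2 := ENNReal.ofReal_le_ofReal h3
    _ = 2 := by simp

/-- From a bound on the finite volume pressure to a bound on the partition sum. -/
lemma GP_le_of_fp_le {h : ℝ} {c : ℕ → ℝ} (hd : InDom h c) {μ L a : ℝ} (hL : 0 < L)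
    (hfp : fp h c μ L ≤ a) :
    GP (radK (pot h c)) μ (cube L) ≤ ENNReal.ofReal (exp (L ^ 3 * a)) := by
  set X := GP (radK (pot h c)) μ (cube L) with hX
  have hXf : X ≠ ⊤ := ne_top_of_le_ne_top ENNReal.ofReal_ne_top (GP_le_of_InDom hd μ hL.le)
  have h1 : 1 ≤ X.toReal := by
    have := ENNReal.toReal_mono hXf (one_le_GP (radK (pot h c)) μ (cube L))
    simpa using this
  have h2 : Real.log X.toReal ≤ L ^ 3 * a := by
    unfold fp at hfp
    rw [inv_mul_le_iff₀ (by positivity)] at hfp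
    exact hfp
  have h3 : X.toReal ≤ exp (L ^ 3 * a) := by
    rw [← Real.log_le_iff_le_exp (by linarith)]
    exact h2
  rw [← ENNReal.ofReal_toReal hXf]
  exact ENNReal.ofReal_le_ofReal h3

/-- The bound on the partition sum in a cell, from the Legendre bound at finitely many activities. -/
theorem GP_cell_le {h ζ₀ e μ' ρmax Q₀ θ' : ℝ} {c : ℕ → ℝ} (hdom : InDom (h - ζ₀) c) (he : 0 ≤ e)
    {s : ℕ} (hs : 0 < s) (hρ1 : 1 ≤ ρmax)
    (hκ : 0 < (h - ζ₀ - 2 * ∑' j, |c j|) / 2 - e / 2)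
    (hρ2 : μ' + (h - ζ₀ - 2 * ∑' j, |c j|) / 2 + ∑' j, |c j| + 2
      ≤ ((h - ζ₀ - 2 * ∑' j, |c j|) / 2 - e / 2) * ρmax)
    (M : Finset ℝ)
    (hM : ∀ ρ ∈ Icc 0 ρmax, ∃ μ'' ∈ M, Pr (h - ζ₀) c μ'' + (μ' - μ'') * ρ + (e / 2) * ρ ^ 2 ≤ Q₀)
    (hQ : 0 ≤ Q₀) (hθ' : 0 ≤ θ')
    (hfp : ∀ μ'' ∈ M, fp (h - ζ₀) c μ'' s ≤ Pr (h - ζ₀) c μ'' + θ') :
    GP (psiH s e (pot (h - ζ₀) c)) μ' (halfCube s)
      ≤ ENNReal.ofReal (((ρmax * (s : ℝ) ^ 3) + 3) * exp ((s : ℝ) ^ 3 * (Q₀ + θ'))) := by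
  have hs' : (0 : ℝ) < s := by exact_mod_cast hs
  have hs3 : (0 : ℝ) < (s : ℝ) ^ 3 := by positivity
  set w := exp ((s : ℝ) ^ 3 * (Q₀ + θ')) with hw
  have hw1 : 1 ≤ w := by
    rw [hw]
    exact Real.one_le_exp (by positivity)
  set N₀ : ℕ := ⌊ρmax * (s : ℝ) ^ 3⌋₊ with hN₀
  have hρs : 0 ≤ ρmax * (s : ℝ) ^ 3 := by positivity
  have hterm : ∀ N : ℕ, (N.factorial : ℝ≥0∞)⁻¹ *
      intD (psiH s e (pot (h - ζ₀) c)) μ' (halfCube s) (Fin N)
      ≤ (if N ∈ Finset.range (N₀ + 1) then ENNReal.ofReal w else 0)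
        + ENNReal.ofReal (exp (-(N : ℝ))) := by
    intro N
    by_cases hN : N ∈ Finset.range (N₀ + 1)
    · rw [if_pos hN]
      refine le_trans ?_ le_self_add
      have hNle : (N : ℝ) ≤ ρmax * (s : ℝ) ^ 3 := by
        have h1 : N ≤ N₀ := Nat.lt_succ_iff.1 (Finset.mem_range.1 hN)
        have h2 : (N : ℝ) ≤ N₀ := by exact_mod_cast h1
        exact le_trans h2 (Nat.floor_le hρs)
      set ρ : ℝ := (N : ℝ) / (s : ℝ) ^ 3 with hρ
      have hNρ : (N : ℝ) = ρ * (s : ℝ) ^ 3 := by rw [hρ]; field_simp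
      have hρ0 : 0 ≤ ρ := by rw [hρ]; positivity
      have hρm : ρ ≤ ρmax := by
        rw [hρ, div_le_iff₀ hs3]; exact hNle
      obtain ⟨μ'', hμ'', hle⟩ := hM ρ ⟨hρ0, hρm⟩
      have h1 := term_psiH_le s e (pot (h - ζ₀) c) μ' μ'' N
      have h2 := GP_le_of_fp_le hdom (μ := μ'') (L := s) hs' (hfp μ'' hμ'')
      refine le_trans h1 (le_trans (mul_le_mul_right h2 _) ?_)
      rw [← ENNReal.ofReal_mul (exp_pos _).le, ← Real.exp_add]
      refine ENNReal.ofReal_le_ofReal (Real.exp_le_exp.2 ?_)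
      have hN0 : (0 : ℝ) ≤ N := Nat.cast_nonneg N
      have h3 : e / (2 * (s : ℝ) ^ 3) * ((N : ℝ) ^ 2 - N) ≤ (e / 2) * ρ ^ 2 * (s : ℝ) ^ 3 := by
        have h4 : e / (2 * (s : ℝ) ^ 3) * (N : ℝ) ^ 2 = (e / 2) * ρ ^ 2 * (s : ℝ) ^ 3 := by
          rw [hNρ]; field_simp
        have h5 : 0 ≤ e / (2 * (s : ℝ) ^ 3) * (N : ℝ) := by positivity
        nlinarith
      have h6 := mul_le_mul_of_nonneg_right hle hs3.le
      rw [hNρ] at h3 ⊢
      nlinarith
    · rw [if_neg hN, zero_add]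
      have hNle : ρmax * (s : ℝ) ^ 3 ≤ N := by
        have h1 : N₀ + 1 ≤ N := by
          simpa [Finset.mem_range] using hN
        have h2 : (N₀ : ℝ) + 1 ≤ N := by exact_mod_cast h1
        have h3 := Nat.lt_floor_add_one (ρmax * (s : ℝ) ^ 3)
        linarith
      exact term_psiH_tail hdom he hs hρ1 hNle hκ hρ2
  have hsplit : GP (psiH s e (pot (h - ζ₀) c)) μ' (halfCube s)
      ≤ ∑' N : ℕ, ((if N ∈ Finset.range (N₀ + 1) then ENNReal.ofReal w else 0)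
        + ENNReal.ofReal (exp (-(N : ℝ)))) := ENNReal.tsum_le_tsum hterm
  refine le_trans hsplit ?_
  rw [ENNReal.tsum_add, tsum_eq_sum (s := Finset.range (N₀ + 1)) (fun N hN => by rw [if_neg hN])]
  have h7 : ∑ N ∈ Finset.range (N₀ + 1), (if N ∈ Finset.range (N₀ + 1) then ENNReal.ofReal w else 0)
      = ((N₀ + 1 : ℕ) : ℝ≥0∞) * ENNReal.ofReal w := by
    rw [Finset.sum_congr rfl (fun N hN => if_pos hN), Finset.sum_const, Finset.card_range,
      nsmul_eq_mul]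
  rw [h7]
  have hw0 : 0 ≤ w := by linarith
  have h8 : ((N₀ + 1 : ℕ) : ℝ≥0∞) * ENNReal.ofReal w + ∑' N : ℕ, ENNReal.ofReal (exp (-(N : ℝ)))
      ≤ ENNReal.ofReal (((N₀ + 1 : ℕ) : ℝ) * w) + ENNReal.ofReal 2 := by
    refine add_le_add ?_ ?_
    · rw [ENNReal.ofReal_mul (by positivity), ENNReal.ofReal_natCast]
    · refine le_trans tsum_ofReal_exp_neg_le ?_
      simp
  refine le_trans h8 ?_
  rw [← ENNReal.ofReal_add (by positivity) (by norm_num)]
  refine ENNReal.ofReal_le_ofReal ?_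
  have h9 : ((N₀ + 1 : ℕ) : ℝ) ≤ ρmax * (s : ℝ) ^ 3 + 1 := by
    push_cast
    linarith [Nat.floor_le hρs]
  nlinarith

/-- An elementary growth bound. -/
lemma eventually_linear_le_exp (ρmax : ℝ) {θ' : ℝ} (hρ : 0 ≤ ρmax) (hθ' : 0 < θ') :
    ∀ᶠ s : ℕ in atTop, ρmax * (s : ℝ) ^ 3 + 3 ≤ exp ((s : ℝ) ^ 3 * θ') := by
  have hK : ∀ᶠ s : ℕ in atTop, max 1 (2 * (ρmax + 3) / θ' ^ 2) ≤ (s : ℝ) :=
    tendsto_natCast_atTop_atTop.eventually (eventually_ge_atTop _)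
  filter_upwards [hK] with s hs
  have h1 : (1 : ℝ) ≤ s := le_trans (le_max_left _ _) hs
  have h2 : 2 * (ρmax + 3) / θ' ^ 2 ≤ s := le_trans (le_max_right _ _) hs
  have h3 : (s : ℝ) ≤ (s : ℝ) ^ 3 := by
    calc (s : ℝ) = (s : ℝ) ^ 1 := by ring
      _ ≤ (s : ℝ) ^ 3 := pow_le_pow_right₀ h1 (by norm_num)
  set y : ℝ := (s : ℝ) ^ 3 with hy
  have hy1 : 1 ≤ y := by linarith
  have h4 : 2 * (ρmax + 3) ≤ y * θ' ^ 2 := by
    rw [div_le_iff₀ (by positivity)] at h2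
    nlinarith [sq_nonneg θ']
  have h5 : 0 ≤ y * θ' := by positivity
  have h6 := Real.quadratic_le_exp_of_nonneg h5
  have h7 : (ρmax + 3) * y ≤ (y * θ') ^ 2 / 2 := by
    have : (y * θ') ^ 2 / 2 = y * (y * θ' ^ 2) / 2 := by ring
    rw [this]
    nlinarith
  nlinarith

/-- **The upper bound for long range attraction.** -/
theorem kac_upper {h ζ₀ ε e μ Q₀ θ ρmax : ℝ} {c : ℕ → ℝ} {k₀ : ℕ}
    (hc0 : ∀ j, 0 ≤ c j) (hsupp : ∀ j, k₀ ≤ j → c j = 0)
    (hζ : 0 < ζ₀) (hdom : InDom (h - ζ₀) c) (hε : 0 ≤ ε) (he : ε < e) (hQ : 0 ≤ Q₀) (hθ : 0 < θ)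
    (hκ : 0 < (h - ζ₀ - 2 * ∑' j, |c j|) / 2 - e / 2) (hρ1 : 1 ≤ ρmax)
    (hρ2 : (μ + ζ₀) + (h - ζ₀ - 2 * ∑' j, |c j|) / 2 + ∑' j, |c j| + 2
      ≤ ((h - ζ₀ - 2 * ∑' j, |c j|) / 2 - e / 2) * ρmax)
    (M : Finset ℝ)
    (hM : ∀ ρ ∈ Icc 0 ρmax, ∃ μ'' ∈ M,
      Pr (h - ζ₀) c μ'' + ((μ + ζ₀) - μ'') * ρ + (e / 2) * ρ ^ 2 ≤ Q₀) :
    ∀ᶠ k in atTop, Pr h (fun j => c j + ε * (if j = k then 1 else 0)) μ ≤ Q₀ + θ := by
  have he0 : 0 < e := lt_of_le_of_lt hε he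
  have hζh : ζ₀ ≤ h := by
    have h1 := hdom.2
    have h2 : 0 ≤ ∑' j, |c j| := tsum_nonneg fun _ => abs_nonneg _
    linarith
  set θ' := θ / 4 with hθ'
  have hθ'0 : 0 < θ' := by rw [hθ']; positivity
  -- choice of the mesh
  have hE1 : ∀ᶠ s : ℕ in atTop, ∀ μ'' ∈ M, fp (h - ζ₀) c μ'' s ≤ Pr (h - ζ₀) c μ'' + θ' := by
    rw [Filter.eventually_all_finset]
    intro μ'' _
    exact tendsto_natCast_atTop_atTop.eventually (eventually_fp_le_Pr hdom μ'' hθ'0)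
  have hE2 : ∀ᶠ s : ℕ in atTop, (∑ j ∈ Finset.range k₀, c j * Mj j) / (s : ℝ) ≤ ζ₀ :=
    (tendsto_const_div_atTop_nhds_zero_nat _).eventually (ge_mem_nhds hζ)
  have hE3 : ∀ᶠ s : ℕ in atTop, e / (s : ℝ) ≤ ζ₀ :=
    (tendsto_const_div_atTop_nhds_zero_nat _).eventually (ge_mem_nhds hζ)
  have hE4 := eventually_linear_le_exp ρmax (by linarith) hθ'0
  obtain ⟨s, hs1, hs2, hs3, hs4, hs5⟩ :=
    (hE1.and (hE2.and (hE3.and (hE4.and (eventually_gt_atTop 0))))).exists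
  have hs0 : (0 : ℝ) < s := by exact_mod_cast hs5
  have hs13 : (0 : ℝ) < (s : ℝ) ^ 3 := by positivity
  have hse : e / (s : ℝ) ^ 3 ≤ ζ₀ := by
    have h1 : (1 : ℝ) ≤ s := by exact_mod_cast hs5
    have h2 : (s : ℝ) ≤ (s : ℝ) ^ 3 := by
      calc (s : ℝ) = (s : ℝ) ^ 1 := by ring
        _ ≤ (s : ℝ) ^ 3 := pow_le_pow_right₀ h1 (by norm_num)
    exact le_trans (div_le_div_of_nonneg_left he0.le hs0 h2) hs3
  -- the bound in a cell
  have hX := GP_cell_le (μ' := μ + ζ₀) hdom he0.le hs5 hρ1 hκ hρ2 M hM hQ hθ'0.le hs1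
  set W := Q₀ + θ' + θ' with hW
  have hW0 : 0 ≤ W := by rw [hW]; positivity
  have hX2 : GP (psiH s e (pot (h - ζ₀) c)) (μ + ζ₀) (halfCube s)
      ≤ ENNReal.ofReal (exp ((s : ℝ) ^ 3 * W)) := by
    refine le_trans hX (ENNReal.ofReal_le_ofReal ?_)
    have h1 : (s : ℝ) ^ 3 * W = (s : ℝ) ^ 3 * θ' + (s : ℝ) ^ 3 * (Q₀ + θ') := by
      rw [hW]; ring
    rw [h1, Real.exp_add]
    exact mul_le_mul_of_nonneg_right hs4 (exp_pos _).le
  -- the long range kernel is eventually close to the mean field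
  have hg : Tendsto (fun k : ℕ => gs (sig k) 0) atTop (𝓝 0) := by
    simp_rw [gs_zero]
    refine tendsto_inv_atTop_zero.comp ?_
    refine Tendsto.atTop_mul_const sqrt_two_pi_pos ?_
    exact tendsto_atTop_add_const_right _ _ tendsto_natCast_atTop_atTop
  have hlim : Tendsto (fun k : ℕ => ε * (3 * gs (sig k) 0 + 1 / (s : ℝ)) ^ 3) atTop
      (𝓝 (ε * (3 * 0 + 1 / (s : ℝ)) ^ 3)) :=
    Tendsto.const_mul _ (Tendsto.pow (Tendsto.add (Tendsto.const_mul _ hg) tendsto_const_nhds) 3)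
  have hlt : ε * (3 * 0 + 1 / (s : ℝ)) ^ 3 < e / (s : ℝ) ^ 3 := by
    have : ε * (3 * 0 + 1 / (s : ℝ)) ^ 3 = ε / (s : ℝ) ^ 3 := by
      field_simp
      simp
    rw [this]
    exact div_lt_div_of_pos_right he hs13
  have hk : ∀ᶠ k : ℕ in atTop, ε * (3 * gs (sig k) 0 + 1 / (s : ℝ)) ^ 3 ≤ e / (s : ℝ) ^ 3 :=
    (hlim.eventually (gt_mem_nhds hlt)).mono fun _ h => h.le
  filter_upwards [hk] with k hk
  -- the limit in the volume
  have hcs : Summable fun j => |c j| := hdom.1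
  have hlimL : Tendsto (fun L : ℝ => ((L + 2 * (s : ℝ)) / L) ^ 3 * W) atTop (𝓝 (1 ^ 3 * W)) := by
    refine Tendsto.mul_const _ (Tendsto.pow ?_ 3)
    have h1 : Tendsto (fun L : ℝ => 1 + (2 * (s : ℝ)) * L⁻¹) atTop (𝓝 (1 + (2 * (s : ℝ)) * 0)) :=
      tendsto_const_nhds.add (Tendsto.const_mul _ tendsto_inv_atTop_zero)
    rw [mul_zero, add_zero] at h1
    refine h1.congr' ?_
    filter_upwards [eventually_gt_atTop 0] with L hL
    field_simp
  have hev : ∀ᶠ L : ℝ in atTop, ((L + 2 * (s : ℝ)) / L) ^ 3 * W < 1 ^ 3 * W + θ' :=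
    hlimL.eventually (gt_mem_nhds (by linarith))
  have hfinal : Pr h (fun j => c j + ε * (if j = k then 1 else 0)) μ ≤ W + θ' := by
    refine Pr_le_of_eventually μ ?_
    filter_upwards [hev, eventually_gt_atTop 0] with L hL1 hL0
    set n : ℕ := (⌊L / (s : ℝ)⌋₊ + 2) ^ 3 with hn
    have hcell := GP_le_cell_pow (Φ₀ := pot h (fun j => c j + ε * (if j = k then 1 else 0)))
      (measurable_pot (h - ζ₀) hcs) hs5 (μ := μ) (μ' := μ + ζ₀) (e := e)
      (fun N x => by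
        have h1 := energy_ineq (h := h) (ζ₀ := ζ₀) (ε := ε) (e := e) hc0 hsupp hζh hs5 hs2 hk hε x
        rw [Fintype.card_fin] at h1
        have hN0 : (0 : ℝ) ≤ N := Nat.cast_nonneg N
        have h2 : (e / (s : ℝ) ^ 3) * (N : ℝ) ≤ ζ₀ * N := mul_le_mul_of_nonneg_right hse hN0
        nlinarith) L
    have hpow : (GP (psiH s e (pot (h - ζ₀) c)) (μ + ζ₀) (halfCube s)) ^ n
        ≤ ENNReal.ofReal (exp ((n : ℝ) * ((s : ℝ) ^ 3 * W))) := by
      refine le_trans (pow_le_pow_left' hX2 n) ?_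
      rw [← ENNReal.ofReal_pow (exp_pos _).le, ← Real.exp_nat_mul]
    have h1 := log_toReal_le (hcell.trans hpow) (one_le_GP _ _ _)
    unfold fp
    have hL3 : 0 < L ^ 3 := by positivity
    rw [inv_mul_le_iff₀ hL3]
    refine le_trans h1 ?_
    have hnle : (n : ℝ) * (s : ℝ) ^ 3 ≤ (L + 2 * (s : ℝ)) ^ 3 := by
      rw [hn]
      push_cast
      rw [← mul_pow]
      refine pow_le_pow_left₀ (by positivity) ?_ 3
      have h2 := Nat.floor_le (show 0 ≤ L / (s : ℝ) by positivity)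
      have h3 : (⌊L / (s : ℝ)⌋₊ : ℝ) * s ≤ L := by
        rwa [le_div_iff₀ hs0] at h2
      nlinarith
    have h4 : (n : ℝ) * ((s : ℝ) ^ 3 * W) ≤ (L + 2 * (s : ℝ)) ^ 3 * W := by
      rw [← mul_assoc]
      exact mul_le_mul_of_nonneg_right hnle hW0
    have h5 : (L + 2 * (s : ℝ)) ^ 3 * W = L ^ 3 * (((L + 2 * (s : ℝ)) / L) ^ 3 * W) := by
      field_simp
    have h6 : L ^ 3 * (((L + 2 * (s : ℝ)) / L) ^ 3 * W) ≤ L ^ 3 * (1 ^ 3 * W + θ') :=
      mul_le_mul_of_nonneg_left hL1.le hL3.le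
    nlinarith
  have hθ4 : W + θ' = Q₀ + 3 * θ' := by rw [hW]; ring
  have hθ5 : 3 * θ' ≤ θ := by rw [hθ']; linarith
  linarith

end Vale.Agent.Lib.P171
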