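import Vale.Agent.Lib.P171.Ell1

/-!
# Where the pressure is differentiable, long range attraction only sees the square of the density
-/

open MeasureTheory Set Real Filter
open scoped ENNReal Topology

namespace Vale.Agent.Lib.P171

lemma InDom_of_le {h : ℝ} {c g : ℕ → ℝ} (hg : Summable g) (hle : ∀ k, |c k| ≤ g k)
    (h2 : 2 * ∑' k, g k ≤ h) : InDom h c := by
  have hs : Summable fun k => |c k| := Summable.of_nonneg_of_le (fun _ => abs_nonneg _) hle hg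
  refine ⟨hs, le_trans ?_ h2⟩
  have := hs.tsum_le_tsum hle hg
  linarith

lemma summable_single (ε : ℝ) (j : ℕ) : Summable fun i : ℕ => ε * (if i = j then (1 : ℝ) else 0) :=
  summable_of_finite_support ((Set.finite_singleton j).subset fun i hi => by
    by_contra hne
    simp only [Set.mem_singleton_iff] at hne
    simp [hne] at hi)

lemma tsum_single (ε : ℝ) (j : ℕ) : ∑' i : ℕ, ε * (if i = j then (1 : ℝ) else 0) = ε := by
  rw [tsum_mul_left, tsum_ite_eq, mul_one]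

lemma InDom_add_single {h ε : ℝ} {c : ℕ → ℝ} (hc : Summable fun k => |c k|) (hε : 0 ≤ ε) (j : ℕ)
    (h2 : 2 * (∑' k, |c k| + ε) ≤ h) : InDom h (fun i => c i + ε * (if i = j then 1 else 0)) := by
  refine InDom_of_le (g := fun i => |c i| + ε * (if i = j then 1 else 0))
    (hc.add (summable_single ε j)) (fun i => ?_) ?_
  · refine (abs_add_le _ _).trans ?_
    refine add_le_add le_rfl ?_
    rw [abs_mul, abs_of_nonneg hε]
    by_cases hi : i = j <;> simp [hi]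
  · rw [Summable.tsum_add hc (summable_single ε j), tsum_single]
    exact h2

/-- Tails of a summable series are small. -/
lemma exists_tail_small {c : ℕ → ℝ} (hc : Summable fun k => |c k|) {τ : ℝ} (hτ : 0 < τ) :
    ∃ k₀ : ℕ, Summable (fun j => if j < k₀ then (0 : ℝ) else |c j|) ∧
      ∑' j, (if j < k₀ then (0 : ℝ) else |c j|) ≤ τ := by
  have h1 := hc.hasSum.tendsto_sum_nat
  have h2 : ∀ᶠ n : ℕ in atTop, ∑' k, |c k| - τ < ∑ i ∈ Finset.range n, |c i| :=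
    h1.eventually (lt_mem_nhds (by linarith))
  obtain ⟨k₀, hk₀⟩ := h2.exists
  have hfin : Summable fun j => if j < k₀ then |c j| else (0 : ℝ) :=
    summable_of_finite_support ((Finset.finite_toSet (Finset.range k₀)).subset fun j hj => by
      by_contra hne
      have h3 : ¬ j < k₀ := by simpa using hne
      simp [h3] at hj)
  have hfin2 : ∑' j, (if j < k₀ then |c j| else (0 : ℝ)) = ∑ i ∈ Finset.range k₀, |c i| := by
    rw [tsum_eq_sum (s := Finset.range k₀)]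
    · exact Finset.sum_congr rfl fun j hj => if_pos (Finset.mem_range.1 hj)
    · intro j hj
      rw [if_neg (by simpa using hj)]
  have heq : (fun j => if j < k₀ then (0 : ℝ) else |c j|)
      = fun j => |c j| - (if j < k₀ then |c j| else (0 : ℝ)) := by
    funext j
    by_cases hj : j < k₀ <;> simp [hj]
  have hsub : Summable fun j => |c j| - (if j < k₀ then |c j| else (0 : ℝ)) := hc.sub hfin
  refine ⟨k₀, by rw [heq]; exact hsub, ?_⟩
  have h3 : ∑' j, (if j < k₀ then (0 : ℝ) else |c j|)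
      = ∑' j, (|c j| - (if j < k₀ then |c j| else (0 : ℝ))) := tsum_congr fun j => congrFun heq j
  rw [h3, Summable.tsum_sub hc hfin, hfin2]
  linarith

/-- The finite part of the sequence, rescaled. -/
noncomputable def truncC (c : ℕ → ℝ) (η : ℝ) (k₀ : ℕ) : ℕ → ℝ :=
  fun j => if j < k₀ then c j / (1 - η) else 0

/-- The tail of the sequence, rescaled. -/
noncomputable def tailC (c : ℕ → ℝ) (η : ℝ) (k₀ : ℕ) : ℕ → ℝ :=
  fun j => if j < k₀ then 0 else c j / η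

lemma truncC_nonneg {c : ℕ → ℝ} (hc0 : ∀ k, 0 ≤ c k) {η : ℝ} (hη : η < 1) (k₀ j : ℕ) :
    0 ≤ truncC c η k₀ j := by
  unfold truncC
  split_ifs
  · exact div_nonneg (hc0 j) (by linarith)
  · exact le_rfl

lemma truncC_supp (c : ℕ → ℝ) (η : ℝ) {k₀ j : ℕ} (hj : k₀ ≤ j) : truncC c η k₀ j = 0 := by
  unfold truncC
  rw [if_neg (by omega)]

lemma truncC_abs_le (c : ℕ → ℝ) {η : ℝ} (hη : η ≤ 1 / 2) (k₀ j : ℕ) :
    |truncC c η k₀ j| ≤ 2 * |c j| := by
  have hη5 : 0 < 1 - η := by linarith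
  unfold truncC
  split_ifs
  · rw [abs_div, abs_of_pos hη5, div_le_iff₀ hη5]
    have := abs_nonneg (c j)
    nlinarith
  · simp

lemma truncC_summable {c : ℕ → ℝ} (hcs : Summable fun k => |c k|) {η : ℝ} (hη : η ≤ 1 / 2)
    (k₀ : ℕ) : Summable fun j => |truncC c η k₀ j| :=
  Summable.of_nonneg_of_le (fun _ => abs_nonneg _) (truncC_abs_le c hη k₀) (hcs.mul_left 2)

lemma truncC_tsum_le {c : ℕ → ℝ} (hcs : Summable fun k => |c k|) {δ' η : ℝ} (hcn : ∑' k, |c k| ≤ δ')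
    (hη : η ≤ 1 / 2) (k₀ : ℕ) : ∑' j, |truncC c η k₀ j| ≤ 2 * δ' := by
  have h1 := (truncC_summable hcs hη k₀).tsum_le_tsum (truncC_abs_le c hη k₀) (hcs.mul_left 2)
  rw [tsum_mul_left] at h1
  linarith

/-- Comparison of the pressure of the truncated sequence with the pressure of the sequence. -/
lemma Pr_trunc_le {h δ' t η ζ₀ : ℝ} {c : ℕ → ℝ} {k₀ : ℕ} (hcs : Summable fun k => |c k|)
    (hcn : ∑' k, |c k| ≤ δ') (hh : 8 * δ' + 8 ≤ h) (ht0 : 0 < t) (ht1 : t ≤ 1 / 2) (hη0 : 0 < η)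
    (hη1 : η ≤ 1 / 2) (hη3 : 2 * η * δ' ≤ t / 2)
    (hTs : Summable (fun j => if j < k₀ then (0 : ℝ) else |c j|))
    (hT1 : ∑' j, (if j < k₀ then (0 : ℝ) else |c j|) ≤ t / 2) (hζ0 : 0 < ζ₀) (hζ2 : ζ₀ ≤ t) (ν : ℝ) :
    Pr (h - ζ₀) (truncC c η k₀) ν ≤ Pr h c ν + t * exp (ν + h / 2) := by
  have hδ' : 0 ≤ δ' := (tsum_nonneg fun _ => abs_nonneg _).trans hcn
  have hdom : InDom h c := ⟨hcs, by linarith⟩
  have hη5 : 0 < 1 - η := by linarith
  have hζt : ζ₀ / t ≤ 1 := (div_le_one ht0).2 hζ2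
  have hζt0 : 0 ≤ ζ₀ / t := by positivity
  set T : ℝ := ∑' j, (if j < k₀ then (0 : ℝ) else |c j|) with hTdef
  set c₂ : ℕ → ℝ := fun j => c j + (truncC c η k₀ j - c j) / t with hc₂
  set g₂ : ℕ → ℝ := fun j => |c j| + (2 * η * |c j| + (if j < k₀ then (0 : ℝ) else |c j|)) / t
    with hg₂
  have hg₂s : Summable g₂ :=
    hcs.add (((hcs.mul_left (2 * η)).add hTs).div_const t)
  have hg₂t : ∑' j, g₂ j ≤ δ' + 1 := by
    have h1 : ∑' j, g₂ j = ∑' j, |c j| + (2 * η * ∑' j, |c j| + T) / t := by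
      rw [hg₂, Summable.tsum_add hcs (((hcs.mul_left (2 * η)).add hTs).div_const t),
        tsum_div_const, Summable.tsum_add (hcs.mul_left (2 * η)) hTs, tsum_mul_left]
    rw [h1]
    have h2 : 2 * η * ∑' j, |c j| ≤ 2 * η * δ' :=
      mul_le_mul_of_nonneg_left hcn (by positivity)
    have h3 : (2 * η * ∑' j, |c j| + T) / t ≤ 1 := by
      rw [div_le_one ht0]
      linarith
    linarith
  have hc₂le : ∀ j, |c₂ j| ≤ g₂ j := by
    intro j
    simp only [hc₂, hg₂]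
    refine (abs_add_le _ _).trans (add_le_add le_rfl ?_)
    rw [abs_div, abs_of_pos ht0]
    refine div_le_div_of_nonneg_right ?_ ht0.le
    unfold truncC
    by_cases hj : j < k₀
    · simp only [hj, if_true, add_zero]
      have h1 : c j / (1 - η) - c j = c j * (η / (1 - η)) := by
        field_simp
        ring
      rw [h1, abs_mul, abs_of_pos (show 0 < η / (1 - η) by positivity)]
      have h2 : η / (1 - η) ≤ 2 * η := by
        rw [div_le_iff₀ hη5]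
        nlinarith
      have h3 := mul_le_mul_of_nonneg_left h2 (abs_nonneg (c j))
      linarith
    · simp only [hj, if_false, zero_sub, abs_neg]
      have : 0 ≤ 2 * η * |c j| := by positivity
      linarith
  have hdom₂ : InDom (h - ζ₀ / t) c₂ := InDom_of_le hg₂s hc₂le (by linarith)
  have hpert := Pr_perturb (μ := ν) (h' := h - ζ₀) (c' := truncC c η k₀) hdom hdom₂ ht0.le
    (by linarith) (by field_simp; ring) (fun k => by
      simp only [hc₂]
      field_simp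
      ring)
  have h2 : exp (ν + (h - ζ₀ / t) / 2) ≤ exp (ν + h / 2) :=
    Real.exp_le_exp.2 (by linarith)
  have h3 := mul_le_mul_of_nonneg_left h2 ht0.le
  linarith

/-- The three point Legendre bound at a differentiability point. -/
lemma legendre_three {f F : ℝ → ℝ} {μ ρ γ t₀ ε e ζ₀ ξ ρmax : ℝ} (ht₀ : 0 < t₀) (ht₀1 : t₀ ≤ 1)
    (hγ : 0 < γ) (hε : 0 < ε)
    (hf_up : f (μ + t₀) ≤ f μ + t₀ * ρ + t₀ * (γ / 2))
    (hf_lo : f (μ - t₀) ≤ f μ - t₀ * ρ + t₀ * (γ / 2))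
    (hε2 : (ε / 2) * ρmax ^ 2 ≤ t₀ * γ / 4) (he : (e / 2 - ε / 2) * ρmax ^ 2 ≤ ξ)
    (he0 : ε ≤ e) (hζ0 : 0 ≤ ζ₀) (hζ3 : ζ₀ * ρmax ≤ ξ)
    (hpert : ∀ ν, ν ≤ μ + 1 → F ν ≤ f ν + ξ) (ρ' : ℝ) (hρ' : ρ' ∈ Icc 0 ρmax) :
    ∃ μ'' ∈ ({μ, μ + t₀, μ - t₀} : Finset ℝ),
      F μ'' + ((μ + ζ₀) - μ'') * ρ' + (e / 2) * ρ' ^ 2 ≤ f μ + (ε / 2) * (ρ + γ) ^ 2 + 3 * ξ := by
  have hr0 := hρ'.1
  have hr1 := hρ'.2
  have hsq : ρ' ^ 2 ≤ ρmax ^ 2 := pow_le_pow_left₀ hr0 hr1 2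
  have hζρ : ζ₀ * ρ' ≤ ξ := (mul_le_mul_of_nonneg_left hr1 hζ0).trans hζ3
  have hep : (e / 2) * ρ' ^ 2 ≤ (ε / 2) * ρ' ^ 2 + ξ := by
    have h1 : (e / 2 - ε / 2) * ρ' ^ 2 ≤ (e / 2 - ε / 2) * ρmax ^ 2 :=
      mul_le_mul_of_nonneg_left hsq (by linarith)
    nlinarith
  have hep2 : (ε / 2) * ρ' ^ 2 ≤ t₀ * γ / 4 :=
    (mul_le_mul_of_nonneg_left hsq (by positivity)).trans hε2
  have hQnn : 0 ≤ (ε / 2) * (ρ + γ) ^ 2 := by positivity
  by_cases hc1 : ρ' ≤ ρ + γ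
  · by_cases hc2 : ρ - γ ≤ ρ'
    · refine ⟨μ, by simp, ?_⟩
      have h1 := hpert μ (by linarith)
      have h2 : ρ' ^ 2 ≤ (ρ + γ) ^ 2 := pow_le_pow_left₀ hr0 hc1 2
      have h3 : (ε / 2) * ρ' ^ 2 ≤ (ε / 2) * (ρ + γ) ^ 2 :=
        mul_le_mul_of_nonneg_left h2 (by positivity)
      have h4 : (μ + ζ₀ - μ) * ρ' = ζ₀ * ρ' := by ring
      rw [h4]
      linarith
    · push Not at hc2
      refine ⟨μ - t₀, by simp, ?_⟩
      have h1 := hpert (μ - t₀) (by linarith)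
      have h2 : t₀ * ρ' ≤ t₀ * (ρ - γ) := mul_le_mul_of_nonneg_left hc2.le ht₀.le
      have h4 : (μ + ζ₀ - (μ - t₀)) * ρ' = ζ₀ * ρ' + t₀ * ρ' := by ring
      have h5 : t₀ * (ρ - γ) = t₀ * ρ - t₀ * γ := by ring
      have h6 : t₀ * (γ / 2) = t₀ * γ / 2 := by ring
      rw [h4]
      have h7 : 0 < t₀ * γ := by positivity
      linarith
  · push Not at hc1
    refine ⟨μ + t₀, by simp, ?_⟩
    have h1 := hpert (μ + t₀) (by linarith)
    have h2 : t₀ * (ρ + γ) ≤ t₀ * ρ' := mul_le_mul_of_nonneg_left hc1.le ht₀.le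
    have h4 : (μ + ζ₀ - (μ + t₀)) * ρ' = ζ₀ * ρ' - t₀ * ρ' := by ring
    have h5 : t₀ * (ρ + γ) = t₀ * ρ + t₀ * γ := by ring
    have h6 : t₀ * (γ / 2) = t₀ * γ / 2 := by ring
    rw [h4]
    have h7 : 0 < t₀ * γ := by positivity
    linarith

/-- The convex splitting of a sequence into a finite part and a tail. -/
lemma Pr_split_le {h ε η μ : ℝ} {c : ℕ → ℝ} {k₀ j : ℕ} (hη0 : 0 < η) (hη1 : η ≤ 1 / 2)
    (hdom₁ : InDom h (fun i => truncC c η k₀ i + ε / (1 - η) * (if i = j then 1 else 0)))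
    (hdomT : InDom h (tailC c η k₀)) :
    Pr h (fun i => c i + ε * (if i = j then 1 else 0)) μ
      ≤ (1 - η) * Pr h (fun i => truncC c η k₀ i + ε / (1 - η) * (if i = j then 1 else 0)) μ
        + η * Pr h (tailC c η k₀) μ := by
  have hη5 : 0 < 1 - η := by linarith
  refine Pr_convex' hdom₁ hdomT hη5.le hη0.le (by ring) (by ring) (fun k => ?_) (by ring)
  unfold truncC tailC
  by_cases hk : k < k₀
  · simp only [hk, if_true]
    field_simp
    ring
  · simp only [hk, if_false]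
    field_simp
    ring

lemma InDom_tailC {h η : ℝ} {c : ℕ → ℝ} {k₀ : ℕ} (hη0 : 0 < η)
    (hTs : Summable (fun j => if j < k₀ then (0 : ℝ) else |c j|))
    (hT2 : ∑' j, (if j < k₀ then (0 : ℝ) else |c j|) ≤ η * h / 2) : InDom h (tailC c η k₀) := by
  refine InDom_of_le (g := fun j => (if j < k₀ then (0 : ℝ) else |c j|) / η)
    (hTs.div_const η) (fun i => ?_) ?_
  · unfold tailC
    by_cases hi : i < k₀
    · simp [hi]
    · simp only [hi, if_false]
      rw [abs_div, abs_of_pos hη0]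
  · rw [tsum_div_const, ← mul_div_assoc, div_le_iff₀ hη0]
    linarith

/-- Choice of the small constants. -/
lemma exists_eta {ε w t δ' E κ : ℝ} (hε0 : 0 < ε) (hw0 : 0 < w) (ht0 : 0 < t) (hδ' : 0 ≤ δ')
    (hE0 : 0 < E) (hκ : 0 < κ) :
    ∃ η : ℝ, 0 < η ∧ η ≤ 1 / 2 ∧ ε / (1 - η) < ε + w ∧ 2 * η * δ' ≤ t / 2 ∧ η * E ≤ κ := by
  have hw3 : 0 < w / (2 * (ε + w)) := by positivity
  have h80 : 0 < 8 * δ' + 8 := by linarith
  have h81 : 0 < t / (8 * δ' + 8) := by positivity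
  have h82 : 0 < κ / E := by positivity
  refine ⟨min (1 / 2) (min (w / (2 * (ε + w))) (min (t / (8 * δ' + 8)) (κ / E))),
    lt_min (by norm_num) (lt_min hw3 (lt_min h81 h82)), min_le_left _ _, ?_, ?_, ?_⟩
  · have hη : min (1 / 2) (min (w / (2 * (ε + w))) (min (t / (8 * δ' + 8)) (κ / E)))
        ≤ w / (2 * (ε + w)) := (min_le_right _ _).trans (min_le_left _ _)
    have hη' : min (1 / 2) (min (w / (2 * (ε + w))) (min (t / (8 * δ' + 8)) (κ / E)))
        ≤ 1 / 2 := min_le_left _ _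
    generalize min (1 / 2) (min (w / (2 * (ε + w))) (min (t / (8 * δ' + 8)) (κ / E))) = η at *
    have h1 : 0 < 1 - η := by linarith
    rw [div_lt_iff₀ h1]
    rw [le_div_iff₀ (by positivity)] at hη
    nlinarith [mul_pos hε0 hw0]
  · have hη : min (1 / 2) (min (w / (2 * (ε + w))) (min (t / (8 * δ' + 8)) (κ / E)))
        ≤ t / (8 * δ' + 8) := (min_le_right _ _).trans ((min_le_right _ _).trans (min_le_left _ _))
    have h0 : 0 ≤ min (1 / 2) (min (w / (2 * (ε + w))) (min (t / (8 * δ' + 8)) (κ / E))) :=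
      le_of_lt (lt_min (by norm_num) (lt_min hw3 (lt_min h81 h82)))
    generalize min (1 / 2) (min (w / (2 * (ε + w))) (min (t / (8 * δ' + 8)) (κ / E))) = η at *
    rw [le_div_iff₀ h80] at hη
    nlinarith [mul_nonneg h0 hδ']
  · have hη : min (1 / 2) (min (w / (2 * (ε + w))) (min (t / (8 * δ' + 8)) (κ / E)))
        ≤ κ / E := (min_le_right _ _).trans ((min_le_right _ _).trans (min_le_right _ _))
    generalize min (1 / 2) (min (w / (2 * (ε + w))) (min (t / (8 * δ' + 8)) (κ / E))) = η at *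
    calc η * E ≤ κ / E * E := by gcongr
      _ = κ := by field_simp

lemma exists_mul_le {a b c : ℝ} (hb : 0 < b) (hc : 0 < c) (hc2 : 0 ≤ a) :
    ∃ x : ℝ, 0 < x ∧ x ≤ b ∧ x * a ≤ c := by
  refine ⟨min b (c / (a + 1)), lt_min hb (by positivity), min_le_left _ _, ?_⟩
  have h1 : min b (c / (a + 1)) ≤ c / (a + 1) := min_le_right _ _
  have h0 : 0 ≤ min b (c / (a + 1)) := (lt_min hb (by positivity)).le
  calc min b (c / (a + 1)) * a ≤ c / (a + 1) * (a + 1) :=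
        mul_le_mul h1 (by linarith) hc2 (by positivity)
    _ = c := by field_simp

/-- **Long range attraction at a differentiability point of the pressure.** -/
theorem KU_star {h δ' μ ρ γ : ℝ} {c : ℕ → ℝ} (hc0 : ∀ k, 0 ≤ c k)
    (hcs : Summable fun k => |c k|) (hcn : ∑' k, |c k| ≤ δ') (hh : 8 * δ' + 8 ≤ h)
    (hd : HasDerivAt (fun ν => Pr h c ν) ρ μ) (hγ : 0 < γ) :
    ∃ ε, 0 < ε ∧ ε ≤ 1 ∧ ∀ᶠ j in atTop, Pr h (fun i => c i + ε * (if i = j then 1 else 0)) μ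
        ≤ Pr h c μ + (ε / 2) * (ρ + γ) ^ 2 + ε * γ := by
  have hδ' : 0 ≤ δ' := (tsum_nonneg fun _ => abs_nonneg _).trans hcn
  have hh0 : 0 < h := by linarith
  have hdom : InDom h c := ⟨hcs, by linarith⟩
  -- step one: the three activities
  obtain ⟨t₀, ht₀, ht₀1, hup, hlo⟩ := exists_slope_bounds hd (half_pos hγ)
  have hf_up : Pr h c (μ + t₀) ≤ Pr h c μ + t₀ * ρ + t₀ * (γ / 2) := by
    have h1 := (abs_lt.1 hup).2
    have h2 : t₀⁻¹ * (Pr h c (μ + t₀) - Pr h c μ) ≤ ρ + γ / 2 := by linarith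
    rw [inv_mul_le_iff₀ ht₀] at h2
    nlinarith
  have hf_lo : Pr h c (μ - t₀) ≤ Pr h c μ - t₀ * ρ + t₀ * (γ / 2) := by
    have h1 := (abs_lt.1 hlo).1
    have h2 : ρ - γ / 2 ≤ t₀⁻¹ * (Pr h c μ - Pr h c (μ - t₀)) := by linarith
    rw [le_inv_mul_iff₀ ht₀] at h2
    nlinarith
  -- step two: the maximal density
  obtain ⟨ρmax, hρ1, hρ2⟩ : ∃ ρmax : ℝ, 1 ≤ ρmax ∧
      |μ| + 3 + h / 2 + 2 * δ' ≤ (2 * δ' + 3) * ρmax := by
    refine ⟨max 1 ((|μ| + 3 + h / 2 + 2 * δ') / (2 * δ' + 3)), le_max_left _ _, ?_⟩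
    have h1 : (|μ| + 3 + h / 2 + 2 * δ') / (2 * δ' + 3)
        ≤ max 1 ((|μ| + 3 + h / 2 + 2 * δ') / (2 * δ' + 3)) := le_max_right _ _
    rw [div_le_iff₀ (by positivity)] at h1
    linarith
  have hρ0 : 0 < ρmax := by linarith
  have hρsq : 0 < ρmax ^ 2 := by positivity
  -- step three: the strength of the test perturbation
  obtain ⟨ε, hε0, hε1, hε2'⟩ := exists_mul_le (a := ρmax ^ 2) (b := 1 / 2) (c := t₀ * γ / 2)
    (by norm_num) (by positivity) hρsq.le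
  have hε2 : (ε / 2) * ρmax ^ 2 ≤ t₀ * γ / 4 := by linarith
  have hξ0 : 0 < ε * γ / 12 := by positivity
  obtain ⟨w, hw0, hw1, hw2'⟩ := exists_mul_le (a := ρmax ^ 2) (b := 1 / 2) (c := 2 * (ε * γ / 12))
    (by norm_num) (by positivity) hρsq.le
  have hw2 : ((ε + w) / 2 - ε / 2) * ρmax ^ 2 ≤ ε * γ / 12 := by linarith
  have hB0 : 0 < exp (μ + 1 + h / 2) := exp_pos _
  obtain ⟨t, ht0, ht1, htB⟩ := exists_mul_le (a := exp (μ + 1 + h / 2)) (b := 1 / 2)
    (c := ε * γ / 12) (by norm_num) hξ0 hB0.le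
  obtain ⟨η, hη0, hη1, hη2, hη3, hη4⟩ := exists_eta (E := exp (μ + h / 2)) (κ := ε * γ / 8)
    hε0 hw0 ht0 hδ' (exp_pos _) (by positivity)
  have hη5 : 0 < 1 - η := by linarith
  -- step five: truncation
  obtain ⟨k₀, hTs, hT⟩ := exists_tail_small hcs (τ := min (t / 2) (η * h / 2))
    (lt_min (by positivity) (by positivity))
  have hT1 := hT.trans (min_le_left _ _)
  have hT2 := hT.trans (min_le_right _ _)
  have hc's := truncC_summable hcs hη1 k₀
  have ha2 := truncC_tsum_le hcs hcn hη1 k₀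
  have ha0 : 0 ≤ ∑' j, |truncC c η k₀ j| := tsum_nonneg fun _ => abs_nonneg _
  -- step six: the core strength
  obtain ⟨ζ₀, hζ0, hζ1, hζ3⟩ := exists_mul_le (a := ρmax) (b := min 1 t) (c := ε * γ / 12)
    (lt_min (by norm_num) ht0) hξ0 hρ0.le
  have hζ1' : ζ₀ ≤ 1 := hζ1.trans (min_le_left _ _)
  have hζ2 : ζ₀ ≤ t := hζ1.trans (min_le_right _ _)
  have hdomc' : InDom (h - ζ₀) (truncC c η k₀) := ⟨hc's, by linarith⟩
  have hpert : ∀ ν, ν ≤ μ + 1 → Pr (h - ζ₀) (truncC c η k₀) ν ≤ Pr h c ν + ε * γ / 12 := by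
    intro ν hν
    have h1 := Pr_trunc_le (ν := ν) hcs hcn hh ht0 ht1 hη0 hη1 hη3 hTs hT1 hζ0 hζ2
    have h2 : exp (ν + h / 2) ≤ exp (μ + 1 + h / 2) := Real.exp_le_exp.2 (by linarith)
    have h3 := mul_le_mul_of_nonneg_left h2 ht0.le
    linarith
  have hMbd := legendre_three (f := fun ν => Pr h c ν) (F := Pr (h - ζ₀) (truncC c η k₀))
    (e := ε + w) (ζ₀ := ζ₀) (ξ := ε * γ / 12) (ρmax := ρmax) ht₀ ht₀1 hγ hε0 hf_up hf_lo hε2
    hw2 (by linarith) hζ0.le hζ3 hpert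
  have hP0 : 0 ≤ Pr h c μ := Pr_nonneg hdom μ
  have hQ0 : 0 ≤ Pr h c μ + (ε / 2) * (ρ + γ) ^ 2 + 3 * (ε * γ / 12) := by positivity
  have hκ1 : 2 * δ' + 3 ≤ (h - ζ₀ - 2 * ∑' j, |truncC c η k₀ j|) / 2 - (ε + w) / 2 := by linarith
  have hmain := kac_upper (h := h) (ζ₀ := ζ₀) (ε := ε / (1 - η)) (e := ε + w) (μ := μ)
    (θ := ε * γ / 12) (ρmax := ρmax) (c := truncC c η k₀) (k₀ := k₀)
    (fun j => truncC_nonneg hc0 (by linarith) k₀ j) (fun j hj => truncC_supp c η hj) hζ0 hdomc'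
    (by positivity) hη2 hQ0 hξ0 (by linarith) hρ1
    (by
      have h2 := mul_le_mul_of_nonneg_right hκ1 hρ0.le
      have h3 : μ ≤ |μ| := le_abs_self μ
      linarith) _ hMbd
  refine ⟨ε, hε0, by linarith, ?_⟩
  filter_upwards [hmain] with j hj
  have hε' : ε / (1 - η) ≤ 1 := by
    rw [div_le_one hη5]; linarith
  have hdom₁ : InDom h (fun i => truncC c η k₀ i + ε / (1 - η) * (if i = j then 1 else 0)) :=
    InDom_add_single hc's (by positivity) j (by linarith)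
  have hdomT : InDom h (tailC c η k₀) := InDom_tailC hη0 hTs hT2
  have hconv := Pr_split_le (μ := μ) (ε := ε) hη0 hη1 hdom₁ hdomT
  have h2 := Pr_le hdomT μ
  have h3 := mul_le_mul_of_nonneg_left h2 hη0.le
  have h6 := Pr_nonneg hdom₁ μ
  have h4 : (1 - η) * Pr h (fun i => truncC c η k₀ i + ε / (1 - η) * (if i = j then 1 else 0)) μ
      ≤ Pr h (fun i => truncC c η k₀ i + ε / (1 - η) * (if i = j then 1 else 0)) μ := by
    nlinarith
  have hpos : 0 < ε * γ := by positivity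
  linarith

end Vale.Agent.Lib.P171
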