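import Vale.Agent.Lib.P171.GP

/-!
# Gaussian kernels, cells and the Schur bound
-/

open MeasureTheory Set Real
open scoped ENNReal

namespace Vale.Agent.Lib.P171

/-- The one dimensional Gaussian density of standard deviation `σ`. -/
noncomputable def gs (σ t : ℝ) : ℝ := (σ * √(2 * π))⁻¹ * exp (-(t ^ 2) / (2 * σ ^ 2))

/-- The scale of the `k`-th kernel. -/
noncomputable def sig (k : ℕ) : ℝ := (k : ℝ) + 10

/-- The radial profile of the `k`-th kernel, normalised to integral one on `ℝ^3`. -/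
noncomputable def Kr (k : ℕ) (r : ℝ) : ℝ :=
  ((sig k * √(2 * π))⁻¹) ^ 3 * exp (-(r ^ 2) / (2 * (sig k) ^ 2))

lemma sig_pos (k : ℕ) : 0 < sig k := by unfold sig; positivity

lemma sig_ge (k : ℕ) : 10 ≤ sig k := by
  unfold sig
  have : (0 : ℝ) ≤ k := Nat.cast_nonneg k
  linarith

lemma sqrt_two_pi_pos : 0 < √(2 * π) := Real.sqrt_pos.2 (by positivity)

lemma sqrt_two_pi_ge : (5 / 2 : ℝ) ≤ √(2 * π) := by
  apply Real.le_sqrt_of_sq_le
  have := Real.pi_gt_d2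
  norm_num at this ⊢
  linarith

lemma gs_pos {σ : ℝ} (hσ : 0 < σ) (t : ℝ) : 0 < gs σ t := by
  unfold gs
  have := sqrt_two_pi_pos
  positivity

lemma gs_neg (σ t : ℝ) : gs σ (-t) = gs σ t := by
  unfold gs; rw [neg_sq]

lemma gs_abs (σ t : ℝ) : gs σ |t| = gs σ t := by
  unfold gs; rw [sq_abs]

lemma gs_zero (σ : ℝ) : gs σ 0 = (σ * √(2 * π))⁻¹ := by
  unfold gs; simp

lemma gs_anti {σ : ℝ} (hσ : 0 < σ) {t t' : ℝ} (h0 : 0 ≤ t) (h : t ≤ t') : gs σ t' ≤ gs σ t := by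
  unfold gs
  have h1 : 0 < (σ * √(2 * π))⁻¹ := by have := sqrt_two_pi_pos; positivity
  refine mul_le_mul_of_nonneg_left (Real.exp_le_exp.2 ?_) h1.le
  have h2 : t ^ 2 ≤ t' ^ 2 := by nlinarith
  have h3 : 0 < 2 * σ ^ 2 := by positivity
  exact div_le_div_of_nonneg_right (by linarith) h3.le

lemma gs_le_of_abs_le {σ : ℝ} (hσ : 0 < σ) {t t' : ℝ} (h : |t| ≤ |t'|) : gs σ t' ≤ gs σ t := by
  rw [← gs_abs σ t, ← gs_abs σ t']
  exact gs_anti hσ (abs_nonneg t) h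

lemma euclDist_sq (u v : R3) : euclDist u v ^ 2 = ∑ a, (u a - v a) ^ 2 := by
  unfold euclDist
  exact Real.sq_sqrt (Finset.sum_nonneg fun _ _ => sq_nonneg _)

lemma euclDist_nonneg (u v : R3) : 0 ≤ euclDist u v := Real.sqrt_nonneg _

lemma euclDist_comm (u v : R3) : euclDist u v = euclDist v u := by
  unfold euclDist
  congr 1
  refine Finset.sum_congr rfl fun a _ => ?_
  ring

lemma euclDist_add (u v t : R3) : euclDist (u + t) (v + t) = euclDist u v := by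
  unfold euclDist
  congr 1
  refine Finset.sum_congr rfl fun a _ => ?_
  simp

lemma continuous_euclDist : Continuous (fun p : R3 × R3 => euclDist p.1 p.2) := by
  unfold euclDist
  fun_prop

lemma Kr_euclDist (k : ℕ) (u v : R3) :
    Kr k (euclDist u v) = ∏ a, gs (sig k) (u a - v a) := by
  unfold Kr gs
  rw [euclDist_sq, Fin.prod_univ_three, Fin.sum_univ_three]
  have hs := (sig_pos k).ne'
  have : ∀ x y z : ℝ, -(x + y + z) / (2 * sig k ^ 2)
      = -x / (2 * sig k ^ 2) + -y / (2 * sig k ^ 2) + -z / (2 * sig k ^ 2) := by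
    intro x y z; ring
  rw [this, Real.exp_add, Real.exp_add]
  ring

lemma Kr_pos (k : ℕ) (r : ℝ) : 0 < Kr k r := by
  unfold Kr
  have := sig_pos k
  have := sqrt_two_pi_pos
  positivity

lemma Kr_zero (k : ℕ) : Kr k 0 = ((sig k * √(2 * π))⁻¹) ^ 3 := by
  unfold Kr; simp

lemma Kr_le_one (k : ℕ) (r : ℝ) : Kr k r ≤ 1 := by
  unfold Kr
  have h1 : sig k * √(2 * π) ≥ 1 := by
    have := sig_ge k
    have := sqrt_two_pi_ge
    nlinarith
  have h2 : (sig k * √(2 * π))⁻¹ ≤ 1 := inv_le_one_of_one_le₀ h1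
  have h3 : 0 ≤ (sig k * √(2 * π))⁻¹ := by
    have := sig_pos k
    have := sqrt_two_pi_pos
    positivity
  have h4 : exp (-(r ^ 2) / (2 * (sig k) ^ 2)) ≤ 1 := by
    rw [Real.exp_le_one_iff]
    have := sig_pos k
    exact div_nonpos_of_nonpos_of_nonneg (by nlinarith [sq_nonneg r]) (by positivity)
  have h5 : ((sig k * √(2 * π))⁻¹) ^ 3 ≤ 1 := pow_le_one₀ h3 h2
  have h6 : 0 ≤ exp (-(r ^ 2) / (2 * (sig k) ^ 2)) := (Real.exp_pos _).le
  nlinarith [pow_nonneg h3 3]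

lemma continuous_Kr (k : ℕ) : Continuous (Kr k) := by
  unfold Kr
  have := sig_pos k
  have h2 : (2 * sig k ^ 2) ≠ 0 := by positivity
  fun_prop

/-! ### The one dimensional sum bound -/

/-- The integral of the Gaussian on the half line. -/
lemma integral_gs_Ioi {σ : ℝ} (hσ : 0 < σ) : ∫ t in Ioi (0 : ℝ), gs σ t = 1 / 2 := by
  unfold gs
  rw [integral_const_mul]
  have h1 : ∀ t : ℝ, exp (-(t ^ 2) / (2 * σ ^ 2)) = exp (-(1 / (2 * σ ^ 2)) * t ^ 2) := by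
    intro t; congr 1; ring
  simp_rw [h1]
  rw [integral_gaussian_Ioi]
  have h2 : π / (1 / (2 * σ ^ 2)) = (σ * √(2 * π)) ^ 2 := by
    rw [mul_pow, Real.sq_sqrt (by positivity)]
    field_simp
  rw [h2, Real.sqrt_sq (by have := sqrt_two_pi_pos; positivity)]
  have h3 : σ * √(2 * π) ≠ 0 := by have := sqrt_two_pi_pos; positivity
  field_simp

lemma integrable_gs {σ : ℝ} (hσ : 0 < σ) : Integrable (gs σ) := by
  unfold gs
  have h1 : ∀ t : ℝ, exp (-(t ^ 2) / (2 * σ ^ 2)) = exp (-(1 / (2 * σ ^ 2)) * t ^ 2) := by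
    intro t; congr 1; ring
  simp_rw [h1]
  exact (integrable_exp_neg_mul_sq (by positivity)).const_mul _

/-- Integral comparison for the Gaussian on a lattice of mesh `s`. -/
lemma sum_gs_lattice_le {σ s : ℝ} (hσ : 0 < σ) (hs : 0 < s) (M : ℕ) :
    ∑ m ∈ Finset.range M, gs σ (s * ((m : ℝ) + 1)) ≤ 1 / (2 * s) := by
  have hanti : AntitoneOn (fun x : ℝ => gs σ (s * x)) (Icc (0 : ℝ) (0 + (M : ℝ))) := by
    intro x hx y _ hxy
    exact gs_anti hσ (mul_nonneg hs.le hx.1) (mul_le_mul_of_nonneg_left hxy hs.le)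
  have h1 := hanti.sum_le_integral
  simp only [zero_add, Nat.cast_add, Nat.cast_one] at h1
  refine le_trans h1 ?_
  have h2 : ∫ x in (0 : ℝ)..(M : ℝ), gs σ (s * x) = s⁻¹ * ∫ x in (0 : ℝ)..(s * M), gs σ x := by
    rw [intervalIntegral.integral_comp_mul_left _ hs.ne']
    simp
  rw [h2]
  have h3 : ∫ x in (0 : ℝ)..(s * M), gs σ x ≤ 1 / 2 := by
    rw [← integral_gs_Ioi hσ]
    rw [intervalIntegral.integral_of_le (by positivity)]
    refine setIntegral_mono_set (integrable_gs hσ).integrableOn ?_ ?_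
    · exact (ae_restrict_iff' measurableSet_Ioi).2 (Filter.Eventually.of_forall
        fun t _ => (gs_pos hσ t).le)
    · exact (Ioc_subset_Ioi_self).eventuallyLE
  have h4 : 0 < s⁻¹ := inv_pos.2 hs
  calc s⁻¹ * ∫ x in (0 : ℝ)..(s * M), gs σ x ≤ s⁻¹ * (1 / 2) :=
        mul_le_mul_of_nonneg_left h3 h4.le
    _ = 1 / (2 * s) := by field_simp

/-- The one dimensional comparison weight on integer cell differences. -/
noncomputable def bw (σ s : ℝ) (d : ℤ) : ℝ := gs σ (s * ((d.natAbs - 1 : ℕ) : ℝ))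

lemma bw_nonneg {σ : ℝ} (hσ : 0 < σ) (s : ℝ) (d : ℤ) : 0 ≤ bw σ s d := (gs_pos hσ _).le

lemma bw_neg (σ s : ℝ) (d : ℤ) : bw σ s (-d) = bw σ s d := by
  unfold bw; rw [Int.natAbs_neg]

lemma sum_bw_Icc {σ s : ℝ} (hσ : 0 < σ) (hs : 0 < s) (M : ℕ) :
    ∑ d ∈ Finset.Icc (-(M : ℤ)) M, bw σ s d ≤ 3 * gs σ 0 + 1 / s := by
  have hg := gs_pos hσ 0
  have key : ∀ M : ℕ, ∑ d ∈ Finset.Icc (-(M : ℤ)) M, bw σ s d
      = gs σ 0 + 2 * ∑ m ∈ Finset.range M, gs σ (s * ((m : ℕ) : ℝ)) := by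
    intro M
    induction M with
    | zero =>
      simp [bw]
    | succ n ih =>
      have hset : Finset.Icc (-((n + 1 : ℕ) : ℤ)) ((n + 1 : ℕ) : ℤ)
          = insert (-((n + 1 : ℕ) : ℤ)) (insert (((n + 1 : ℕ) : ℤ))
            (Finset.Icc (-(n : ℤ)) n)) := by
        ext x
        simp only [Finset.mem_Icc, Finset.mem_insert]
        push_cast
        omega
      rw [hset, Finset.sum_insert, Finset.sum_insert, ih, Finset.sum_range_succ]
      · have h1 : bw σ s (-((n + 1 : ℕ) : ℤ)) = gs σ (s * (n : ℝ)) := by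
          unfold bw
          rw [Int.natAbs_neg, Int.natAbs_natCast]
          simp
        have h2 : bw σ s (((n + 1 : ℕ) : ℤ)) = gs σ (s * (n : ℝ)) := by
          unfold bw
          rw [Int.natAbs_natCast]
          simp
        rw [h1, h2]
        ring
      · simp only [Finset.mem_Icc]
        push_cast
        omega
      · simp only [Finset.mem_insert, Finset.mem_Icc]
        push_cast
        omega
  rw [key]
  have h3 : ∑ m ∈ Finset.range M, gs σ (s * ((m : ℕ) : ℝ)) ≤ gs σ 0 + 1 / (2 * s) := by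
    cases M with
    | zero =>
      simp only [Finset.range_zero, Finset.sum_empty]
      positivity
    | succ n =>
      rw [Finset.sum_range_succ']
      have h4 := sum_gs_lattice_le hσ hs n
      have h5 : ∑ m ∈ Finset.range n, gs σ (s * (((m + 1 : ℕ) : ℕ) : ℝ))
          = ∑ m ∈ Finset.range n, gs σ (s * ((m : ℝ) + 1)) := by
        refine Finset.sum_congr rfl fun m _ => ?_
        push_cast
        rfl
      rw [h5]
      simp only [Nat.cast_zero, mul_zero]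
      linarith
  have h6 : 2 * (1 / (2 * s)) = 1 / s := by field_simp
  linarith

lemma sum_bw_le {σ s : ℝ} (hσ : 0 < σ) (hs : 0 < s) (F : Finset ℤ) :
    ∑ d ∈ F, bw σ s d ≤ 3 * gs σ 0 + 1 / s := by
  classical
  set M : ℕ := F.sup Int.natAbs with hM
  refine le_trans ?_ (sum_bw_Icc hσ hs M)
  refine Finset.sum_le_sum_of_subset_of_nonneg ?_ fun d _ _ => bw_nonneg hσ s d
  intro d hd
  have h1 : d.natAbs ≤ M := Finset.le_sup (f := Int.natAbs) hd
  simp only [Finset.mem_Icc]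
  omega

/-- The three dimensional comparison weight on integer cell differences. -/
noncomputable def bw3 (σ s : ℝ) (d : Fin 3 → ℤ) : ℝ := ∏ a, bw σ s (d a)

lemma bw3_nonneg {σ : ℝ} (hσ : 0 < σ) (s : ℝ) (d : Fin 3 → ℤ) : 0 ≤ bw3 σ s d :=
  Finset.prod_nonneg fun a _ => bw_nonneg hσ s (d a)

lemma bw3_neg (σ s : ℝ) (d : Fin 3 → ℤ) : bw3 σ s (-d) = bw3 σ s d := by
  unfold bw3
  refine Finset.prod_congr rfl fun a _ => ?_
  simp [bw_neg]

lemma sum_bw3_le {σ s : ℝ} (hσ : 0 < σ) (hs : 0 < s) (F : Finset (Fin 3 → ℤ)) :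
    ∑ d ∈ F, bw3 σ s d ≤ (3 * gs σ 0 + 1 / s) ^ 3 := by
  classical
  set G : Fin 3 → Finset ℤ := fun a => F.image (fun d => d a) with hG
  have hsub : F ⊆ Fintype.piFinset G := by
    intro d hd
    rw [Fintype.mem_piFinset]
    intro a
    exact Finset.mem_image_of_mem _ hd
  have h1 : ∑ d ∈ F, bw3 σ s d ≤ ∑ d ∈ Fintype.piFinset G, bw3 σ s d :=
    Finset.sum_le_sum_of_subset_of_nonneg hsub fun d _ _ => bw3_nonneg hσ s d
  refine le_trans h1 ?_
  unfold bw3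
  rw [← Finset.prod_univ_sum G (fun _ d => bw σ s d)]
  have h2 : ∀ a ∈ (Finset.univ : Finset (Fin 3)), ∑ d ∈ G a, bw σ s d ≤ 3 * gs σ 0 + 1 / s :=
    fun a _ => sum_bw_le hσ hs (G a)
  have h3 : ∀ a ∈ (Finset.univ : Finset (Fin 3)), 0 ≤ ∑ d ∈ G a, bw σ s d :=
    fun a _ => Finset.sum_nonneg fun d _ => bw_nonneg hσ s d
  calc ∏ a, ∑ d ∈ G a, bw σ s d ≤ ∏ _a : Fin 3, (3 * gs σ 0 + 1 / s) :=
        Finset.prod_le_prod h3 h2
    _ = (3 * gs σ 0 + 1 / s) ^ 3 := by simp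

/-! ### Cells and the Schur bound -/

/-- The cell of mesh `s`, shifted by `τ`, containing the point `u`. -/
noncomputable def cellIdx (s : ℕ) (τ : Fin 3 → ℕ) (u : R3) : Fin 3 → ℤ :=
  fun a => ⌊(u a + (τ a : ℝ)) / (s : ℝ)⌋

/-- Schur's bound for a kernel on integer cells, via `2 n n' ≤ n^2 + n'^2`. -/
lemma schur_pairs {ι : Type} [Fintype ι] (C : ι → (Fin 3 → ℤ)) (w : (Fin 3 → ℤ) → ℝ)
    (hw0 : ∀ d, 0 ≤ w d) (hsymm : ∀ d, w (-d) = w d) (A : ℝ)
    (hA : ∀ F : Finset (Fin 3 → ℤ), ∑ d ∈ F, w d ≤ A) :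
    ∑ i, ∑ j, w (C i - C j) ≤ A * ∑ i, ∑ j, (if C i = C j then (1 : ℝ) else 0) := by
  classical
  set 𝒞 : Finset (Fin 3 → ℤ) := Finset.univ.image C with h𝒞
  set n : (Fin 3 → ℤ) → ℝ := fun c => ((Finset.univ.filter fun i => C i = c).card : ℝ) with hn
  have hn0 : ∀ c, 0 ≤ n c := fun c => Nat.cast_nonneg _
  have hcomp : ∀ f : (Fin 3 → ℤ) → ℝ, ∑ i, f (C i) = ∑ c ∈ 𝒞, n c * f c := by
    intro f
    rw [Finset.sum_comp f C]
    simp only [nsmul_eq_mul]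
    rfl
  have hL : ∑ i, ∑ j, w (C i - C j) = ∑ c ∈ 𝒞, ∑ c' ∈ 𝒞, n c * n c' * w (c - c') := by
    have h1 : ∀ i, ∑ j, w (C i - C j) = ∑ c' ∈ 𝒞, n c' * w (C i - c') := fun i =>
      hcomp (fun c' => w (C i - c'))
    simp_rw [h1]
    rw [hcomp (fun c => ∑ c' ∈ 𝒞, n c' * w (c - c'))]
    refine Finset.sum_congr rfl fun c _ => ?_
    rw [Finset.mul_sum]
    refine Finset.sum_congr rfl fun c' _ => ?_
    ring
  have hR : ∑ i, ∑ j, (if C i = C j then (1 : ℝ) else 0) = ∑ c ∈ 𝒞, n c ^ 2 := by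
    have h1 : ∀ i, ∑ j, (if C i = C j then (1 : ℝ) else 0)
        = ∑ c' ∈ 𝒞, n c' * (if C i = c' then (1 : ℝ) else 0) := fun i =>
      hcomp (fun c' => if C i = c' then (1 : ℝ) else 0)
    simp_rw [h1]
    rw [hcomp (fun c => ∑ c' ∈ 𝒞, n c' * (if c = c' then (1 : ℝ) else 0))]
    refine Finset.sum_congr rfl fun c hc => ?_
    have : ∑ c' ∈ 𝒞, n c' * (if c = c' then (1 : ℝ) else 0) = n c := by
      rw [Finset.sum_eq_single c]
      · simp
      · intro b _ hb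
        simp [hb.symm]
      · intro h; exact absurd hc h
    rw [this]
    ring
  have hrow : ∀ c, ∑ c' ∈ 𝒞, w (c - c') ≤ A := by
    intro c
    have hinj : Function.Injective (fun c' : Fin 3 → ℤ => c - c') := fun x y h => by
      simpa using h
    have := hA (𝒞.image fun c' => c - c')
    rwa [Finset.sum_image (fun x _ y _ h => hinj h)] at this
  rw [hL, hR]
  have h2 : ∑ c ∈ 𝒞, ∑ c' ∈ 𝒞, n c * n c' * w (c - c')
      ≤ ∑ c ∈ 𝒞, ∑ c' ∈ 𝒞, (n c ^ 2 / 2 + n c' ^ 2 / 2) * w (c - c') := by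
    refine Finset.sum_le_sum fun c _ => Finset.sum_le_sum fun c' _ => ?_
    refine mul_le_mul_of_nonneg_right ?_ (hw0 _)
    nlinarith [sq_nonneg (n c - n c')]
  have h3 : ∑ c ∈ 𝒞, ∑ c' ∈ 𝒞, (n c' ^ 2 / 2) * w (c - c')
      = ∑ c ∈ 𝒞, ∑ c' ∈ 𝒞, (n c ^ 2 / 2) * w (c - c') := by
    rw [Finset.sum_comm]
    refine Finset.sum_congr rfl fun c _ => Finset.sum_congr rfl fun c' _ => ?_
    rw [← hsymm (c' - c), neg_sub]
  have h4 : ∑ c ∈ 𝒞, ∑ c' ∈ 𝒞, (n c ^ 2 / 2 + n c' ^ 2 / 2) * w (c - c')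
      = ∑ c ∈ 𝒞, n c ^ 2 * ∑ c' ∈ 𝒞, w (c - c') := by
    simp_rw [add_mul, Finset.sum_add_distrib]
    rw [h3, ← Finset.sum_add_distrib]
    refine Finset.sum_congr rfl fun c _ => ?_
    rw [← Finset.sum_add_distrib, Finset.mul_sum]
    refine Finset.sum_congr rfl fun c' _ => ?_
    ring
  calc ∑ c ∈ 𝒞, ∑ c' ∈ 𝒞, n c * n c' * w (c - c') ≤ ∑ c ∈ 𝒞, n c ^ 2 * ∑ c' ∈ 𝒞, w (c - c') := by
        rw [← h4]; exact h2
    _ ≤ ∑ c ∈ 𝒞, n c ^ 2 * A :=
        Finset.sum_le_sum fun c _ => mul_le_mul_of_nonneg_left (hrow c) (sq_nonneg _)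
    _ = A * ∑ c ∈ 𝒞, n c ^ 2 := by rw [Finset.mul_sum]; exact Finset.sum_congr rfl fun c _ => by ring

/-- Two points whose cells differ by `d` are at distance at least `s (|d| - 1)`. -/
lemma abs_sub_ge_of_floor {s u v t : ℝ} (hs : 0 < s) :
    s * (((⌊(u + t) / s⌋ - ⌊(v + t) / s⌋).natAbs - 1 : ℕ) : ℝ) ≤ |u - v| := by
  set p := (u + t) / s with hp
  set q := (v + t) / s with hq
  have h1 : u - v = s * (p - q) := by
    rw [hp, hq]; field_simp; ring
  rw [h1, abs_mul, abs_of_pos hs]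
  refine mul_le_mul_of_nonneg_left ?_ hs.le
  set d := ⌊p⌋ - ⌊q⌋ with hd
  have hp1 := Int.floor_le p
  have hp2 := Int.lt_floor_add_one p
  have hq1 := Int.floor_le q
  have hq2 := Int.lt_floor_add_one q
  have hd' : (d : ℝ) = (⌊p⌋ : ℝ) - (⌊q⌋ : ℝ) := by rw [hd]; push_cast; rfl
  have h3 : (d : ℝ) - 1 ≤ p - q := by rw [hd']; linarith
  have h4 : p - q ≤ (d : ℝ) + 1 := by rw [hd']; linarith
  rcases Nat.eq_zero_or_pos d.natAbs with h0 | hpos
  · have : (d.natAbs - 1 : ℕ) = 0 := by omega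
    rw [this]; simp
  · have hcast : ((d.natAbs - 1 : ℕ) : ℝ) = |(d : ℝ)| - 1 := by
      have h5 : ((d.natAbs : ℕ) : ℝ) = |(d : ℝ)| := by
        rw [Nat.cast_natAbs]; push_cast; rfl
      rw [Nat.cast_sub hpos, h5]; simp
    rw [hcast]
    rcases abs_cases (d : ℝ) with ⟨h6, _⟩ | ⟨h6, _⟩
    · rw [h6]; exact le_trans h3 (le_abs_self _)
    · rw [h6]
      have := neg_le_abs (p - q)
      linarith

/-- The Gaussian kernel is dominated by the comparison weight of the cell difference. -/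
lemma prod_gs_le_bw3 {σ : ℝ} (hσ : 0 < σ) {s : ℕ} (hs : 0 < s) (τ : Fin 3 → ℕ) (u v : R3) :
    ∏ a, gs σ (u a - v a) ≤ bw3 σ s (cellIdx s τ u - cellIdx s τ v) := by
  unfold bw3
  refine Finset.prod_le_prod (fun a _ => (gs_pos hσ _).le) fun a _ => ?_
  unfold bw
  refine gs_le_of_abs_le hσ ?_
  have hs' : (0 : ℝ) < s := by exact_mod_cast hs
  have := abs_sub_ge_of_floor (s := s) (u := u a) (v := v a) (t := τ a) hs'
  have h2 : (0 : ℝ) ≤ (s : ℝ) * (((⌊(u a + (τ a : ℝ)) / s⌋ - ⌊(v a + (τ a : ℝ)) / s⌋).natAbs - 1 : ℕ) : ℝ) :=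
    by positivity
  rw [abs_of_nonneg (a := (s : ℝ) * _) (by simpa [cellIdx] using h2)]
  simpa [cellIdx] using this

/-- The Schur bound for Gaussian kernels in terms of the number of pairs in a common cell. -/
theorem schur_gauss {σ : ℝ} (hσ : 0 < σ) {s : ℕ} (hs : 0 < s) (τ : Fin 3 → ℕ) {ι : Type}
    [Fintype ι] (x : ι → R3) :
    ∑ i, ∑ j, ∏ a, gs σ (x i a - x j a) ≤ (3 * gs σ 0 + 1 / (s : ℝ)) ^ 3 *
      ∑ i, ∑ j, (if cellIdx s τ (x i) = cellIdx s τ (x j) then (1 : ℝ) else 0) := by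
  have hs' : (0 : ℝ) < s := by exact_mod_cast hs
  calc ∑ i, ∑ j, ∏ a, gs σ (x i a - x j a)
      ≤ ∑ i, ∑ j, bw3 σ s (cellIdx s τ (x i) - cellIdx s τ (x j)) :=
        Finset.sum_le_sum fun i _ => Finset.sum_le_sum fun j _ => prod_gs_le_bw3 hσ hs τ _ _
    _ ≤ _ := schur_pairs (fun i => cellIdx s τ (x i)) (bw3 σ s) (bw3_nonneg hσ s)
        (bw3_neg σ s) _ (sum_bw3_le hσ hs')

end Vale.Agent.Lib.P171
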