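import Vale.Agent.Lib.P171.Kac

/-!
# Positive definiteness of the Gaussian kernel and the bound for long range repulsion
-/

open MeasureTheory Set Real Filter
open scoped ENNReal Topology

namespace Vale.Agent.Lib.P171

lemma gs_mul_gs_eq {τ : ℝ} (hτ : 0 < τ) (a b t : ℝ) :
    gs τ (a - t) * gs τ (b - t) = ((τ * √(2 * π))⁻¹) ^ 2 * exp (-(a - b) ^ 2 / (4 * τ ^ 2)) *
      exp (-(1 / τ ^ 2) * (t - (a + b) / 2) ^ 2) := by
  unfold gs
  have h1 : exp (-(a - t) ^ 2 / (2 * τ ^ 2)) * exp (-(b - t) ^ 2 / (2 * τ ^ 2))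
      = exp (-(a - b) ^ 2 / (4 * τ ^ 2)) * exp (-(1 / τ ^ 2) * (t - (a + b) / 2) ^ 2) := by
    rw [← Real.exp_add, ← Real.exp_add]
    congr 1
    field_simp
    ring
  calc (τ * √(2 * π))⁻¹ * exp (-(a - t) ^ 2 / (2 * τ ^ 2)) *
        ((τ * √(2 * π))⁻¹ * exp (-(b - t) ^ 2 / (2 * τ ^ 2)))
      = ((τ * √(2 * π))⁻¹) ^ 2 * (exp (-(a - t) ^ 2 / (2 * τ ^ 2)) *
          exp (-(b - t) ^ 2 / (2 * τ ^ 2))) := by ring
    _ = _ := by rw [h1]; ring

lemma integrable_gs_mul_gs {τ : ℝ} (hτ : 0 < τ) (a b : ℝ) :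
    Integrable fun t => gs τ (a - t) * gs τ (b - t) := by
  simp_rw [gs_mul_gs_eq hτ]
  refine Integrable.const_mul ?_ _
  have h1 : Integrable fun t : ℝ => exp (-(1 / τ ^ 2) * t ^ 2) :=
    integrable_exp_neg_mul_sq (by positivity)
  exact h1.comp_sub_right ((a + b) / 2)

/-- The convolution identity for Gaussian densities. -/
lemma conv_gs {τ : ℝ} (hτ : 0 < τ) (a b : ℝ) :
    ∫ t, gs τ (a - t) * gs τ (b - t) = gs (√2 * τ) (a - b) := by
  simp_rw [gs_mul_gs_eq hτ]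
  rw [integral_const_mul]
  have h1 : ∫ t : ℝ, exp (-(1 / τ ^ 2) * (t - (a + b) / 2) ^ 2) = √(π / (1 / τ ^ 2)) := by
    rw [integral_sub_right_eq_self (fun t : ℝ => exp (-(1 / τ ^ 2) * t ^ 2))]
    exact integral_gaussian _
  rw [h1]
  unfold gs
  have hsp : 0 < √π := Real.sqrt_pos.2 Real.pi_pos
  have hs2 : 0 < √2 := by positivity
  have h2 : √(2 * π) = √2 * √π := Real.sqrt_mul (by norm_num) _
  have h3 : √(π / (1 / τ ^ 2)) = √π * τ := by
    rw [show π / (1 / τ ^ 2) = π * τ ^ 2 by field_simp, Real.sqrt_mul Real.pi_pos.le,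
      Real.sqrt_sq hτ.le]
  have h4 : (√2) ^ 2 = 2 := Real.sq_sqrt (by norm_num)
  have h5 : exp (-(a - b) ^ 2 / (4 * τ ^ 2)) = exp (-((a - b) ^ 2) / (2 * (√2 * τ) ^ 2)) := by
    congr 1
    rw [mul_pow, h4]
    ring_nf
  rw [h3, h2, h5]
  have h6 : (√2 * τ * (√2 * √π))⁻¹ = ((τ * (√2 * √π))⁻¹) ^ 2 * (√π * τ) := by
    have h7 : √2 * τ * (√2 * √π) = 2 * (τ * √π) := by
      calc √2 * τ * (√2 * √π) = (√2) ^ 2 * (τ * √π) := by ring
        _ = _ := by rw [h4]
    rw [h7]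
    have h8 : (τ * (√2 * √π)) ^ 2 = 2 * (τ * √π) ^ 2 := by
      calc (τ * (√2 * √π)) ^ 2 = (√2) ^ 2 * (τ * √π) ^ 2 := by ring
        _ = _ := by rw [h4]
    rw [inv_pow, h8]
    field_simp
  rw [h6]
  ring

/-- The product Gaussian centred at `u`, as a function of `z`. -/
noncomputable def fz (τ : ℝ) (u z : R3) : ℝ := ∏ a, gs τ (u a - z a)

lemma fz_pos {τ : ℝ} (hτ : 0 < τ) (u z : R3) : 0 < fz τ u z :=
  Finset.prod_pos fun _ _ => gs_pos hτ _

lemma integrable_fz {τ : ℝ} (hτ : 0 < τ) (u : R3) : Integrable (fz τ u) := by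
  have h1 : ∀ a : Fin 3, Integrable (fun t => gs τ (u a - t)) volume := fun a =>
    (integrable_gs hτ).comp_sub_left (u a)
  exact Integrable.fintype_prod (f := fun a t => gs τ (u a - t)) (μ := fun _ => volume) h1

lemma fz_mul (τ : ℝ) (u v z : R3) :
    fz τ u z * fz τ v z = ∏ a, (gs τ (u a - z a) * gs τ (v a - z a)) := by
  unfold fz
  rw [Finset.prod_mul_distrib]

lemma integrable_fz_mul {τ : ℝ} (hτ : 0 < τ) (u v : R3) :
    Integrable fun z => fz τ u z * fz τ v z := by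
  simp_rw [fz_mul]
  exact Integrable.fintype_prod (f := fun a t => gs τ (u a - t) * gs τ (v a - t))
    (μ := fun _ => volume) fun a => integrable_gs_mul_gs hτ _ _

lemma integral_fz_mul {τ : ℝ} (hτ : 0 < τ) (u v : R3) :
    ∫ z, fz τ u z * fz τ v z = ∏ a, gs (√2 * τ) (u a - v a) := by
  simp_rw [fz_mul]
  rw [integral_fintype_prod_volume_eq_prod (E := fun _ : Fin 3 => ℝ)
    (fun a t => gs τ (u a - t) * gs τ (v a - t))]
  exact Finset.prod_congr rfl fun a _ => conv_gs hτ _ _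

lemma setIntegral_fz (τ : ℝ) (u : R3) (I : Set ℝ) :
    ∫ z in Set.pi Set.univ (fun _ : Fin 3 => I), fz τ u z = ∏ a, ∫ t in I, gs τ (u a - t) := by
  have h1 : (volume : Measure R3).restrict (Set.pi Set.univ (fun _ : Fin 3 => I))
      = Measure.pi (fun _ => volume.restrict I) := by
    rw [volume_pi, Measure.restrict_pi_pi]
  rw [h1]
  exact integral_fintype_prod_eq_prod (E := fun _ : Fin 3 => ℝ) (fun a t => gs τ (u a - t))

/-- The one dimensional mass that a Gaussian centred in `[0,L]` gives to `[-M, L+M]`. -/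
lemma setIntegral_gs_ge {τ : ℝ} (hτ : 0 < τ) {u L M : ℝ} (hM : 0 ≤ M) (hu0 : 0 ≤ u) (huL : u ≤ L) :
    ∫ t in (-M)..M, gs τ t ≤ ∫ t in Icc (-M) (L + M), gs τ (u - t) := by
  have h1 : -M ≤ L + M := by linarith
  rw [integral_Icc_eq_integral_Ioc, ← intervalIntegral.integral_of_le h1,
    intervalIntegral.integral_comp_sub_left (fun t => gs τ t)]
  refine intervalIntegral.integral_mono_interval (by linarith) (by linarith) (by linarith) ?_
    ((integrable_gs hτ).intervalIntegrable)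
  exact Filter.Eventually.of_forall fun t => (gs_pos hτ t).le

lemma integral_gs_eq_one {τ : ℝ} (hτ : 0 < τ) : ∫ t, gs τ t = 1 := by
  unfold gs
  rw [integral_const_mul]
  have h1 : ∀ t : ℝ, exp (-(t ^ 2) / (2 * τ ^ 2)) = exp (-(1 / (2 * τ ^ 2)) * t ^ 2) := by
    intro t; congr 1; ring
  simp_rw [h1]
  rw [integral_gaussian]
  have h2 : π / (1 / (2 * τ ^ 2)) = (τ * √(2 * π)) ^ 2 := by
    rw [mul_pow, Real.sq_sqrt (by positivity)]
    field_simp
  rw [h2, Real.sqrt_sq (by have := sqrt_two_pi_pos; positivity)]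
  have h3 : τ * √(2 * π) ≠ 0 := by have := sqrt_two_pi_pos; positivity
  field_simp

lemma tendsto_mass {τ : ℝ} (hτ : 0 < τ) :
    Tendsto (fun M : ℝ => ∫ t in (-M)..M, gs τ t) atTop (𝓝 1) := by
  rw [← integral_gs_eq_one hτ]
  exact intervalIntegral_tendsto_integral (integrable_gs hτ) tendsto_neg_atTop_atBot tendsto_id

lemma mass_nonneg {τ : ℝ} (hτ : 0 < τ) {M : ℝ} (hM : 0 ≤ M) : 0 ≤ ∫ t in (-M)..M, gs τ t :=
  intervalIntegral.integral_nonneg (by linarith) fun t _ => (gs_pos hτ t).le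

/-- The lower bound for the kernel sum by completing the square. -/
theorem sum_pairs_ge {τ m L M : ℝ} (hτ : 0 < τ) (hm : 0 ≤ m) (hL : 0 ≤ L) (hM : 0 ≤ M)
    {ι : Type} [Fintype ι] (x : ι → R3) (hx : ∀ i, x i ∈ cube L) :
    2 * m * (∫ t in (-M)..M, gs τ t) ^ 3 * (Fintype.card ι : ℝ) - m ^ 2 * (L + 2 * M) ^ 3
      ≤ ∑ i, ∑ j, ∏ a, gs (√2 * τ) (x i a - x j a) := by
  classical
  set ιm := ∫ t in (-M)..M, gs τ t with hιm
  have hιm0 : 0 ≤ ιm := mass_nonneg hτ hM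
  set Y : R3 → ℝ := fun z => ∑ i, fz τ (x i) z with hY
  set D : Set R3 := Set.pi Set.univ (fun _ : Fin 3 => Icc (-M) (L + M)) with hD
  have hDm : MeasurableSet D := MeasurableSet.univ_pi fun _ => measurableSet_Icc
  have hvol : (volume : Measure R3).real D = (L + 2 * M) ^ 3 := by
    rw [Measure.real, hD, volume_pi_pi]
    simp only [Real.volume_Icc, Finset.prod_const, Finset.card_univ, Fintype.card_fin]
    rw [ENNReal.toReal_pow, ENNReal.toReal_ofReal (by linarith)]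
    ring
  have hvolf : volume D ≠ ⊤ := by
    rw [hD, volume_pi_pi]
    simp [ENNReal.prod_ne_top]
  have hYint : Integrable Y := integrable_finset_sum _ fun i _ => integrable_fz hτ (x i)
  have hY2 : ∀ z, Y z ^ 2 = ∑ i, ∑ j, fz τ (x i) z * fz τ (x j) z := by
    intro z
    rw [hY, sq, Finset.sum_mul_sum]
  have hY2int : Integrable fun z => Y z ^ 2 := by
    simp_rw [hY2]
    exact integrable_finset_sum _ fun i _ => integrable_finset_sum _ fun j _ =>
      integrable_fz_mul hτ _ _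
  have hY2val : ∫ z, Y z ^ 2 = ∑ i, ∑ j, ∏ a, gs (√2 * τ) (x i a - x j a) := by
    simp_rw [hY2]
    rw [integral_finset_sum _ fun i _ => integrable_finset_sum _ fun j _ =>
      integrable_fz_mul hτ _ _]
    refine Finset.sum_congr rfl fun i _ => ?_
    rw [integral_finset_sum _ fun j _ => integrable_fz_mul hτ _ _]
    exact Finset.sum_congr rfl fun j _ => integral_fz_mul hτ _ _
  -- the mass of each Gaussian in `D`
  have hmass : ∀ i, ιm ^ 3 ≤ ∫ z in D, fz τ (x i) z := by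
    intro i
    rw [hD, setIntegral_fz]
    have h1 : ∀ a ∈ (Finset.univ : Finset (Fin 3)), ιm ≤ ∫ t in Icc (-M) (L + M), gs τ (x i a - t) :=
      fun a _ => setIntegral_gs_ge hτ hM (hx i a).1 (hx i a).2
    calc ιm ^ 3 = ∏ _a : Fin 3, ιm := by simp
      _ ≤ _ := Finset.prod_le_prod (fun _ _ => hιm0) h1
  have hYD : ∫ z in D, Y z = ∑ i, ∫ z in D, fz τ (x i) z :=
    integral_finset_sum _ fun i _ => (integrable_fz hτ (x i)).integrableOn
  have hYDge : (Fintype.card ι : ℝ) * ιm ^ 3 ≤ ∫ z in D, Y z := by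
    rw [hYD]
    calc (Fintype.card ι : ℝ) * ιm ^ 3 = ∑ _i : ι, ιm ^ 3 := by simp
      _ ≤ _ := Finset.sum_le_sum fun i _ => hmass i
  have hconstInt : IntegrableOn (fun _ : R3 => m ^ 2) D := integrableOn_const hvolf
  have hlinInt : IntegrableOn (fun z => 2 * m * Y z) D := (hYint.const_mul _).integrableOn
  have hDval : ∫ z in D, (2 * m * Y z - m ^ 2) = 2 * m * (∫ z in D, Y z) - m ^ 2 * (L + 2 * M) ^ 3 := by
    rw [integral_sub hlinInt hconstInt, integral_const_mul, setIntegral_const, hvol, smul_eq_mul]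
    ring
  have hle1 : ∫ z in D, (2 * m * Y z - m ^ 2) ≤ ∫ z in D, Y z ^ 2 := by
    refine setIntegral_mono (hlinInt.sub hconstInt) hY2int.integrableOn fun z => ?_
    nlinarith [sq_nonneg (Y z - m)]
  have hle2 : ∫ z in D, Y z ^ 2 ≤ ∫ z, Y z ^ 2 :=
    setIntegral_le_integral hY2int (Filter.Eventually.of_forall fun z => sq_nonneg (Y z))
  rw [← hY2val]
  have h3 : 2 * m * ((Fintype.card ι : ℝ) * ιm ^ 3) ≤ 2 * m * ∫ z in D, Y z :=
    mul_le_mul_of_nonneg_left hYDge (by positivity)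
  nlinarith

/-- A pointwise bound on the weights gives a bound on the grand partition sums. -/
lemma GP_le_const_mul {ψ₁ ψ₂ : R3 → R3 → ℝ} {μ₁ μ₂ : ℝ} {D : Set R3} (hD : MeasurableSet D)
    {A : ℝ≥0∞} (hA : A ≠ ⊤)
    (hpt : ∀ (N : ℕ) (x : Fin N → R3), (∀ i, x i ∈ D) → wt ψ₁ μ₁ x ≤ A * wt ψ₂ μ₂ x) :
    GP ψ₁ μ₁ D ≤ A * GP ψ₂ μ₂ D := by
  unfold GP
  rw [← ENNReal.tsum_mul_left]
  refine ENNReal.tsum_le_tsum fun N => ?_
  rw [mul_left_comm]
  refine mul_le_mul_right ?_ _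
  unfold intD
  rw [← lintegral_const_mul' _ _ hA]
  exact setLIntegral_mono' (measurableSet_pi_const hD) fun x hx =>
    hpt N x fun i => hx i (Set.mem_univ i)

/-- The scale of the auxiliary Gaussian whose convolution square is the `k`-th kernel. -/
noncomputable def tauk (k : ℕ) : ℝ := sig k / √2

lemma tauk_pos (k : ℕ) : 0 < tauk k := by
  unfold tauk
  have := sig_pos k
  positivity

lemma sqrt_two_mul_tauk (k : ℕ) : √2 * tauk k = sig k := by
  unfold tauk
  have : √2 ≠ 0 := by positivity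
  field_simp

/-- The bound for a long range repulsion in terms of the pure core potential. -/
theorem Pr_repulsive {h ε m M : ℝ} (hh : 0 ≤ h) (hε : 0 ≤ ε) (hm : 0 ≤ m) (hM : 0 ≤ M)
    (k : ℕ) (ν : ℝ) :
    Pr h (fun j => 0 + (-ε) * (if j = k then 1 else 0)) ν
      ≤ Pr h (fun _ => 0) (ν - ε * m * (∫ t in (-M)..M, gs (tauk k) t) ^ 3 + (ε / 2) * Kr k 0)
        + (ε / 2) * m ^ 2 := by
  set ιm := ∫ t in (-M)..M, gs (tauk k) t with hιm
  set ν' := ν - ε * m * ιm ^ 3 + (ε / 2) * Kr k 0 with hν'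
  refine le_of_forall_pos_le_add fun θ hθ => ?_
  set Q := (ε / 2) * m ^ 2 with hQ
  have hQ0 : 0 ≤ Q := by positivity
  have hlim : Tendsto (fun L : ℝ => ((L + 2 * M) / L) ^ 3 * Q) atTop (𝓝 (1 ^ 3 * Q)) := by
    refine Tendsto.mul_const _ (Tendsto.pow ?_ 3)
    have h1 : Tendsto (fun L : ℝ => 1 + (2 * M) * L⁻¹) atTop (𝓝 (1 + (2 * M) * 0)) :=
      tendsto_const_nhds.add (Tendsto.const_mul _ tendsto_inv_atTop_zero)
    rw [mul_zero, add_zero] at h1
    refine h1.congr' ?_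
    filter_upwards [eventually_gt_atTop 0] with L hL
    field_simp
  have hev : ∀ᶠ L : ℝ in atTop, ((L + 2 * M) / L) ^ 3 * Q < 1 ^ 3 * Q + θ / 2 :=
    hlim.eventually (gt_mem_nhds (by linarith))
  refine Pr_le_of_eventually ν ?_
  filter_upwards [hev, eventually_fp_le_Pr (InDom_zero hh) ν' (half_pos hθ), eventually_gt_atTop 0]
    with L hL1 hL2 hL0
  have hcs0 : Summable fun j : ℕ => |(0 : ℝ)| := summable_zero_abs
  have hpt : ∀ (N : ℕ) (x : Fin N → R3), (∀ i, x i ∈ cube L) →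
      wt (radK (pot h (fun j => 0 + (-ε) * (if j = k then 1 else 0)))) ν x
        ≤ ENNReal.ofReal (exp (L ^ 3 * (((L + 2 * M) / L) ^ 3 * Q))) *
          wt (radK (pot h (fun _ => 0))) ν' x := by
    intro N x hx
    unfold wt
    rw [← ENNReal.ofReal_mul (exp_pos _).le, ← Real.exp_add]
    refine ENNReal.ofReal_le_ofReal (Real.exp_le_exp.2 ?_)
    have h1 : radK (pot h (fun j => 0 + (-ε) * (if j = k then 1 else 0)))
        = fun u v => radK (pot h (fun _ => 0)) u v + ε * Kr k (euclDist u v) := by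
      funext u v
      unfold radK
      rw [pot_add_single hcs0]
      ring
    rw [h1, offSum_add, offSum_const_mul, Fintype.card_fin]
    have h2 := sum_pairs_ge (τ := tauk k) (m := m) (L := L) (M := M) (tauk_pos k) hm hL0.le hM x hx
    rw [Fintype.card_fin, sqrt_two_mul_tauk] at h2
    simp_rw [← Kr_euclDist] at h2
    have h3 : ∑ i, ∑ j, Kr k (euclDist (x i) (x j))
        = offSum (fun u v => Kr k (euclDist u v)) x + ∑ i, Kr k (euclDist (x i) (x i)) :=
      sum_pairs_eq (fun u v => Kr k (euclDist u v)) x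
    have h4 : ∑ i, Kr k (euclDist (x i) (x i)) = (N : ℝ) * Kr k 0 := by
      have : ∀ i, euclDist (x i) (x i) = 0 := fun i => by unfold euclDist; simp
      simp [this]
    have h5 : L ^ 3 * (((L + 2 * M) / L) ^ 3 * Q) = (ε / 2) * (m ^ 2 * (L + 2 * M) ^ 3) := by
      rw [hQ]
      field_simp
    rw [h5, hν']
    rw [h4] at h3
    rw [h3] at h2
    have h6 := mul_le_mul_of_nonneg_left h2 (show 0 ≤ ε / 2 by positivity)
    nlinarith
  have hGP := GP_le_const_mul (measurableSet_cube L) ENNReal.ofReal_ne_top hpt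
  have hX := GP_le_of_fp_le (InDom_zero hh) hL0 hL2
  have hprod : ENNReal.ofReal (exp (L ^ 3 * (((L + 2 * M) / L) ^ 3 * Q))) *
      GP (radK (pot h (fun _ => 0))) ν' (cube L) ≤ ENNReal.ofReal (exp (L ^ 3 * (((L + 2 * M) / L) ^ 3 * Q)
        + L ^ 3 * (Pr h (fun _ => 0) ν' + θ / 2))) := by
    rw [Real.exp_add, ENNReal.ofReal_mul (exp_pos _).le]
    exact mul_le_mul_right hX _
  have h1 := log_toReal_le (hGP.trans hprod) (one_le_GP _ _ _)
  unfold fp
  have hL3 : 0 < L ^ 3 := by positivity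
  rw [inv_mul_le_iff₀ hL3]
  refine le_trans h1 ?_
  have h2 : L ^ 3 * (((L + 2 * M) / L) ^ 3 * Q) ≤ L ^ 3 * (1 ^ 3 * Q + θ / 2) :=
    mul_le_mul_of_nonneg_left hL1.le hL3.le
  nlinarith

end Vale.Agent.Lib.P171
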