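import Vale.Agent.Lib.P171.Tangent

/-!
# The final argument: a variational principle forces a failure of differentiability
-/

open MeasureTheory Set Real Filter
open scoped ENNReal Topology

namespace Vale.Agent.Lib.P171

/-- The closeness of a derivative to the slope of a lower tangent with a small kink. -/
lemma deriv_close {F : ℝ → ℝ} {μ ρ ρ₀ γ : ℝ} (hd : HasDerivAt F ρ μ)
    (h : ∀ t, F μ + t * ρ₀ - γ * |t| ≤ F (μ + t)) : |ρ - ρ₀| ≤ γ := by
  have hs := hasDerivAt_iff_tendsto_slope_zero.1 hd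
  have hr : Tendsto (fun t : ℝ => t⁻¹ • (F (μ + t) - F μ)) (𝓝[>] 0) (𝓝 ρ) :=
    hs.mono_left (nhdsWithin_mono _ fun t ht => ne_of_gt ht)
  have hl : Tendsto (fun t : ℝ => t⁻¹ • (F (μ + t) - F μ)) (𝓝[<] 0) (𝓝 ρ) :=
    hs.mono_left (nhdsWithin_mono _ fun t ht => ne_of_lt ht)
  have h1 : ρ₀ - γ ≤ ρ := by
    refine ge_of_tendsto hr ?_
    filter_upwards [self_mem_nhdsWithin] with t ht
    have ht0 : 0 < t := ht
    have h2 := h t
    rw [abs_of_pos ht0] at h2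
    rw [smul_eq_mul, le_inv_mul_iff₀ ht0]
    nlinarith
  have h3 : ρ ≤ ρ₀ + γ := by
    refine le_of_tendsto hl ?_
    filter_upwards [self_mem_nhdsWithin] with t ht
    have ht0 : t < 0 := ht
    have h2 := h t
    rw [abs_of_neg ht0] at h2
    rw [smul_eq_mul]
    have h4 : t⁻¹ < 0 := inv_lt_zero.2 ht0
    have h5 : t⁻¹ * t = 1 := inv_mul_cancel₀ ht0.ne
    have h6 : t⁻¹ * (F (μ + t) - F μ) ≤ t⁻¹ * (t * ρ₀ + t * γ) :=
      mul_le_mul_of_nonpos_left (by linarith) h4.le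
    have h7 : t⁻¹ * (t * ρ₀ + t * γ) = ρ₀ + γ := by
      rw [mul_add, ← mul_assoc, ← mul_assoc, h5]; ring
    linarith
  exact abs_le.2 ⟨by linarith, by linarith⟩

/-- The point given by the variational principle. -/
theorem ekeland_point {h δ μs V₀ γ νa νb Pa Pb a b : ℝ} (hh : 2 * (δ + 2) < h) (hδ : 0 < δ)
    (hγ : 0 < γ) (ga gb : StrongDual ℝ (V × ℝ))
    (hga : ∀ y ∈ Uh h, ga (y - ((0 : V), νa)) ≤ PH h y - Pa)
    (hgb : ∀ y ∈ Uh h, gb (y - ((0 : V), νb)) ≤ PH h y - Pb)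
    (hga1 : ga ((0 : V), (1 : ℝ)) = a) (hgb1 : gb ((0 : V), (1 : ℝ)) = b)
    (hga2 : ∀ j, a ^ 2 / 2 - a * Kr j 0 / 2 ≤ ga (eU j, (0 : ℝ)))
    (hgb2 : ∀ j, b ^ 2 / 2 - b * Kr j 0 / 2 ≤ gb (eU j, (0 : ℝ)))
    (hVa : Pa + (μs - νa) * a + (δ / 2) * a ^ 2 = V₀)
    (hVb : Pb + (μs - νb) * b + (δ / 2) * b ^ 2 = V₀)
    {k : ℕ} (hk1 : PH h (δ • eU k, μs) ≤ V₀ + γ / 2) (hk2 : δ * (a + b) * Kr k 0 / 4 ≤ γ / 2) :
    ∃ (c : V) (μ : ℝ), (∀ i, 0 ≤ c i) ∧ ‖c‖ ≤ δ + 1 ∧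
      (∀ t, PH h (c, μ) + t * ((a + b) / 2) - γ * |t| ≤ PH h (c, μ + t)) ∧
      ∀ j ε, 0 < ε → ε ≤ 1 →
        PH h (c, μ) + ε * ((a ^ 2 + b ^ 2) / 4 - (a + b) * Kr j 0 / 4) - γ * ε
          ≤ PH h (c + ε • eU j, μ) := by
  have hh0 : 0 < h := by linarith
  set L : V × ℝ → ℝ := fun y =>
    (1 / 2) * (Pa + ga (y - ((0 : V), νa)) + Pb + gb (y - ((0 : V), νb))) with hL
  have hLadd : ∀ y w, L (y + w) = L y + (1 / 2) * (ga w + gb w) := by
    intro y w
    have h1 : y + w - ((0 : V), νa) = (y - ((0 : V), νa)) + w := by abel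
    have h2 : y + w - ((0 : V), νb) = (y - ((0 : V), νb)) + w := by abel
    simp only [hL]
    rw [h1, h2, map_add, map_add]
    ring
  have hLle : ∀ y ∈ Uh h, L y ≤ PH h y := by
    intro y hy
    have h1 := hga y hy
    have h2 := hgb y hy
    simp only [hL]
    linarith
  have hLc : Continuous L := by
    simp only [hL]
    have h1 := ga.continuous
    have h2 := gb.continuous
    fun_prop
  set f : V × ℝ → ℝ := fun y => PH h y - L y with hf
  set Y : Set (V × ℝ) := {y | (∀ i, 0 ≤ y.1 i) ∧ ‖y.1‖ ≤ δ + 2} with hY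
  have hYcl : IsClosed Y := by
    have h1 : Y = (⋂ i, {y : V × ℝ | 0 ≤ y.1 i}) ∩ {y : V × ℝ | ‖y.1‖ ≤ δ + 2} := by
      ext y
      simp [hY]
    rw [h1]
    refine IsClosed.inter (isClosed_iInter fun i => ?_) ?_
    · exact isClosed_le continuous_const ((continuous_coord i).comp continuous_fst)
    · exact isClosed_le (by fun_prop) continuous_const
  have hYU : Y ⊆ Uh h := by
    intro y hy
    have h1 := hy.2
    simp only [Uh, Set.mem_ofPred_eq]
    linarith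
  have hfc : ContinuousOn f Y :=
    ((PH_continuousOn hh0).mono hYU).sub hLc.continuousOn
  have hf0 : ∀ y ∈ Y, 0 ≤ f y := fun y hy => by
    have := hLle y (hYU hy)
    simp only [hf]
    linarith
  set x₀ : V × ℝ := (δ • eU k, μs) with hx₀
  have hx₀Y : x₀ ∈ Y := by
    refine ⟨fun i => ?_, ?_⟩
    · simp only [hx₀]
      rw [coord_smul]
      have : 0 ≤ (if i = k then (1 : ℝ) else 0) := by split_ifs <;> norm_num
      have := mul_nonneg hδ.le this
      simpa using this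
    · simp only [hx₀]
      rw [norm_smul, norm_eU, mul_one, Real.norm_eq_abs, abs_of_pos hδ]
      linarith
  have hLx₀ : V₀ - γ / 2 ≤ L x₀ := by
    have e1 : x₀ - ((0 : V), νa) = δ • (eU k, (0 : ℝ)) + (μs - νa) • ((0 : V), (1 : ℝ)) := by
      simp only [hx₀]
      ext1
      · simp
      · simp
    have e2 : x₀ - ((0 : V), νb) = δ • (eU k, (0 : ℝ)) + (μs - νb) • ((0 : V), (1 : ℝ)) := by
      simp only [hx₀]
      ext1
      · simp
      · simp
    simp only [hL]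
    rw [e1, e2, map_add, map_add, map_smul, map_smul, map_smul, map_smul, hga1, hgb1,
      smul_eq_mul, smul_eq_mul, smul_eq_mul, smul_eq_mul]
    have h1 := mul_le_mul_of_nonneg_left (hga2 k) hδ.le
    have h2 := mul_le_mul_of_nonneg_left (hgb2 k) hδ.le
    have h3 : δ * (a + b) * Kr k 0 / 4
        = (δ * (a * Kr k 0 / 2) + δ * (b * Kr k 0 / 2)) / 2 := by ring
    rw [h3] at hk2
    nlinarith
  have hfx₀ : f x₀ ≤ γ := by
    simp only [hf]
    linarith
  obtain ⟨x, hxY, hx1, hx2⟩ := ekeland hYcl hfc hf0 hγ hx₀Y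
  have hdist : dist x x₀ ≤ 1 := by
    have h1 := hf0 x hxY
    have h2 : γ * dist x x₀ ≤ γ * 1 := by linarith
    exact le_of_mul_le_mul_left h2 hγ
  have hnorm : ‖x.1‖ ≤ δ + 1 := by
    have h1 : dist x.1 x₀.1 ≤ 1 := (le_max_left _ _).trans hdist
    rw [dist_eq_norm] at h1
    have h2 : ‖x₀.1‖ = δ := by
      simp only [hx₀]
      rw [norm_smul, norm_eU, mul_one, Real.norm_eq_abs, abs_of_pos hδ]
    have h3 : x.1 = x₀.1 + (x.1 - x₀.1) := by abel
    have h4 := norm_add_le x₀.1 (x.1 - x₀.1)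
    rw [← h3, h2] at h4
    linarith
  obtain ⟨c, μ⟩ := x
  simp only at hnorm
  refine ⟨c, μ, hxY.1, hnorm, ?_, ?_⟩
  · intro t
    have hy : ((c, μ + t) : V × ℝ) ∈ Y := ⟨hxY.1, hxY.2⟩
    have h1 := hx2 _ hy
    have h2 : dist ((c, μ) : V × ℝ) (c, μ + t) = |t| := by
      rw [Prod.dist_eq]
      simp
    rw [h2] at h1
    have h3 : ((c, μ + t) : V × ℝ) = (c, μ) + t • ((0 : V), (1 : ℝ)) := by
      ext1
      · simp
      · simp
    have h4 : L (c, μ + t) = L (c, μ) + (1 / 2) * (t * a + t * b) := by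
      rw [h3, hLadd, map_smul, map_smul, hga1, hgb1, smul_eq_mul, smul_eq_mul]
    simp only [hf] at h1
    rw [h4] at h1
    have h5 : t * ((a + b) / 2) = (1 / 2) * (t * a + t * b) := by ring
    rw [h5]
    linarith
  · intro j ε hε0 hε1
    have hnε : ‖ε • eU j‖ = ε := by
      rw [norm_smul, norm_eU, mul_one, Real.norm_eq_abs, abs_of_pos hε0]
    have hy : ((c + ε • eU j, μ) : V × ℝ) ∈ Y := by
      refine ⟨fun i => ?_, ?_⟩
      · simp only
        rw [coord_add_smul]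
        have h1 : 0 ≤ (if i = j then (1 : ℝ) else 0) := by split_ifs <;> norm_num
        have h2 := mul_nonneg hε0.le h1
        have h3 := hxY.1 i
        simp only at h3
        simp only
        linarith
      · simp only
        have h1 := norm_add_le c (ε • eU j)
        rw [hnε] at h1
        linarith
    have h1 := hx2 _ hy
    have h2 : dist ((c, μ) : V × ℝ) (c + ε • eU j, μ) = ε := by
      rw [Prod.dist_eq]
      simp only [dist_self]
      rw [dist_eq_norm]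
      have h3 : c - (c + ε • eU j) = -(ε • eU j) := by abel
      rw [h3, norm_neg, hnε]
      exact max_eq_left hε0.le
    rw [h2] at h1
    have h3 : ((c + ε • eU j, μ) : V × ℝ) = (c, μ) + ε • (eU j, (0 : ℝ)) := by
      ext1
      · simp
      · simp
    have h4 : L (c + ε • eU j, μ) = L (c, μ) + (1 / 2) * (ε * ga (eU j, (0 : ℝ))
        + ε * gb (eU j, (0 : ℝ))) := by
      rw [h3, hLadd, map_smul, map_smul, smul_eq_mul, smul_eq_mul]
    simp only [hf] at h1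
    rw [h4] at h1
    have h5 := mul_le_mul_of_nonneg_left (hga2 j) hε0.le
    have h6 := mul_le_mul_of_nonneg_left (hgb2 j) hε0.le
    have h7 : ε * ((a ^ 2 + b ^ 2) / 4 - (a + b) * Kr j 0 / 4)
        = (1 / 2) * (ε * (a ^ 2 / 2 - a * Kr j 0 / 2) + ε * (b ^ 2 / 2 - b * Kr j 0 / 2)) := by
      ring
    rw [h7]
    have h8 : γ * ε = ε * γ := mul_comm _ _
    nlinarith

lemma exists_small_gamma {d ρ₀ : ℝ} (hd : 0 < d) (hρ : 0 ≤ ρ₀) :
    ∃ γ, 0 < γ ∧ 2 * γ + 2 * ρ₀ * γ + 2 * γ ^ 2 < d := by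
  have h1 : 0 < d / (8 * (1 + ρ₀)) := by positivity
  refine ⟨min 1 (d / (8 * (1 + ρ₀))), lt_min one_pos h1, ?_⟩
  set γ := min 1 (d / (8 * (1 + ρ₀))) with hγ
  have h2 : γ ≤ 1 := min_le_left _ _
  have h3 : γ ≤ d / (8 * (1 + ρ₀)) := min_le_right _ _
  have h4 : 0 < γ := lt_min one_pos h1
  rw [le_div_iff₀ (by positivity)] at h3
  nlinarith

/-- The density of the pure core system is nonnegative. -/
lemma P0_deriv_nonneg {h : ℝ} (hh : 0 ≤ h) {r : ℝ → ℝ}
    (hd : ∀ ν, HasDerivAt (fun ν => Pr h (fun _ => 0) ν) (r ν) ν) (ν : ℝ) : 0 ≤ r ν := by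
  by_contra hcon
  push Not at hcon
  have h1 := tangent_le (P0_convex hh) hd ν (ν + (exp ν + 1) / r ν)
  have h2 := Pr_zero_le_exp hh (ν + (exp ν + 1) / r ν)
  have h3 : exp (ν + (exp ν + 1) / r ν) ≤ exp ν := by
    refine exp_le_exp.2 ?_
    have : (exp ν + 1) / r ν ≤ 0 := div_nonpos_of_nonneg_of_nonpos (by positivity) hcon.le
    linarith
  have h4 : r ν * (ν + (exp ν + 1) / r ν - ν) = exp ν + 1 := by
    have hne : r ν ≠ 0 := hcon.ne
    have h6 : ν + (exp ν + 1) / r ν - ν = (exp ν + 1) / r ν := by ring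
    rw [h6]
    exact mul_div_cancel₀ _ hne
  have h5 := Pr_nonneg (InDom_zero hh) ν
  rw [h4] at h1
  linarith

lemma P0_deriv_le {h : ℝ} (hh : 0 ≤ h) {r : ℝ → ℝ}
    (hd : ∀ ν, HasDerivAt (fun ν => Pr h (fun _ => 0) ν) (r ν) ν) (ν : ℝ) : r ν ≤ exp (ν + 1) := by
  have h1 := tangent_le (P0_convex hh) hd ν (ν + 1)
  have h2 := Pr_zero_le_exp hh (ν + 1)
  have h5 := Pr_nonneg (InDom_zero hh) ν
  have h3 : ν + 1 - ν = 1 := by ring
  rw [h3, mul_one] at h1
  linarith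

lemma P0_deriv_surj {h : ℝ} (hh : 0 ≤ h) {r : ℝ → ℝ}
    (hd : ∀ ν, HasDerivAt (fun ν => Pr h (fun _ => 0) ν) (r ν) ν) {ρ : ℝ} (hρ : 0 < ρ) :
    ∃ ν, r ν = ρ := by
  have hrc : Continuous r := deriv_continuous (P0_convex hh) hd
  have h1 : r (Real.log ρ - 1) ≤ ρ := by
    have := P0_deriv_le hh hd (Real.log ρ - 1)
    rwa [sub_add_cancel, Real.exp_log hρ] at this
  obtain ⟨ν₂, hν₂⟩ := P0_unbounded hh hd ρ
  exact mem_range_of_exists_le_of_exists_ge hrc ⟨_, h1⟩ ⟨_, hν₂⟩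

/-- **The main theorem on the parameter space:** some nonnegative summable sequence of couplings
gives a pressure which is not differentiable in the chemical potential. -/
theorem exists_nondiff {h : ℝ} (hh : 1000000 ≤ h) :
    ∃ c : V, (∀ k, 0 ≤ c k) ∧ ‖c‖ ≤ 30002 ∧ ∃ μ, ¬ DifferentiableAt ℝ (fun ν => Pr h c ν) μ := by
  by_contra hcon
  push Not at hcon
  have hh0 : 0 < h := by linarith
  have hd₀ : ∀ ν, HasDerivAt (fun ν => Pr h (fun _ => 0) ν)
      (deriv (fun ν => Pr h (fun _ => 0) ν) ν) ν := fun ν => by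
    have h1 := hcon 0 (by simp) (by simp) ν
    rw [coord_zero] at h1
    exact h1.hasDerivAt
  set r : ℝ → ℝ := deriv (fun ν => Pr h (fun _ => 0) ν) with hr
  have hconv := P0_convex hh0.le
  have hr0 : ∀ ν, 0 ≤ r ν := P0_deriv_nonneg hh0.le hd₀
  have h0 : ∀ ν, 0 < Pr h (fun _ => 0) ν := by
    intro ν
    have h1 := Pr_zero_ge_one hh0.le ν
    have h2 : 0 < Real.log (1 + exp ν) :=
      Real.log_pos (by linarith [exp_pos ν])
    linarith
  have hquad : ∀ ν, Pr h (fun _ => 0) ν ≤ 1 + (ν + h / 2) ^ 2 / (4 * (h / 2)) := by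
    intro ν
    have h1 := Pr_zero_le_quad hh0 ν
    have h2 : 4 * (h / 2) = 2 * h := by ring
    rwa [h2]
  obtain ⟨μs, νa, νb, V₀, hV0, hab, hVa, hVb, hVmax⟩ :=
    double_tangent (P := fun ν => Pr h (fun _ => 0) ν) (r := r) hconv hd₀ (δ := 30000) (κ := h / 2)
      (by norm_num) (by linarith) h0 (Pr_zero_le_exp hh0.le) hquad (P0_unbounded hh0.le hd₀)
      (ν₁ := -10) (ν₂ := 0) (by norm_num) (P0_gap hh0.le hd₀)
  set a := r νa with ha
  set b := r νb with hb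
  have ha0 : 0 ≤ a := hr0 νa
  have hb0 : 0 ≤ b := hr0 νb
  have hd0 : 0 < (a - b) ^ 2 / 8 := by
    have : a - b ≠ 0 := sub_ne_zero.2 (ne_of_lt hab)
    positivity
  obtain ⟨γ, hγ0, hγ⟩ := exists_small_gamma (ρ₀ := (a + b) / 2) hd0 (by positivity)
  have hcov : ∀ ρ, 0 ≤ ρ → ∃ ν, Pr h (fun _ => 0) ν + (μs - ν) * ρ + ((30000 : ℝ) / 2) * ρ ^ 2
      < V₀ + (γ / 2) / 8 := by
    intro ρ hρ
    rcases hρ.eq_or_lt with hρ | hρ
    · refine ⟨Real.log V₀, ?_⟩
      rw [← hρ]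
      have h1 := Pr_zero_le_exp hh0.le (Real.log V₀)
      rw [Real.exp_log hV0] at h1
      have : 0 < (γ / 2) / 8 := by positivity
      norm_num
      linarith
    · obtain ⟨ν, hν⟩ := P0_deriv_surj hh0.le hd₀ hρ
      refine ⟨ν, ?_⟩
      have h1 := hVmax ν
      unfold dtF at h1
      rw [hν] at h1
      have : 0 < (γ / 2) / 8 := by positivity
      linarith
  have hev := no_bound (h := h) (δ := 30000) (μ := μs) (V := V₀) (θ := γ / 2) (by linarith)
    (by norm_num) (by positivity) hV0 hcov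
  have hev2 : ∀ᶠ k : ℕ in atTop, 30000 * (a + b) * Kr k 0 / 4 < γ / 2 := by
    have h1 : Tendsto (fun k : ℕ => 30000 * (a + b) * Kr k 0 / 4) atTop
        (𝓝 (30000 * (a + b) * 0 / 4)) :=
      (tendsto_Kr_zero.const_mul _).div_const _
    rw [mul_zero, zero_div] at h1
    exact h1.eventually (gt_mem_nhds (by positivity))
  obtain ⟨k, hk1, hk2⟩ := (hev.and hev2).exists
  obtain ⟨ga, hga, hga1, hga2⟩ := tangent_slopes hh0 hd₀ hr0 νa
  obtain ⟨gb, hgb, hgb1, hgb2⟩ := tangent_slopes hh0 hd₀ hr0 νb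
  have hk1' : PH h ((30000 : ℝ) • eU k, μs) ≤ V₀ + γ / 2 := by
    unfold PH
    simp only
    rw [coord_smul]
    exact hk1
  obtain ⟨c, μ, hc0, hcn, ht, he⟩ := ekeland_point (h := h) (δ := 30000) (μs := μs) (V₀ := V₀)
    (γ := γ) (νa := νa) (νb := νb) (Pa := Pr h (fun _ => 0) νa) (Pb := Pr h (fun _ => 0) νb)
    (a := a) (b := b) (by linarith) (by norm_num) hγ0 ga gb hga hgb hga1 hgb1 hga2 hgb2
    hVa hVb hk1' hk2.le
  have hdc := (hcon c hc0 (by linarith) μ).hasDerivAt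
  set ρ := deriv (fun ν => Pr h c ν) μ with hρ
  have hclose : |ρ - (a + b) / 2| ≤ γ := deriv_close hdc (fun t => ht t)
  obtain ⟨ε, hε0, hε1, hεev⟩ := KU_star (δ' := 30002) (γ := γ) hc0 (lp_summable c)
    (by rw [← lp_norm_eq]; linarith) (by linarith) hdc hγ0
  have hlim : Tendsto (fun j : ℕ => (a ^ 2 + b ^ 2) / 4 - (a + b) * Kr j 0 / 4 - γ) atTop
      (𝓝 ((a ^ 2 + b ^ 2) / 4 - (a + b) * 0 / 4 - γ)) :=
    (((tendsto_Kr_zero.const_mul _).div_const _).const_sub _).sub_const _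
  have hfin : (a ^ 2 + b ^ 2) / 4 - (a + b) * 0 / 4 - γ ≤ (1 / 2) * (ρ + γ) ^ 2 + γ := by
    refine le_of_tendsto hlim (hεev.mono fun j hj => ?_)
    have h1 := he j ε hε0 hε1
    have h2 : PH h (c + ε • eU j, μ) = Pr h (fun i => c i + ε * (if i = j then 1 else 0)) μ := by
      unfold PH
      simp only
      rw [coord_add_smul]
    rw [h2] at h1
    have h3 : PH h (c, μ) = Pr h c μ := rfl
    rw [h3] at h1
    have h4 : ε * ((a ^ 2 + b ^ 2) / 4 - (a + b) * Kr j 0 / 4 - γ)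
        ≤ ε * ((1 / 2) * (ρ + γ) ^ 2 + γ) := by
      nlinarith
    exact le_of_mul_le_mul_left h4 hε0
  have hρ1 := abs_le.1 hclose
  have hsq : (ρ + γ) ^ 2 ≤ ((a + b) / 2 + 2 * γ) ^ 2 :=
    pow_le_pow_left₀ (by linarith [hρ1.1, add_nonneg ha0 hb0]) (by linarith [hρ1.2]) 2
  nlinarith

end Vale.Agent.Lib.P171
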