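import Vale.Agent.Lib.P171.Kernels

/-!
# The family of potentials and its energy bounds
-/

open MeasureTheory Set Real
open scoped ENNReal

namespace Vale.Agent.Lib.P171

/-- The potentials: a soft core of height `h` minus a summable mixture of Gaussian tails. -/
noncomputable def pot (h : ℝ) (c : ℕ → ℝ) (r : ℝ) : ℝ :=
  h * (if r ≤ 2 then 1 else 0) - ∑' k, c k * Kr k r

/-- The pair kernel of a radial potential. -/
noncomputable def radK (φ : ℝ → ℝ) (u v : R3) : ℝ := φ (euclDist u v)

lemma radK_comm (φ : ℝ → ℝ) (u v : R3) : radK φ u v = radK φ v u := by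
  unfold radK; rw [euclDist_comm]

lemma radK_add (φ : ℝ → ℝ) (u v t : R3) : radK φ (u + t) (v + t) = radK φ u v := by
  unfold radK; rw [euclDist_add]

lemma measurable_radK {φ : ℝ → ℝ} (hφ : Measurable φ) : Measurable (Function.uncurry (radK φ)) :=
  hφ.comp continuous_euclDist.measurable

lemma summable_mul_Kr {c : ℕ → ℝ} (hc : Summable fun k => |c k|) (r : ℝ) :
    Summable fun k => c k * Kr k r := by
  refine Summable.of_norm_bounded hc fun k => ?_
  rw [Real.norm_eq_abs, abs_mul, abs_of_pos (Kr_pos k r)]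
  exact mul_le_of_le_one_right (abs_nonneg _) (Kr_le_one k r)

lemma continuous_attr {c : ℕ → ℝ} (hc : Summable fun k => |c k|) :
    Continuous fun r => ∑' k, c k * Kr k r := by
  refine continuous_tsum (fun k => continuous_const.mul (continuous_Kr k)) hc fun k r => ?_
  rw [Real.norm_eq_abs, abs_mul, abs_of_pos (Kr_pos k r)]
  exact mul_le_of_le_one_right (abs_nonneg _) (Kr_le_one k r)

lemma measurable_pot (h : ℝ) {c : ℕ → ℝ} (hc : Summable fun k => |c k|) : Measurable (pot h c) := by
  unfold pot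
  refine Measurable.sub ?_ (continuous_attr hc).measurable
  refine measurable_const.mul (Measurable.ite ?_ measurable_const measurable_const)
  exact measurableSet_Iic

/-- Linearity of the potential in its parameters. -/
lemma pot_mix {c₁ c₂ : ℕ → ℝ} (hc₁ : Summable fun k => |c₁ k|) (hc₂ : Summable fun k => |c₂ k|)
    (s t h₁ h₂ r : ℝ) :
    pot (s * h₁ + t * h₂) (fun k => s * c₁ k + t * c₂ k) r = s * pot h₁ c₁ r + t * pot h₂ c₂ r := by
  unfold pot
  have h1 : ∀ k, (s * c₁ k + t * c₂ k) * Kr k r = s * (c₁ k * Kr k r) + t * (c₂ k * Kr k r) :=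
    fun k => by ring
  simp_rw [h1]
  rw [Summable.tsum_add ((summable_mul_Kr hc₁ r).mul_left s) ((summable_mul_Kr hc₂ r).mul_left t),
    tsum_mul_left, tsum_mul_left]
  ring

/-! ### Sums over pairs -/

section pairs
variable {ι : Type} [Fintype ι] [DecidableEq ι]

lemma offSum_add (ψ₁ ψ₂ : R3 → R3 → ℝ) (x : ι → R3) :
    offSum (fun u v => ψ₁ u v + ψ₂ u v) x = offSum ψ₁ x + offSum ψ₂ x := by
  unfold offSum
  rw [← Finset.sum_add_distrib]
  refine Finset.sum_congr rfl fun i _ => ?_
  rw [← Finset.sum_add_distrib]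
  refine Finset.sum_congr rfl fun j _ => ?_
  split_ifs <;> simp

lemma offSum_sub (ψ₁ ψ₂ : R3 → R3 → ℝ) (x : ι → R3) :
    offSum (fun u v => ψ₁ u v - ψ₂ u v) x = offSum ψ₁ x - offSum ψ₂ x := by
  unfold offSum
  rw [← Finset.sum_sub_distrib]
  refine Finset.sum_congr rfl fun i _ => ?_
  rw [← Finset.sum_sub_distrib]
  refine Finset.sum_congr rfl fun j _ => ?_
  split_ifs <;> simp

lemma offSum_const_mul (a : ℝ) (ψ : R3 → R3 → ℝ) (x : ι → R3) :
    offSum (fun u v => a * ψ u v) x = a * offSum ψ x := by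
  unfold offSum
  rw [Finset.mul_sum]
  refine Finset.sum_congr rfl fun i _ => ?_
  rw [Finset.mul_sum]
  refine Finset.sum_congr rfl fun j _ => ?_
  split_ifs <;> simp

lemma offSum_mono {ψ₁ ψ₂ : R3 → R3 → ℝ} (x : ι → R3) (h : ∀ i j, i ≠ j → ψ₁ (x i) (x j) ≤ ψ₂ (x i) (x j)) :
    offSum ψ₁ x ≤ offSum ψ₂ x := by
  unfold offSum
  refine Finset.sum_le_sum fun i _ => Finset.sum_le_sum fun j _ => ?_
  split_ifs with hij
  · exact le_rfl
  · exact h i j hij

lemma offSum_nonneg {ψ : R3 → R3 → ℝ} (x : ι → R3) (h : ∀ i j, i ≠ j → 0 ≤ ψ (x i) (x j)) :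
    0 ≤ offSum ψ x := by
  unfold offSum
  refine Finset.sum_nonneg fun i _ => Finset.sum_nonneg fun j _ => ?_
  split_ifs with hij
  · exact le_rfl
  · exact h i j hij

/-- The sum over all ordered pairs is the off-diagonal sum plus the diagonal. -/
lemma sum_pairs_eq (ψ : R3 → R3 → ℝ) (x : ι → R3) :
    ∑ i, ∑ j, ψ (x i) (x j) = offSum ψ x + ∑ i, ψ (x i) (x i) := by
  unfold offSum
  rw [← Finset.sum_add_distrib]
  refine Finset.sum_congr rfl fun i _ => ?_
  have h1 : ∀ j, ψ (x i) (x j) = (if i = j then (0 : ℝ) else ψ (x i) (x j))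
      + (if i = j then ψ (x i) (x i) else 0) := by
    intro j
    by_cases h : i = j
    · simp [h]
    · simp [h]
  have h2 : ∑ j, ψ (x i) (x j) = ∑ j, ((if i = j then (0 : ℝ) else ψ (x i) (x j))
      + (if i = j then ψ (x i) (x i) else 0)) := Finset.sum_congr rfl fun j _ => h1 j
  rw [h2, Finset.sum_add_distrib]
  simp

end pairs

/-- The number of ordered pairs of distinct particles at distance at most two. -/
noncomputable def nearCount {ι : Type} [Fintype ι] [DecidableEq ι] (x : ι → R3) : ℝ :=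
  offSum (fun u v => if euclDist u v ≤ 2 then (1 : ℝ) else 0) x

/-- The sum of the `k`-th kernel over ordered pairs of distinct particles. -/
noncomputable def kerSum {ι : Type} [Fintype ι] [DecidableEq ι] (k : ℕ) (x : ι → R3) : ℝ :=
  offSum (fun u v => Kr k (euclDist u v)) x

/-- The number of ordered pairs (with repetition) in a common unit cell. -/
noncomputable def unitPairs {ι : Type} [Fintype ι] (x : ι → R3) : ℝ :=
  ∑ i, ∑ j, (if cellIdx 1 0 (x i) = cellIdx 1 0 (x j) then (1 : ℝ) else 0)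

section energyBounds
variable {ι : Type} [Fintype ι] [DecidableEq ι]

lemma nearCount_nonneg (x : ι → R3) : 0 ≤ nearCount x := by
  unfold nearCount
  refine offSum_nonneg x fun i j _ => ?_
  split_ifs <;> norm_num

lemma kerSum_nonneg (k : ℕ) (x : ι → R3) : 0 ≤ kerSum k x :=
  offSum_nonneg x fun _ _ _ => (Kr_pos k _).le

lemma euclDist_le_two_of_cell {u v : R3} (h : cellIdx 1 0 u = cellIdx 1 0 v) : euclDist u v ≤ 2 := by
  have h1 : ∀ a, (u a - v a) ^ 2 ≤ 1 := by
    intro a
    have h2 := congrFun h a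
    simp only [cellIdx, Pi.zero_apply, Nat.cast_zero, add_zero, Nat.cast_one, div_one] at h2
    have h3 := Int.floor_le (u a)
    have h4 := Int.lt_floor_add_one (u a)
    have h5 := Int.floor_le (v a)
    have h6 := Int.lt_floor_add_one (v a)
    rw [h2] at h3 h4
    rw [sq_le_one_iff_abs_le_one, abs_le]
    constructor <;> linarith
  unfold euclDist
  rw [show (2 : ℝ) = √4 by
    rw [show (4 : ℝ) = 2 ^ 2 by norm_num, Real.sqrt_sq (by norm_num)]]
  apply Real.sqrt_le_sqrt
  rw [Fin.sum_univ_three]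
  linarith [h1 0, h1 1, h1 2]

lemma unitPairs_le (x : ι → R3) : unitPairs x ≤ (Fintype.card ι : ℝ) + nearCount x := by
  have h1 : unitPairs x ≤ ∑ i, ∑ j, (fun u v => if euclDist u v ≤ 2 then (1 : ℝ) else 0) (x i) (x j) := by
    unfold unitPairs
    refine Finset.sum_le_sum fun i _ => Finset.sum_le_sum fun j _ => ?_
    by_cases h : cellIdx 1 0 (x i) = cellIdx 1 0 (x j)
    · simp [h, euclDist_le_two_of_cell h]
    · simp only [h, if_false]
      split_ifs <;> norm_num
  rw [sum_pairs_eq (fun u v => if euclDist u v ≤ 2 then (1 : ℝ) else 0) x] at h1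
  have h2 : ∀ i, euclDist (x i) (x i) ≤ 2 := fun i => by
    unfold euclDist; simp
  simp only [h2, if_true, Finset.sum_const, Finset.card_univ, nsmul_eq_mul, mul_one] at h1
  unfold nearCount
  linarith

/-- The constant of the Schur bound at unit mesh is at most two. -/
lemma unit_schur_const (k : ℕ) : (3 * gs (sig k) 0 + 1 / ((1 : ℕ) : ℝ)) ^ 3 ≤ 2 := by
  rw [gs_zero]
  have h1 : (sig k * √(2 * π)) ≥ 25 := by
    have := sig_ge k
    have := sqrt_two_pi_ge
    nlinarith
  have h2 : (sig k * √(2 * π))⁻¹ ≤ 1 / 25 := by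
    rw [one_div]
    exact inv_anti₀ (by norm_num) h1
  have h3 : 0 ≤ (sig k * √(2 * π))⁻¹ := by
    have := sig_pos k
    have := sqrt_two_pi_pos
    positivity
  have h4 : 3 * (sig k * √(2 * π))⁻¹ + 1 / ((1 : ℕ) : ℝ) ≤ 28 / 25 := by
    have h5 : 1 / ((1 : ℕ) : ℝ) = 1 := by simp
    rw [h5]
    linarith
  calc (3 * (sig k * √(2 * π))⁻¹ + 1 / ((1 : ℕ) : ℝ)) ^ 3 ≤ (28 / 25 : ℝ) ^ 3 :=
        pow_le_pow_left₀ (by positivity) h4 3
    _ ≤ 2 := by norm_num

omit [DecidableEq ι] in
/-- The sum of the `k`-th kernel over all ordered pairs is controlled by the unit cells. -/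
lemma sum_Kr_le_unit (k : ℕ) (x : ι → R3) :
    ∑ i, ∑ j, Kr k (euclDist (x i) (x j)) ≤ 2 * unitPairs x := by
  simp_rw [Kr_euclDist]
  have h := schur_gauss (sig_pos k) Nat.one_pos 0 x
  refine le_trans h ?_
  exact mul_le_mul_of_nonneg_right (unit_schur_const k)
    (Finset.sum_nonneg fun i _ => Finset.sum_nonneg fun j _ => by split_ifs <;> norm_num)

lemma kerSum_le (k : ℕ) (x : ι → R3) :
    kerSum k x ≤ 2 * ((Fintype.card ι : ℝ) + nearCount x) := by
  have h1 := sum_Kr_le_unit k x
  have h2 : ∑ i, ∑ j, Kr k (euclDist (x i) (x j)) = offSum (fun u v => Kr k (euclDist u v)) x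
      + ∑ i, Kr k (euclDist (x i) (x i)) := sum_pairs_eq (fun u v => Kr k (euclDist u v)) x
  have h3 : 0 ≤ ∑ i, Kr k (euclDist (x i) (x i)) :=
    Finset.sum_nonneg fun _ _ => (Kr_pos k _).le
  have h4 := unitPairs_le x
  unfold kerSum
  linarith

/-- Off-diagonal sum of the kernel of a potential. -/
lemma offSum_pot {h : ℝ} {c : ℕ → ℝ} (hc : Summable fun k => |c k|) (x : ι → R3) :
    offSum (radK (pot h c)) x = h * nearCount x - ∑' k, c k * kerSum k x := by
  have h1 : radK (pot h c) = fun u v => h * (if euclDist u v ≤ 2 then (1 : ℝ) else 0)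
      - ∑' k, c k * Kr k (euclDist u v) := by
    funext u v; rfl
  rw [h1, offSum_sub, offSum_const_mul]
  congr 1
  unfold offSum kerSum offSum
  have hs : ∀ (u v : R3), Summable fun k => c k * Kr k (euclDist u v) := fun u v =>
    summable_mul_Kr hc _
  have h2 : ∀ i j : ι, (if i = j then (0 : ℝ) else ∑' k, c k * Kr k (euclDist (x i) (x j)))
      = ∑' k, c k * (if i = j then (0 : ℝ) else Kr k (euclDist (x i) (x j))) := by
    intro i j
    split_ifs <;> simp
  simp_rw [h2]
  have hsum : ∀ i j : ι, Summable fun k => c k * (if i = j then (0 : ℝ) else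
      Kr k (euclDist (x i) (x j))) := by
    intro i j
    split_ifs
    · simp [summable_zero]
    · exact hs _ _
  calc ∑ i, ∑ j, ∑' k, c k * (if i = j then (0 : ℝ) else Kr k (euclDist (x i) (x j)))
      = ∑ i, ∑' k, ∑ j, c k * (if i = j then (0 : ℝ) else Kr k (euclDist (x i) (x j))) :=
        Finset.sum_congr rfl fun i _ => (Summable.tsum_finsetSum fun j _ => hsum i j).symm
    _ = ∑' k, ∑ i, ∑ j, c k * (if i = j then (0 : ℝ) else Kr k (euclDist (x i) (x j))) :=
        (Summable.tsum_finsetSum fun i _ => summable_sum fun j _ => hsum i j).symm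
    _ = _ := by
        refine tsum_congr fun k => ?_
        rw [Finset.mul_sum]
        refine Finset.sum_congr rfl fun i _ => ?_
        rw [Finset.mul_sum]

/-- Lower bound for the off-diagonal sum of a potential. -/
lemma offSum_pot_ge {h : ℝ} {c : ℕ → ℝ} (hc : Summable fun k => |c k|) (x : ι → R3) :
    h * nearCount x - 2 * (∑' k, |c k|) * ((Fintype.card ι : ℝ) + nearCount x)
      ≤ offSum (radK (pot h c)) x := by
  rw [offSum_pot hc]
  set B : ℝ := 2 * ((Fintype.card ι : ℝ) + nearCount x) with hB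
  have hB0 : 0 ≤ B := by
    have := nearCount_nonneg x
    have : (0 : ℝ) ≤ Fintype.card ι := Nat.cast_nonneg _
    rw [hB]; positivity
  have h1 : ∀ k, c k * kerSum k x ≤ |c k| * B := by
    intro k
    calc c k * kerSum k x ≤ |c k| * kerSum k x :=
          mul_le_mul_of_nonneg_right (le_abs_self _) (kerSum_nonneg k x)
      _ ≤ |c k| * B := mul_le_mul_of_nonneg_left (kerSum_le k x) (abs_nonneg _)
  have hs1 : Summable fun k => |c k| * B := hc.mul_right B
  have hs2 : Summable fun k => c k * kerSum k x := by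
    refine Summable.of_norm_bounded hs1 fun k => ?_
    rw [Real.norm_eq_abs, abs_mul, abs_of_nonneg (kerSum_nonneg k x)]
    exact mul_le_mul_of_nonneg_left (kerSum_le k x) (abs_nonneg _)
  have h2 : ∑' k, c k * kerSum k x ≤ (∑' k, |c k|) * B := by
    rw [← tsum_mul_right]
    exact hs2.tsum_le_tsum h1 hs1
  rw [hB] at h2
  nlinarith

/-- Stability of the potential, in terms of the off-diagonal sum. -/
lemma half_offSum_ge {h : ℝ} {c : ℕ → ℝ} (hc : Summable fun k => |c k|) (x : ι → R3) :
    -(∑' k, |c k|) * (Fintype.card ι : ℝ) + ((h - 2 * ∑' k, |c k|) / 2) * nearCount x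
      ≤ (1 / 2) * offSum (radK (pot h c)) x := by
  have h1 := offSum_pot_ge (h := h) hc x
  nlinarith

end energyBounds

/-- Twice the energy is the off-diagonal sum. -/
lemma offSum_eq_two_energy (φ : ℝ → ℝ) {N : ℕ} (x : Fin N → R3) :
    offSum (radK φ) x = 2 * energy φ x := by
  unfold offSum energy
  have h1 : ∀ i : Fin N, ∑ j, (if i = j then (0 : ℝ) else radK φ (x i) (x j))
      = ∑ j ∈ Finset.Ioi i, φ (euclDist (x i) (x j))
        + ∑ j ∈ Finset.Iio i, φ (euclDist (x i) (x j)) := by
    intro i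
    have h2 : (Finset.univ : Finset (Fin N)) = Finset.Ioi i ∪ (Finset.Iio i ∪ {i}) := by
      ext j
      simp only [Finset.mem_univ, Finset.mem_union, Finset.mem_Ioi, Finset.mem_Iio,
        Finset.mem_singleton, true_iff]
      rcases lt_trichotomy j i with h | h | h
      · exact Or.inr (Or.inl h)
      · exact Or.inr (Or.inr h)
      · exact Or.inl h
    have hd1 : Disjoint (Finset.Ioi i) (Finset.Iio i ∪ {i}) := by
      rw [Finset.disjoint_left]
      intro j hj hj'
      simp only [Finset.mem_Ioi] at hj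
      simp only [Finset.mem_union, Finset.mem_Iio, Finset.mem_singleton] at hj'
      rcases hj' with h | h
      · exact lt_asymm hj h
      · exact (ne_of_gt hj) h
    have hd2 : Disjoint (Finset.Iio i) {i} := by
      rw [Finset.disjoint_singleton_right]
      simp
    rw [h2, Finset.sum_union hd1, Finset.sum_union hd2, Finset.sum_singleton]
    simp only [if_true, add_zero]
    congr 1
    · refine Finset.sum_congr rfl fun j hj => ?_
      rw [if_neg (ne_of_lt (Finset.mem_Ioi.1 hj))]
      rfl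
    · refine Finset.sum_congr rfl fun j hj => ?_
      rw [if_neg (ne_of_gt (Finset.mem_Iio.1 hj))]
      rfl
  simp_rw [h1]
  rw [Finset.sum_add_distrib]
  have h3 : ∑ i : Fin N, ∑ j ∈ Finset.Iio i, φ (euclDist (x i) (x j))
      = ∑ i : Fin N, ∑ j ∈ Finset.Ioi i, φ (euclDist (x i) (x j)) := by
    rw [Finset.sum_comm' (t' := Finset.univ) (s' := fun j => Finset.Ioi j)]
    · refine Finset.sum_congr rfl fun j _ => Finset.sum_congr rfl fun i _ => ?_
      rw [euclDist_comm]
    · intro i j
      simp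
  rw [h3]
  ring

lemma measurableSet_cube (L : ℝ) : MeasurableSet (cube L) := by
  have : cube L = Set.pi Set.univ (fun _ => Icc 0 L) := by
    ext x
    simp only [cube, Set.mem_ofPred_eq, Set.mem_pi, Set.mem_univ, true_implies, Set.mem_Icc]
  rw [this]
  exact MeasurableSet.univ_pi fun _ => measurableSet_Icc

lemma volume_cube {L : ℝ} (hL : 0 ≤ L) : volume (cube L) = ENNReal.ofReal (L ^ 3) := by
  have : cube L = Icc (fun _ => 0) (fun _ => L) := by
    ext x
    simp only [cube, Set.mem_ofPred_eq, Set.mem_Icc, Pi.le_def]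
    constructor
    · intro h
      exact ⟨fun a => (h a).1, fun a => (h a).2⟩
    · intro h a
      exact ⟨h.1 a, h.2 a⟩
  rw [this, Real.volume_Icc_pi]
  simp only [sub_zero, Finset.prod_const, Finset.card_univ, Fintype.card_fin]
  rw [ENNReal.ofReal_pow hL]

/-- The grand partition function of the problem at `β = 1`, in terms of `GP`. -/
lemma grandXi_eq_GP (φ : ℝ → ℝ) (μ L : ℝ) :
    grandXi φ 1 (exp μ) L = GP (radK φ) μ (cube L) := by
  unfold grandXi canonicalZ GP
  refine tsum_congr fun N => ?_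
  unfold intD
  rw [mul_left_comm, ← lintegral_const_mul' _ _ ENNReal.ofReal_ne_top]
  congr 1
  refine lintegral_congr fun x => ?_
  unfold wt
  rw [← ENNReal.ofReal_mul (by positivity), ← Real.exp_nat_mul, ← Real.exp_add,
    offSum_eq_two_energy, Fintype.card_fin]
  congr 2
  ring

/-- The exponential series in the extended nonnegative reals. -/
lemma tsum_ofReal_exp_series {V : ℝ} (hV : 0 ≤ V) :
    ∑' N : ℕ, ENNReal.ofReal (V ^ N / N.factorial) = ENNReal.ofReal (exp V) := by
  have h1 : HasSum (fun N : ℕ => V ^ N / N.factorial) (exp V) := by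
    rw [Real.exp_eq_exp_ℝ]
    exact NormedSpace.expSeries_div_hasSum_exp V
  rw [← h1.tsum_eq]
  exact (ENNReal.ofReal_tsum_of_nonneg (fun N => by positivity) h1.summable).symm

/-- A uniform bound on the weight bounds the grand partition sum. -/
lemma GP_le_exp {ψ : R3 → R3 → ℝ} {μ : ℝ} {D : Set R3} (hD : MeasurableSet D) {V C b : ℝ}
    (hV0 : 0 ≤ V) (hV : volume D ≤ ENNReal.ofReal V)
    (hpt : ∀ (N : ℕ) (x : Fin N → R3), (∀ i, x i ∈ D) →
      wt ψ μ x ≤ ENNReal.ofReal (exp (C + b * N))) :
    GP ψ μ D ≤ ENNReal.ofReal (exp (C + V * exp b)) := by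
  have hterm : ∀ N : ℕ, (N.factorial : ℝ≥0∞)⁻¹ * intD ψ μ D (Fin N)
      ≤ ENNReal.ofReal (exp C) * ENNReal.ofReal ((V * exp b) ^ N / N.factorial) := by
    intro N
    have h1 : intD ψ μ D (Fin N) ≤ ENNReal.ofReal (exp (C + b * N)) * (ENNReal.ofReal V) ^ N := by
      unfold intD
      calc ∫⁻ x in Set.pi Set.univ (fun _ : Fin N => D), wt ψ μ x
          ≤ ∫⁻ _ in Set.pi Set.univ (fun _ : Fin N => D), ENNReal.ofReal (exp (C + b * N)) :=
            setLIntegral_mono' (measurableSet_pi_const hD) fun x hx =>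
              hpt N x fun i => hx i (Set.mem_univ i)
        _ = ENNReal.ofReal (exp (C + b * N)) * volume (Set.pi Set.univ (fun _ : Fin N => D)) := by
            rw [setLIntegral_const]
        _ ≤ ENNReal.ofReal (exp (C + b * N)) * (ENNReal.ofReal V) ^ N := by
            refine mul_le_mul_right ?_ _
            rw [volume_pi_pi]
            simp only [Finset.prod_const, Finset.card_univ, Fintype.card_fin]
            exact pow_le_pow_left' hV N
    have h2 : (N.factorial : ℝ≥0∞)⁻¹ = ENNReal.ofReal (1 / N.factorial) := by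
      rw [one_div, ENNReal.ofReal_inv_of_pos (by positivity)]
      simp
    calc (N.factorial : ℝ≥0∞)⁻¹ * intD ψ μ D (Fin N)
        ≤ (N.factorial : ℝ≥0∞)⁻¹ * (ENNReal.ofReal (exp (C + b * N)) * (ENNReal.ofReal V) ^ N) :=
          mul_le_mul_right h1 _
      _ = _ := by
          rw [h2, ← ENNReal.ofReal_pow hV0, ← ENNReal.ofReal_mul (exp_pos _).le,
            ← ENNReal.ofReal_mul (by positivity), ← ENNReal.ofReal_mul (exp_pos _).le]
          congr 1
          rw [Real.exp_add, mul_pow, ← Real.exp_nat_mul, mul_comm b]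
          ring
  calc GP ψ μ D ≤ ∑' N : ℕ, ENNReal.ofReal (exp C) * ENNReal.ofReal ((V * exp b) ^ N / N.factorial) :=
        ENNReal.tsum_le_tsum hterm
    _ = ENNReal.ofReal (exp C) * ENNReal.ofReal (exp (V * exp b)) := by
        rw [ENNReal.tsum_mul_left, tsum_ofReal_exp_series (by positivity)]
    _ = _ := by
        rw [← ENNReal.ofReal_mul (exp_pos _).le, ← Real.exp_add]

/-- Real logarithm of a partition function under an exponential bound. -/
lemma log_toReal_le {X : ℝ≥0∞} {t : ℝ} (h : X ≤ ENNReal.ofReal (exp t)) (h1 : 1 ≤ X) :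
    Real.log X.toReal ≤ t := by
  have hX : X ≠ ⊤ := ne_top_of_le_ne_top ENNReal.ofReal_ne_top h
  have h2 : X.toReal ≤ exp t := by
    have := ENNReal.toReal_mono ENNReal.ofReal_ne_top h
    rwa [ENNReal.toReal_ofReal (exp_pos _).le] at this
  have h3 : 0 < X.toReal := by
    have := ENNReal.toReal_mono hX h1
    simp at this
    linarith
  calc Real.log X.toReal ≤ Real.log (exp t) := Real.log_le_log h3 h2
    _ = t := Real.log_exp t

lemma log_toReal_nonneg {X : ℝ≥0∞} (h1 : 1 ≤ X) : 0 ≤ Real.log X.toReal := by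
  by_cases hX : X = ⊤
  · simp [hX]
  · apply Real.log_nonneg
    have := ENNReal.toReal_mono hX h1
    simpa using this

end Vale.Agent.Lib.P171
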