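import Vale.Agent.Lib.P171.Pot

/-!
# Pressure of the family: boundedness, convexity, elementary bounds
-/

open MeasureTheory Set Real Filter
open scoped ENNReal Topology

namespace Vale.Agent.Lib.P171

/-- The domain of parameters: summable tails dominated by the core. -/
def InDom (h : ℝ) (c : ℕ → ℝ) : Prop := Summable (fun k => |c k|) ∧ 2 * ∑' k, |c k| ≤ h

/-- Finite volume pressure of the family at chemical potential `μ`. -/
noncomputable def fp (h : ℝ) (c : ℕ → ℝ) (μ L : ℝ) : ℝ :=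
  (L ^ 3)⁻¹ * Real.log (GP (radK (pot h c)) μ (cube L)).toReal

/-- Pressure of the family at chemical potential `μ`. -/
noncomputable def Pr (h : ℝ) (c : ℕ → ℝ) (μ : ℝ) : ℝ :=
  Filter.limsup (fun L : ℝ => fp h c μ L) Filter.atTop

lemma pressure_pot_exp (h : ℝ) (c : ℕ → ℝ) (μ : ℝ) :
    pressure (pot h c) 1 (exp μ) = Pr h c μ := by
  unfold pressure Pr finitePressure fp
  simp_rw [grandXi_eq_GP]

/-- General facts on real limits superior under eventual two-sided bounds. -/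
lemma limsup_le_of_eventually {u : ℝ → ℝ} {m a : ℝ} (hm : ∀ᶠ L in atTop, m ≤ u L)
    (h : ∀ᶠ L in atTop, u L ≤ a) : limsup u atTop ≤ a :=
  limsup_le_of_le (IsBoundedUnder.isCoboundedUnder_le
    (isBoundedUnder_of_eventually_ge hm)) h

lemma le_limsup_of_frequently {u : ℝ → ℝ} {M a : ℝ} (hM : ∀ᶠ L in atTop, u L ≤ M)
    (h : ∃ᶠ L in atTop, a ≤ u L) : a ≤ limsup u atTop :=
  le_limsup_of_frequently_le h (isBoundedUnder_of_eventually_le hM)

lemma eventually_le_limsup_add {u : ℝ → ℝ} {M θ : ℝ} (hM : ∀ᶠ L in atTop, u L ≤ M) (hθ : 0 < θ) :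
    ∀ᶠ L in atTop, u L ≤ limsup u atTop + θ := by
  have h := eventually_lt_of_limsup_lt (u := u) (f := atTop) (b := limsup u atTop + θ)
    (by linarith) (isBoundedUnder_of_eventually_le hM)
  exact h.mono fun _ h' => h'.le

section
variable {h : ℝ} {c : ℕ → ℝ}

lemma wt_le_of_InDom (hd : InDom h c) (μ : ℝ) {N : ℕ} (x : Fin N → R3) :
    wt (radK (pot h c)) μ x ≤ ENNReal.ofReal (exp (0 + (μ + h / 2) * N)) := by
  unfold wt
  refine ENNReal.ofReal_le_ofReal (Real.exp_le_exp.2 ?_)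
  have h1 := half_offSum_ge (h := h) hd.1 x
  have h2 := hd.2
  have h3 := nearCount_nonneg x
  rw [Fintype.card_fin] at h1 ⊢
  have hN : (0 : ℝ) ≤ N := Nat.cast_nonneg N
  set a := ∑' k, |c k| with ha
  have h4 : 0 ≤ (h - 2 * a) / 2 * nearCount x := mul_nonneg (by linarith) h3
  have h5 : a * N ≤ h / 2 * N := mul_le_mul_of_nonneg_right (by linarith) hN
  nlinarith

lemma GP_le_of_InDom (hd : InDom h c) (μ : ℝ) {L : ℝ} (hL : 0 ≤ L) :
    GP (radK (pot h c)) μ (cube L) ≤ ENNReal.ofReal (exp (L ^ 3 * exp (μ + h / 2))) := by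
  have := GP_le_exp (ψ := radK (pot h c)) (μ := μ) (D := cube L) (V := L ^ 3) (C := 0)
    (b := μ + h / 2) (measurableSet_cube L) (by positivity) (volume_cube hL).le
    (fun N x _ => wt_le_of_InDom hd μ x)
  simpa using this

lemma fp_nonneg (h : ℝ) (c : ℕ → ℝ) (μ : ℝ) {L : ℝ} (hL : 0 < L) : 0 ≤ fp h c μ L := by
  unfold fp
  exact mul_nonneg (by positivity) (log_toReal_nonneg (one_le_GP _ _ _))

lemma fp_le (hd : InDom h c) (μ : ℝ) {L : ℝ} (hL : 0 < L) : fp h c μ L ≤ exp (μ + h / 2) := by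
  unfold fp
  have h1 := log_toReal_le (GP_le_of_InDom hd μ hL.le) (one_le_GP _ _ _)
  have h2 : 0 < L ^ 3 := by positivity
  rw [inv_mul_le_iff₀ h2]
  exact h1

lemma eventually_pos_real : ∀ᶠ L : ℝ in atTop, 0 < L := eventually_gt_atTop 0

lemma eventually_fp_nonneg (h : ℝ) (c : ℕ → ℝ) (μ : ℝ) : ∀ᶠ L in atTop, 0 ≤ fp h c μ L :=
  eventually_pos_real.mono fun _ hL => fp_nonneg h c μ hL

lemma eventually_fp_le (hd : InDom h c) (μ : ℝ) : ∀ᶠ L in atTop, fp h c μ L ≤ exp (μ + h / 2) :=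
  eventually_pos_real.mono fun _ hL => fp_le hd μ hL

lemma Pr_nonneg (hd : InDom h c) (μ : ℝ) : 0 ≤ Pr h c μ :=
  le_limsup_of_frequently (eventually_fp_le hd μ) (eventually_fp_nonneg h c μ).frequently

lemma Pr_le (hd : InDom h c) (μ : ℝ) : Pr h c μ ≤ exp (μ + h / 2) :=
  limsup_le_of_eventually (eventually_fp_nonneg h c μ) (eventually_fp_le hd μ)

lemma eventually_fp_le_Pr (hd : InDom h c) (μ : ℝ) {θ : ℝ} (hθ : 0 < θ) :
    ∀ᶠ L in atTop, fp h c μ L ≤ Pr h c μ + θ :=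
  eventually_le_limsup_add (eventually_fp_le hd μ) hθ

/-- A bound on `log GP` of the form `L^3 b` for all large `L` bounds the pressure. -/
lemma Pr_le_of_eventually {a : ℝ} (μ : ℝ) (H : ∀ᶠ L in atTop, fp h c μ L ≤ a) : Pr h c μ ≤ a :=
  limsup_le_of_eventually (eventually_fp_nonneg h c μ) H

end

lemma InDom_mix {h₁ h₂ s t : ℝ} {c₁ c₂ : ℕ → ℝ} (hd₁ : InDom h₁ c₁) (hd₂ : InDom h₂ c₂)
    (hs : 0 ≤ s) (ht : 0 ≤ t) :
    InDom (s * h₁ + t * h₂) (fun k => s * c₁ k + t * c₂ k) := by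
  have hle : ∀ k, |s * c₁ k + t * c₂ k| ≤ s * |c₁ k| + t * |c₂ k| := by
    intro k
    refine le_trans (abs_add_le _ _) ?_
    rw [abs_mul, abs_mul, abs_of_nonneg hs, abs_of_nonneg ht]
  have hsum : Summable fun k => s * |c₁ k| + t * |c₂ k| :=
    (hd₁.1.mul_left s).add (hd₂.1.mul_left t)
  have hs2 : Summable fun k => |s * c₁ k + t * c₂ k| :=
    Summable.of_nonneg_of_le (fun _ => abs_nonneg _) hle hsum
  refine ⟨hs2, ?_⟩
  have h1 : ∑' k, |s * c₁ k + t * c₂ k| ≤ s * ∑' k, |c₁ k| + t * ∑' k, |c₂ k| := by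
    rw [← tsum_mul_left, ← tsum_mul_left,
      ← Summable.tsum_add (hd₁.1.mul_left s) (hd₂.1.mul_left t)]
    exact hs2.tsum_le_tsum hle hsum
  have h2 := mul_le_mul_of_nonneg_left hd₁.2 hs
  have h3 := mul_le_mul_of_nonneg_left hd₂.2 ht
  nlinarith

/-- Finite volume convexity of the pressure in all the parameters. -/
lemma fp_convex {h₁ h₂ s t μ₁ μ₂ : ℝ} {c₁ c₂ : ℕ → ℝ} (hd₁ : InDom h₁ c₁) (hd₂ : InDom h₂ c₂)
    (hs : 0 ≤ s) (ht : 0 ≤ t) (hst : s + t = 1) {L : ℝ} (hL : 0 < L) :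
    fp (s * h₁ + t * h₂) (fun k => s * c₁ k + t * c₂ k) (s * μ₁ + t * μ₂) L
      ≤ s * fp h₁ c₁ μ₁ L + t * fp h₂ c₂ μ₂ L := by
  have hmeas₁ : Measurable (Function.uncurry (radK (pot h₁ c₁))) :=
    measurable_radK (measurable_pot _ hd₁.1)
  have hmeas₂ : Measurable (Function.uncurry (radK (pot h₂ c₂))) :=
    measurable_radK (measurable_pot _ hd₂.1)
  set ψ : Bool → R3 → R3 → ℝ := fun b => if b then radK (pot h₁ c₁) else radK (pot h₂ c₂) with hψ
  set m : Bool → ℝ := fun b => if b then μ₁ else μ₂ with hm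
  set p : Bool → ℝ := fun b => if b then s else t with hp
  have hH := GP_le_prod_rpow (T := Bool) Finset.univ (p := p) (ψ₀ := radK (pot (s * h₁ + t * h₂)
    (fun k => s * c₁ k + t * c₂ k))) (μ₀ := s * μ₁ + t * μ₂) (by simp [hp, hst])
    (by
      intro b _
      cases b <;> simp [hp, hs, ht]) ψ
    (by
      intro b _
      cases b
      · simpa [hψ] using hmeas₂
      · simpa [hψ] using hmeas₁) m (D := cube L) (measurableSet_cube L)
    (by
      intro N x _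
      unfold wt
      rw [prod_ofReal_exp_rpow]
      refine ENNReal.ofReal_le_ofReal (Real.exp_le_exp.2 (le_of_eq ?_))
      have h1 : offSum (radK (pot (s * h₁ + t * h₂) (fun k => s * c₁ k + t * c₂ k))) x
          = s * offSum (radK (pot h₁ c₁)) x + t * offSum (radK (pot h₂ c₂)) x := by
        rw [← offSum_const_mul, ← offSum_const_mul, ← offSum_add]
        congr 1
        funext u v
        exact pot_mix hd₁.1 hd₂.1 s t h₁ h₂ _
      rw [h1]
      simp [hp, hψ, hm]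
      ring)
  simp only [Fintype.sum_bool, Fintype.prod_bool, hp, hψ, hm, if_true, if_false] at hH
  simp only [Bool.false_eq_true, if_false] at hH
  set X₁ := GP (radK (pot h₁ c₁)) μ₁ (cube L) with hX₁
  set X₂ := GP (radK (pot h₂ c₂)) μ₂ (cube L) with hX₂
  set X₃ := GP (radK (pot (s * h₁ + t * h₂) (fun k => s * c₁ k + t * c₂ k)))
    (s * μ₁ + t * μ₂) (cube L) with hX₃
  have hX₁f : X₁ ≠ ⊤ := ne_top_of_le_ne_top ENNReal.ofReal_ne_top (GP_le_of_InDom hd₁ μ₁ hL.le)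
  have hX₂f : X₂ ≠ ⊤ := ne_top_of_le_ne_top ENNReal.ofReal_ne_top (GP_le_of_InDom hd₂ μ₂ hL.le)
  have hX₁1 : 1 ≤ X₁.toReal := by
    have := ENNReal.toReal_mono hX₁f (one_le_GP (radK (pot h₁ c₁)) μ₁ (cube L))
    simpa using this
  have hX₂1 : 1 ≤ X₂.toReal := by
    have := ENNReal.toReal_mono hX₂f (one_le_GP (radK (pot h₂ c₂)) μ₂ (cube L))
    simpa using this
  have hpos₁ : 0 < X₁.toReal := by linarith
  have hpos₂ : 0 < X₂.toReal := by linarith
  have hX₃1 : 1 ≤ X₃ := one_le_GP _ _ _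
  have hprodf : X₁ ^ s * X₂ ^ t ≠ ⊤ :=
    ENNReal.mul_ne_top (ENNReal.rpow_ne_top_of_nonneg hs hX₁f) (ENNReal.rpow_ne_top_of_nonneg ht hX₂f)
  have hX₃le : X₃.toReal ≤ X₁.toReal ^ s * X₂.toReal ^ t := by
    have := ENNReal.toReal_mono hprodf hH
    rwa [ENNReal.toReal_mul, ← ENNReal.toReal_rpow, ← ENNReal.toReal_rpow] at this
  have hX₃pos : 0 < X₃.toReal := by
    have hf : X₃ ≠ ⊤ := ne_top_of_le_ne_top hprodf hH
    have := ENNReal.toReal_mono hf hX₃1
    simp at this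
    linarith
  have hlog : Real.log X₃.toReal ≤ s * Real.log X₁.toReal + t * Real.log X₂.toReal := by
    calc Real.log X₃.toReal ≤ Real.log (X₁.toReal ^ s * X₂.toReal ^ t) :=
          Real.log_le_log hX₃pos hX₃le
      _ = _ := by
          rw [Real.log_mul (by positivity) (by positivity), Real.log_rpow hpos₁, Real.log_rpow hpos₂]
  unfold fp
  have hinv : 0 ≤ (L ^ 3)⁻¹ := by positivity
  calc (L ^ 3)⁻¹ * Real.log X₃.toReal
      ≤ (L ^ 3)⁻¹ * (s * Real.log X₁.toReal + t * Real.log X₂.toReal) :=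
        mul_le_mul_of_nonneg_left hlog hinv
    _ = _ := by ring

/-- Convexity of the pressure in all the parameters. -/
theorem Pr_convex {h₁ h₂ s t μ₁ μ₂ : ℝ} {c₁ c₂ : ℕ → ℝ} (hd₁ : InDom h₁ c₁) (hd₂ : InDom h₂ c₂)
    (hs : 0 ≤ s) (ht : 0 ≤ t) (hst : s + t = 1) :
    Pr (s * h₁ + t * h₂) (fun k => s * c₁ k + t * c₂ k) (s * μ₁ + t * μ₂)
      ≤ s * Pr h₁ c₁ μ₁ + t * Pr h₂ c₂ μ₂ := by
  refine le_of_forall_pos_le_add fun θ hθ => ?_
  refine Pr_le_of_eventually _ ?_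
  filter_upwards [eventually_fp_le_Pr hd₁ μ₁ hθ, eventually_fp_le_Pr hd₂ μ₂ hθ,
    eventually_pos_real] with L h1 h2 hL
  refine le_trans (fp_convex hd₁ hd₂ hs ht hst hL) ?_
  have h3 := mul_le_mul_of_nonneg_left h1 hs
  have h4 := mul_le_mul_of_nonneg_left h2 ht
  have h5 : s * θ + t * θ = θ := by rw [← add_mul, hst, one_mul]
  nlinarith

end Vale.Agent.Lib.P171
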