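import Vale.Agent.Lib.P171.KacUnique

/-!
# The pure core pressure: tangents, mean field upper bound, growth of the density
-/

open MeasureTheory Set Real Filter
open scoped ENNReal Topology

namespace Vale.Agent.Lib.P171

/-- The pure core pressure is convex in the chemical potential. -/
lemma P0_convex {h : ℝ} (hh : 0 ≤ h) : ConvexOn ℝ univ (fun ν => Pr h (fun _ => 0) ν) := by
  refine ⟨convex_univ, fun x _ y _ a b ha hb hab => ?_⟩
  simp only [smul_eq_mul]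
  refine Pr_convex' (InDom_zero hh) (InDom_zero hh) ha hb hab ?_ ?_ rfl
  · rw [← add_mul, hab, one_mul]
  · intro k; simp

lemma tendsto_Kr_zero : Tendsto (fun k : ℕ => Kr k 0) atTop (𝓝 0) := by
  have hg : Tendsto (fun k : ℕ => (sig k * √(2 * π))⁻¹) atTop (𝓝 0) := by
    refine tendsto_inv_atTop_zero.comp ?_
    refine Tendsto.atTop_mul_const sqrt_two_pi_pos ?_
    exact tendsto_atTop_add_const_right _ _ tendsto_natCast_atTop_atTop
  have h1 : Tendsto (fun k : ℕ => ((sig k * √(2 * π))⁻¹) ^ 3) atTop (𝓝 (0 ^ 3)) := hg.pow 3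
  simp only [ne_eq, OfNat.ofNat_ne_zero, not_false_eq_true, zero_pow] at h1
  refine h1.congr fun k => ?_
  rw [Kr_zero]

/-- The upper bound for a long range attraction on the pure core potential. -/
theorem no_bound {h δ μ V θ : ℝ} (hh : 8 * δ + 8 ≤ h) (hδ : 0 < δ) (hθ : 0 < θ) (hV0 : 0 < V)
    (hcov : ∀ ρ, 0 ≤ ρ → ∃ ν, Pr h (fun _ => 0) ν + (μ - ν) * ρ + (δ / 2) * ρ ^ 2 < V + θ / 8) :
    ∀ᶠ k in atTop, Pr h (fun i => 0 + δ * (if i = k then 1 else 0)) μ ≤ V + θ := by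
  classical
  have hh0 : 0 ≤ h := by linarith
  obtain ⟨ρmax, hρ1, hρ2⟩ : ∃ ρmax : ℝ, 1 ≤ ρmax ∧ |μ| + 3 + h / 2 ≤ (h / 2 - δ - 1) * ρmax := by
    refine ⟨max 1 ((|μ| + 3 + h / 2) / (h / 2 - δ - 1)), le_max_left _ _, ?_⟩
    have h1 : (|μ| + 3 + h / 2) / (h / 2 - δ - 1)
        ≤ max 1 ((|μ| + 3 + h / 2) / (h / 2 - δ - 1)) := le_max_right _ _
    rw [div_le_iff₀ (by linarith)] at h1
    linarith
  have hρ0 : 0 < ρmax := by linarith
  have hρsq : 0 < ρmax ^ 2 := by positivity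
  -- compactness
  have hcov2 : ∀ ρ ∈ Icc 0 ρmax, ∃ ν,
      Pr h (fun _ => 0) ν + (μ - ν) * ρ + (δ / 2) * ρ ^ 2 < V + θ / 8 := fun ρ hρ => hcov ρ hρ.1
  choose! νf hνf using hcov2
  have hnhds : ∀ ρ ∈ Icc 0 ρmax, {ρ' | Pr h (fun _ => 0) (νf ρ) + (μ - νf ρ) * ρ' +
      (δ / 2) * ρ' ^ 2 < V + θ / 8} ∈ 𝓝 ρ := by
    intro ρ hρ
    have hc : Continuous fun ρ' : ℝ => Pr h (fun _ => 0) (νf ρ) + (μ - νf ρ) * ρ' +
        (δ / 2) * ρ' ^ 2 := by fun_prop
    exact (isOpen_lt hc continuous_const).mem_nhds (hνf ρ hρ)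
  obtain ⟨t, ht, hcover⟩ := isCompact_Icc.elim_nhds_subcover _ hnhds
  set M : Finset ℝ := t.image νf with hM
  obtain ⟨B, hB0, hB⟩ : ∃ B : ℝ, 0 < B ∧ ∀ ν ∈ M, exp (ν + (h - 1) / 2) ≤ B := by
    refine ⟨∑ ν ∈ M, exp (ν + (h - 1) / 2) + 1, ?_, fun ν hν => ?_⟩
    · have : 0 ≤ ∑ ν ∈ M, exp (ν + (h - 1) / 2) := Finset.sum_nonneg fun _ _ => (exp_pos _).le
      linarith
    · have := Finset.single_le_sum (f := fun ν => exp (ν + (h - 1) / 2))
        (fun _ _ => (exp_pos _).le) hν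
      linarith
  obtain ⟨ζ₀, hζ0, hζ1, hζ2⟩ := exists_mul_le (a := B + ρmax) (b := 1) (c := θ / 8)
    (by norm_num) (by positivity) (by positivity)
  have hζB : ζ₀ * B ≤ θ / 8 := by nlinarith
  have hζρ : ζ₀ * ρmax ≤ θ / 8 := by nlinarith
  obtain ⟨w, hw0, hw1, hw2⟩ := exists_mul_le (a := ρmax ^ 2) (b := δ) (c := θ / 4)
    hδ (by positivity) hρsq.le
  have hz : ∑' _j : ℕ, |(0 : ℝ)| = 0 := by simp
  have hdom0 : InDom (h - ζ₀) (fun _ => 0) := InDom_zero (by linarith)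
  have hpert : ∀ ν ∈ M, Pr (h - ζ₀) (fun _ => 0) ν ≤ Pr h (fun _ => 0) ν + θ / 8 := by
    intro ν hν
    have h1 := Pr_perturb (μ := ν) (h₂ := h - 1) (t := ζ₀) (h' := h - ζ₀) (c' := fun _ => 0)
      (InDom_zero hh0) (InDom_zero (by linarith)) hζ0.le hζ1 (by ring) (fun k => by simp)
    have h2 := mul_le_mul_of_nonneg_left (hB ν hν) hζ0.le
    linarith
  have hMbd : ∀ ρ ∈ Icc 0 ρmax, ∃ μ'' ∈ M,
      Pr (h - ζ₀) (fun _ => 0) μ'' + ((μ + ζ₀) - μ'') * ρ + ((δ + w) / 2) * ρ ^ 2 ≤ V + θ / 2 := by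
    intro ρ hρ
    obtain ⟨ρ₀, hρ₀, hρmem⟩ : ∃ ρ₀ ∈ t, Pr h (fun _ => 0) (νf ρ₀) + (μ - νf ρ₀) * ρ +
        (δ / 2) * ρ ^ 2 < V + θ / 8 := by
      have := hcover hρ
      simp only [Set.mem_iUnion] at this
      obtain ⟨ρ₀, hρ₀, h1⟩ := this
      exact ⟨ρ₀, hρ₀, h1⟩
    refine ⟨νf ρ₀, Finset.mem_image_of_mem _ hρ₀, ?_⟩
    have h1 := hpert (νf ρ₀) (Finset.mem_image_of_mem _ hρ₀)
    have h2 : ζ₀ * ρ ≤ θ / 8 := (mul_le_mul_of_nonneg_left hρ.2 hζ0.le).trans hζρ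
    have hsq : ρ ^ 2 ≤ ρmax ^ 2 := pow_le_pow_left₀ hρ.1 hρ.2 2
    have h3 : w * ρ ^ 2 ≤ θ / 4 := (mul_le_mul_of_nonneg_left hsq hw0.le).trans hw2
    have h4 : ((δ + w) / 2) * ρ ^ 2 = (δ / 2) * ρ ^ 2 + (w * ρ ^ 2) / 2 := by ring
    have h5 : ((μ + ζ₀) - νf ρ₀) * ρ = (μ - νf ρ₀) * ρ + ζ₀ * ρ := by ring
    rw [h4, h5]
    linarith
  have hκ : h / 2 - δ - 1 ≤ (h - ζ₀ - 2 * ∑' _j : ℕ, |(0 : ℝ)|) / 2 - (δ + w) / 2 := by
    rw [hz]; linarith
  have hmain := kac_upper (h := h) (ζ₀ := ζ₀) (ε := δ) (e := δ + w) (μ := μ) (Q₀ := V + θ / 2)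
    (θ := θ / 2) (ρmax := ρmax) (c := fun _ => 0) (k₀ := 0) (fun _ => le_rfl) (fun _ _ => rfl)
    hζ0 hdom0 hδ.le (by linarith) (by positivity) (by positivity) (by linarith) hρ1
    (by
      rw [hz] at hκ ⊢
      have h2 := mul_le_mul_of_nonneg_right hκ hρ0.le
      have h3 : μ ≤ |μ| := le_abs_self μ
      linarith) M hMbd
  filter_upwards [hmain] with k hk
  linarith

lemma hasDerivAt_line {P : ℝ → ℝ} {R w ν : ℝ} (hd : HasDerivAt P R ν) :
    HasDerivAt (fun ε : ℝ => P (ν + ε * w)) (R * w) 0 := by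
  have h1 : HasDerivAt (fun ε : ℝ => ν + ε * w) w 0 := by
    simpa using ((hasDerivAt_id (0 : ℝ)).mul_const w).const_add ν
  have h2 : HasDerivAt P R (ν + 0 * w) := by
    simpa using hd
  exact h2.comp (0 : ℝ) h1

/-- The subgradient of the pressure at a point of the pure core line. -/
theorem tangent_slopes {h : ℝ} (hh : 0 < h) {r : ℝ → ℝ}
    (hd : ∀ ν, HasDerivAt (fun ν => Pr h (fun _ => 0) ν) (r ν) ν) (hr0 : ∀ ν, 0 ≤ r ν) (ν : ℝ) :
    ∃ g : StrongDual ℝ (V × ℝ), (∀ y ∈ Uh h, g (y - ((0 : V), ν)) ≤ PH h y - Pr h (fun _ => 0) ν) ∧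
      g ((0 : V), (1 : ℝ)) = r ν ∧ ∀ j, r ν ^ 2 / 2 - r ν * Kr j 0 / 2 ≤ g (eU j, (0 : ℝ)) := by
  have hy : ((0 : V), ν) ∈ Uh h := by
    simp only [Uh, Set.mem_ofPred_eq, norm_zero, mul_zero]
    exact hh
  have hPH0 : ∀ ν', PH h ((0 : V), ν') = Pr h (fun _ => 0) ν' := by
    intro ν'
    unfold PH
    simp only
    rw [coord_zero]
  obtain ⟨g, hg⟩ := exists_subgradient (isOpen_Uh h) (PH_convexOn h) (PH_continuousOn hh) hy
  rw [hPH0] at hg
  refine ⟨g, hg, ?_, ?_⟩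
  · -- the slope in the activity direction
    set T := g ((0 : V), (1 : ℝ)) with hT
    set φ : ℝ → ℝ := fun t => Pr h (fun _ => 0) (ν + t) - Pr h (fun _ => 0) ν - t * T with hφ
    have hφd : HasDerivAt φ (r ν - T) 0 := by
      have h1 : HasDerivAt (fun t => Pr h (fun _ => 0) (ν + t)) (r ν) 0 :=
        HasDerivAt.comp_const_add ν 0 (by simpa using hd ν)
      have h2 : HasDerivAt (fun t : ℝ => t * T) T 0 := by
        simpa using (hasDerivAt_id (0 : ℝ)).mul_const T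
      exact (h1.sub_const _).sub h2
    have hmin : IsLocalMin φ 0 := by
      refine Filter.Eventually.of_forall fun t => ?_
      have h1 := hg ((0 : V), ν + t) (by
        simp only [Uh, Set.mem_ofPred_eq, norm_zero, mul_zero]
        exact hh)
      rw [hPH0] at h1
      have h2 : ((0 : V), ν + t) - ((0 : V), ν) = t • ((0 : V), (1 : ℝ)) := by
        ext1
        · simp
        · simp
      rw [h2, map_smul, smul_eq_mul] at h1
      simp only [hφ, add_zero, sub_self, zero_mul]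
      linarith
    have := hmin.hasDerivAt_eq_zero hφd
    linarith
  · -- the slope in the direction of the kernels
    intro j
    set G := g (eU j, (0 : ℝ)) with hG
    set R := r ν with hR
    set K := Kr j 0 with hK
    have hclaim : ∀ M : ℝ, 0 ≤ M →
        R ^ 2 * (∫ t in (-M)..M, gs (tauk j) t) ^ 3 - R * K / 2 - R ^ 2 / 2 ≤ G := by
      intro M hM
      set ι := ∫ t in (-M)..M, gs (tauk j) t with hι
      set w := -(R * ι ^ 3) + K / 2 with hw
      have hψ : HasDerivAt (fun ε : ℝ => Pr h (fun _ => 0) (ν + ε * w)) (R * w) 0 :=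
        hasDerivAt_line (hd ν)
      have hslope := hasDerivAt_iff_tendsto_slope_zero.1 hψ
      have hlim : Tendsto (fun ε : ℝ => ε⁻¹ • (Pr h (fun _ => 0) (ν + (0 + ε) * w)
          - Pr h (fun _ => 0) (ν + 0 * w)) + R ^ 2 / 2) (𝓝[>] 0) (𝓝 (R * w + R ^ 2 / 2)) :=
        (hslope.mono_left (nhdsWithin_mono _ fun t ht => ne_of_gt ht)).add_const _
      have hev : ∀ᶠ ε in 𝓝[>] (0 : ℝ), -G ≤ ε⁻¹ • (Pr h (fun _ => 0) (ν + (0 + ε) * w)
          - Pr h (fun _ => 0) (ν + 0 * w)) + R ^ 2 / 2 := by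
        have h1 : ∀ᶠ ε in 𝓝[>] (0 : ℝ), ε < h / 2 :=
          (tendsto_id.mono_left nhdsWithin_le_nhds).eventually (gt_mem_nhds (by positivity))
        filter_upwards [h1, self_mem_nhdsWithin] with ε hε1 hε0
        have hε0' : 0 < ε := hε0
        have hmem : (((-ε) • eU j : V), ν) ∈ Uh h := by
          simp only [Uh, Set.mem_ofPred_eq]
          rw [norm_smul, norm_eU, mul_one, Real.norm_eq_abs, abs_neg, abs_of_pos hε0']
          linarith
        have h2 := hg _ hmem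
        have h3 : ((((-ε) • eU j : V), ν) : V × ℝ) - ((0 : V), ν) = (-ε) • (eU j, (0 : ℝ)) := by
          ext1
          · simp
          · simp
        rw [h3, map_smul, smul_eq_mul] at h2
        have h4 : PH h (((-ε) • eU j : V), ν) = Pr h (fun i => 0 + (-ε) * (if i = j then 1 else 0)) ν := by
          unfold PH
          simp only
          rw [coord_smul]
        rw [h4] at h2
        have h5 := Pr_repulsive (h := h) (ε := ε) (m := R) (M := M) hh.le hε0'.le (hr0 ν) hM j ν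
        rw [← hι, ← hK] at h5
        have h6 : ν - ε * R * ι ^ 3 + ε / 2 * K = ν + (0 + ε) * w := by
          rw [hw]; ring
        rw [h6] at h5
        simp only [zero_mul, add_zero, smul_eq_mul]
        have h7 : -ε * G ≤ Pr h (fun _ => 0) (ν + (0 + ε) * w) + ε / 2 * R ^ 2
            - Pr h (fun _ => 0) ν := by linarith
        have h8 : -G ≤ ε⁻¹ * (Pr h (fun _ => 0) (ν + (0 + ε) * w) - Pr h (fun _ => 0) ν)
            + R ^ 2 / 2 := by
          have h9 : ε * (-G) ≤ ε * (ε⁻¹ * (Pr h (fun _ => 0) (ν + (0 + ε) * w)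
              - Pr h (fun _ => 0) ν) + R ^ 2 / 2) := by
            rw [mul_add, mul_inv_cancel_left₀ hε0'.ne']
            linarith
          exact le_of_mul_le_mul_left h9 hε0'
        exact h8
      have h10 := ge_of_tendsto hlim hev
      rw [hw] at h10
      linarith
    have hlimM : Tendsto (fun M : ℝ => R ^ 2 * (∫ t in (-M)..M, gs (tauk j) t) ^ 3
        - R * K / 2 - R ^ 2 / 2) atTop (𝓝 (R ^ 2 * 1 ^ 3 - R * K / 2 - R ^ 2 / 2)) :=
      ((Tendsto.const_mul _ ((tendsto_mass (tauk_pos j)).pow 3)).sub_const _).sub_const _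
    have h11 := le_of_tendsto hlimM ((eventually_ge_atTop 0).mono fun M hM => hclaim M hM)
    linarith

/-- The growth of the derivative of the pure core pressure. -/
theorem P0_unbounded {h : ℝ} (hh : 0 ≤ h) {r : ℝ → ℝ}
    (hd : ∀ ν, HasDerivAt (fun ν => Pr h (fun _ => 0) ν) (r ν) ν) (R : ℝ) : ∃ ν, R ≤ r ν := by
  have hconv := P0_convex hh
  obtain ⟨n, hn⟩ := exists_nat_ge ((R + 1) * 64)
  set C : ℝ := (1 / 64) * ((1 / 2) * (h * ((n : ℝ) ^ 2 - n)) + Real.log n.factorial)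
    + Pr h (fun _ => 0) 0 with hC
  set ν : ℝ := max 1 C with hν
  have hν1 : 1 ≤ ν := le_max_left _ _
  have hνC : C ≤ ν := le_max_right _ _
  refine ⟨ν, ?_⟩
  have h1 := tangent_le hconv hd ν 0
  have h2 := Pr_zero_ge_term hh ν n
  by_contra hcon
  push Not at hcon
  have hνpos : 0 < ν := by linarith
  have h3 : r ν * ν < R * ν := mul_lt_mul_of_pos_right hcon hνpos
  have h4 : (R + 1) * ν ≤ ((n : ℝ) / 64) * ν :=
    mul_le_mul_of_nonneg_right (by linarith) hνpos.le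
  rw [hC] at hνC
  nlinarith

lemma exp_neg_nine_le : exp (-9) ≤ 0.0002 := by
  have h1 : exp 9 = (exp 1) ^ 9 := by
    rw [← Real.exp_nat_mul]; norm_num
  have h2 := Real.exp_one_gt_d9
  have h3 : (5000 : ℝ) ≤ exp 9 := by
    rw [h1]
    have h4 : (2.7 : ℝ) ≤ exp 1 := by linarith
    calc (5000 : ℝ) ≤ (2.7 : ℝ) ^ 9 := by norm_num
      _ ≤ (exp 1) ^ 9 := pow_le_pow_left₀ (by norm_num) h4 9
  rw [Real.exp_neg]
  calc (exp 9)⁻¹ ≤ (5000 : ℝ)⁻¹ := inv_anti₀ (by norm_num) h3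
    _ = 0.0002 := by norm_num

lemma exp_neg_ten_le : exp (-10) ≤ 0.0001 := by
  have h1 : exp (-10) = exp (-9) * exp (-1) := by
    rw [← Real.exp_add]; norm_num
  have h2 : exp (-1) ≤ 1 / 2 := by
    rw [Real.exp_neg, one_div]
    refine inv_anti₀ (by norm_num) ?_
    have := Real.exp_one_gt_d9
    linarith
  rw [h1]
  have h3 := exp_neg_nine_le
  have h4 : 0 < exp (-1) := exp_pos _
  have h5 : 0 < exp (-9) := exp_pos _
  nlinarith

/-- The gap criterion: the slope of the pure core pressure grows on a fixed interval. -/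
theorem P0_gap {h : ℝ} (hh : 0 ≤ h) {r : ℝ → ℝ}
    (hd : ∀ ν, HasDerivAt (fun ν => Pr h (fun _ => 0) ν) (r ν) ν) :
    (0 : ℝ) - (-10) < (30000 / 2) * (r 0 - r (-10)) := by
  have hconv := P0_convex hh
  have h1 := tangent_le hconv hd (-10) (-9)
  have h2 := tangent_le hconv hd 0 (-10)
  have h3 := Pr_zero_le_exp hh (-9)
  have h4 := Pr_zero_le_exp hh (-10)
  have h5 := Pr_zero_ge_one hh 0
  have h6 := Pr_nonneg (InDom_zero hh) (-10)
  have h7 := exp_neg_nine_le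
  have h8 := exp_neg_ten_le
  have h9 : Real.log (1 + exp 0) = Real.log 2 := by
    rw [Real.exp_zero]; norm_num
  rw [h9] at h5
  have h10 := Real.log_two_gt_d9
  norm_num at h1 h2 h5 h10 ⊢
  linarith

end Vale.Agent.Lib.P171
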